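import Mathlib

/-! Square-free algebra with a linear functional. -/

namespace Vale.Agent.P317

open Finset

structure Sys (V : Type) (A : Type) [CommRing A] [Algebra ℝ A] where
  x : V → A
  l : A →ₗ[ℝ] ℝ
  sq : ∀ s, x s * x s = 0

variable {V : Type} [Fintype V] [DecidableEq V] {A : Type} [CommRing A] [Algebra ℝ A]

abbrev Alg (V : Type) : Type :=
  MvPolynomial V ℝ ⧸ Ideal.span (Set.range fun s : V => (MvPolynomial.X s * MvPolynomial.X s : MvPolynomial V ℝ))

namespace Sys

variable (S : Sys V A)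

def lin (c : V → ℝ) : A := ∑ s, c s • S.x s

def mon (I : Finset V) : A := ∏ s ∈ I, S.x s

def Pos (y : A) : Prop := ∃ c : V → ℝ, (∀ s, 0 ≤ c s) ∧ y = S.lin c

def Lin (y : A) : Prop := ∃ c : V → ℝ, y = S.lin c

inductive Cone : A → Prop
  | one : Cone 1
  | mul {y m : A} : S.Pos y → Cone m → Cone (y * m)

def NN (a : A) : Prop := ∀ I, 0 ≤ S.l (S.mon I * a)

def Lor : Prop := ∀ m, S.Cone m → ∀ a b, S.Lin a → S.Pos b →
  S.l (m * a * a) * S.l (m * b * b) ≤ S.l (m * a * b) ^ 2

omit [Fintype V] [DecidableEq V] in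
@[simp] theorem mon_empty : S.mon ∅ = 1 := by simp [mon]

omit [Fintype V] in
theorem mon_insert {s : V} {I : Finset V} (h : s ∉ I) : S.mon (insert s I) = S.x s * S.mon I := by
  simp [mon, prod_insert h]

omit [Fintype V] in
theorem x_mul_mon {s : V} {I : Finset V} (h : s ∈ I) : S.x s * S.mon I = 0 := by
  rw [← insert_erase h, S.mon_insert (notMem_erase s I), ← mul_assoc, S.sq, zero_mul]

omit [Fintype V] in
theorem mon_union {I J : Finset V} (h : Disjoint I J) : S.mon (I ∪ J) = S.mon I * S.mon J := by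
  simp [mon, prod_union h]

variable {S}

theorem Pos.lin {y : A} (h : S.Pos y) : S.Lin y := by
  obtain ⟨c, _, rfl⟩ := h
  exact ⟨c, rfl⟩

theorem pos_x (s : V) : S.Pos (S.x s) :=
  ⟨Pi.single s 1, fun t => by by_cases h : t = s <;> simp [h], by
    simp [Sys.lin, Pi.single_apply, ite_smul]⟩

omit [DecidableEq V] in
theorem Pos.add {y z : A} (h : S.Pos y) (h' : S.Pos z) : S.Pos (y + z) := by
  obtain ⟨c, hc, rfl⟩ := h
  obtain ⟨c', hc', rfl⟩ := h'
  exact ⟨c + c', fun s => add_nonneg (hc s) (hc' s), by simp [Sys.lin, add_smul, sum_add_distrib]⟩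

omit [DecidableEq V] in
theorem Pos.smul {y : A} (h : S.Pos y) {t : ℝ} (ht : 0 ≤ t) : S.Pos (t • y) := by
  obtain ⟨c, hc, rfl⟩ := h
  exact ⟨t • c, fun s => mul_nonneg ht (hc s), by simp [Sys.lin, smul_sum, mul_smul]⟩

theorem lin_x (s : V) : S.Lin (S.x s) := (pos_x s).lin

omit [DecidableEq V] in
theorem Lin.add {y z : A} (h : S.Lin y) (h' : S.Lin z) : S.Lin (y + z) := by
  obtain ⟨c, rfl⟩ := h
  obtain ⟨c', rfl⟩ := h'
  exact ⟨c + c', by simp [Sys.lin, add_smul, sum_add_distrib]⟩

omit [DecidableEq V] in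
theorem Lin.smul {y : A} (h : S.Lin y) (t : ℝ) : S.Lin (t • y) := by
  obtain ⟨c, rfl⟩ := h
  exact ⟨t • c, by simp [Sys.lin, smul_sum, mul_smul]⟩

omit [DecidableEq V] in
theorem Lin.sub {y z : A} (h : S.Lin y) (h' : S.Lin z) : S.Lin (y - z) := by
  have := h.add (h'.smul (-1))
  simpa [sub_eq_add_neg] using this

omit [DecidableEq V] in
theorem Cone.mul_cone {m m' : A} (h : S.Cone m) (h' : S.Cone m') : S.Cone (m * m') := by
  induction h with
  | one => simpa using h'
  | mul hy _ ih => rw [mul_assoc]; exact Cone.mul hy ih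

omit [DecidableEq V] in
theorem Pos.cone {y : A} (h : S.Pos y) : S.Cone y := by simpa using Cone.mul h Cone.one

omit [DecidableEq V] in
theorem Cone.mul_pos {m y : A} (h : S.Cone m) (h' : S.Pos y) : S.Cone (m * y) :=
  h.mul_cone h'.cone

theorem cone_mon (I : Finset V) : S.Cone (S.mon I) := by
  induction I using Finset.induction_on with
  | empty => simpa using Cone.one
  | insert s I h ih => rw [S.mon_insert h]; exact Cone.mul (pos_x s) ih

theorem NN.x_mul {a : A} (h : S.NN a) (s : V) : S.NN (S.x s * a) := fun I => by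
  by_cases hs : s ∈ I
  · rw [← mul_assoc, mul_comm (S.mon I), S.x_mul_mon hs]; simp
  · rw [← mul_assoc, mul_comm (S.mon I), ← S.mon_insert hs]; exact h _

omit [DecidableEq V] in
theorem l_mul_lin (a : A) (c : V → ℝ) : S.l (a * S.lin c) = ∑ s, c s * S.l (a * S.x s) := by
  simp [Sys.lin, mul_sum]

theorem NN.pos_mul {a y : A} (h : S.NN a) (hy : S.Pos y) : S.NN (y * a) := fun I => by
  obtain ⟨c, hc, rfl⟩ := hy
  have : S.mon I * (S.lin c * a) = S.mon I * a * S.lin c := by ring
  rw [this, l_mul_lin]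
  refine sum_nonneg fun s _ => mul_nonneg (hc s) ?_
  have := h.x_mul s I
  rwa [show S.mon I * (S.x s * a) = S.mon I * a * S.x s by ring] at this

theorem Cone.nn (hw : S.NN 1) {m : A} (h : S.Cone m) : S.NN m := by
  induction h with
  | one => exact hw
  | mul hy _ ih => exact ih.pos_mul hy

theorem Cone.nonneg (hw : S.NN 1) {m : A} (h : S.Cone m) : 0 ≤ S.l m := by
  simpa using h.nn hw ∅

omit [DecidableEq V] in
/-- if all coordinates vanish then every linear form is killed -/
theorem Lin.l_eq_zero {a y : A} (hy : S.Lin y) (h : ∀ s, S.l (a * S.x s) = 0) : S.l (a * y) = 0 := by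
  obtain ⟨c, rfl⟩ := hy
  simp [l_mul_lin, h]

/-- negative semidefiniteness on the orthogonal complement of a nonnegative vector -/
theorem ns (hw : S.NN 1) (hL : S.Lor) {m p b y : A} (hm : S.Cone m) (hp : S.Pos p) (hb : S.Pos b)
    (hy : S.Lin y) (h0 : S.l (m * p * y) = 0) (h1 : 0 < S.l (m * p * b)) : S.l (m * y * y) ≤ 0 := by
  by_contra hc
  push Not at hc
  set α := S.l (m * y * y)
  set β := S.l (m * p * b)
  set γ := S.l (m * y * b)
  have key : ∀ t : ℝ, 0 ≤ t → α * (2 * t * β) ≤ (t * γ) ^ 2 := by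
    intro t ht
    have h := hL m hm y (p + t • b) hy (hp.add (hb.smul ht))
    have e1 : S.l (m * (p + t • b) * (p + t • b)) =
        S.l (m * p * p) + 2 * t * β + t ^ 2 * S.l (m * b * b) := by
      have : m * (p + t • b) * (p + t • b) =
          m * p * p + (2 * t) • (m * p * b) + (t ^ 2) • (m * b * b) := by
        simp only [Algebra.smul_def, map_mul, map_pow, map_ofNat]; ring
      rw [this]; simp [β]
    have e2 : S.l (m * y * (p + t • b)) = t * γ := by
      have : m * y * (p + t • b) = m * p * y + t • (m * y * b) := by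
        simp only [Algebra.smul_def]; ring
      rw [this]; simp [γ, h0]
    rw [e1, e2] at h
    have n1 := ((hm.mul_pos hp).mul_pos hp).nonneg hw
    have n2 := ((hm.mul_pos hb).mul_pos hb).nonneg hw
    refine le_trans (mul_le_mul_of_nonneg_left ?_ hc.le) h
    nlinarith [sq_nonneg t]
  have hpos : 0 < α * β / (γ ^ 2 + 1) := by positivity
  have := key _ hpos.le
  set t := α * β / (γ ^ 2 + 1)
  have ht : t * (γ ^ 2 + 1) = α * β := by simp only [t]; field_simp
  have : 2 * (α * β) ≤ t * γ ^ 2 := by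
    have h2 : t * (2 * (α * β)) ≤ t * (t * γ ^ 2) := by nlinarith
    exact le_of_mul_le_mul_left h2 hpos
  nlinarith [mul_pos hc h1]

end Sys

open MvPolynomial in
theorem exists_sys (w : Finset V → ℝ) : ∃ S : Sys V (Alg V), ∀ I, S.l (S.mon I) = w I := by
  classical
  let l0 : MvPolynomial V ℝ →ₗ[ℝ] ℝ :=
    (basisMonomials V ℝ).constr ℝ (fun d => if ∀ s, d s ≤ 1 then w d.support else 0)
  have hl0 : ∀ d, l0 (monomial d 1) = if ∀ s, d s ≤ 1 then w d.support else 0 := by
    intro d
    have := (basisMonomials V ℝ).constr_basis ℝ (fun d => if ∀ s, d s ≤ 1 then w d.support else 0) d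
    simpa using this
  let J : Ideal (MvPolynomial V ℝ) := Ideal.span (Set.range fun s : V => (X s * X s : MvPolynomial V ℝ))
  have hk : ∀ (s : V) (p : MvPolynomial V ℝ), l0 (p * (X s * X s)) = 0 := by
    intro s p
    induction p using MvPolynomial.induction_on' with
    | monomial d c =>
      have : (monomial d c * (X s * X s) : MvPolynomial V ℝ) =
          c • monomial (d + Finsupp.single s 2) 1 := by
        rw [← pow_two, X_pow_eq_monomial, monomial_mul, smul_monomial]; simp
      rw [this, map_smul, hl0, if_neg]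
      · simp
      · intro h
        have := h s
        simp at this
    | add p q hp hq => rw [add_mul, map_add, hp, hq, add_zero]
  have hJ : J.restrictScalars ℝ ≤ LinearMap.ker l0 := by
    intro p hp
    have hp' : p ∈ J := hp
    obtain ⟨c, rfl⟩ := Ideal.mem_span_range_iff_exists_fun.1 hp'
    simp [hk]
  let l : Alg V →ₗ[ℝ] ℝ :=
    ((J.restrictScalars ℝ).liftQ l0 hJ) ∘ₗ (Submodule.Quotient.restrictScalarsEquiv ℝ J).symm.toLinearMap
  have hl : ∀ p, l (Ideal.Quotient.mk J p) = l0 p := fun p => rfl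
  refine ⟨⟨fun s => Ideal.Quotient.mk J (X s), l, fun s => ?_⟩, fun I => ?_⟩
  · rw [← map_mul, Ideal.Quotient.eq_zero_iff_mem]
    exact Ideal.subset_span ⟨s, rfl⟩
  · simp only [Sys.mon]
    rw [← map_prod, hl]
    have e : (∏ s ∈ I, X s : MvPolynomial V ℝ) = monomial (∑ s ∈ I, Finsupp.single s 1) 1 := by
      rw [monomial_sum_one]; rfl
    have e2 : ∀ t, (∑ s ∈ I, Finsupp.single s 1 : V →₀ ℕ) t = if t ∈ I then 1 else 0 := by
      intro t
      simp [Finsupp.finsetSum_apply, Finsupp.single_apply]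
    rw [e, hl0, if_pos]
    · congr 1
      ext t
      simp [e2]
    · intro s
      rw [e2]; split_ifs <;> simp

end Vale.Agent.P317
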