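import Vale.Agent.P317.Inst

/-! One step of the annealing. -/

namespace Vale.Agent.P317

open Finset

variable {G : Type} [Fintype G] [DecidableEq G] {Cs : Finset G} {X Y : Fx Cs}

def bump (k : G → ℕ) (e : G) : G → ℕ := fun g => k g + if g = e then 1 else 0

theorem wt_bump (k : G → ℕ) (e : G) (I : Finset (G × Bool)) :
    wt X Y (bump k e) I = wt X Y k I * if (e, false) ∈ I then 2 else 1 := by
  have : fe (bump k e) I = fe k I + if (e, false) ∈ I then 1 else 0 := by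
    simp [fe, bump, sum_add_distrib]
  unfold wt
  rw [this]
  split_ifs <;> simp [pow_succ]

theorem sum_bump (k : G → ℕ) (e : G) (T : Finset (Finset (G × Bool))) :
    ∑ I ∈ T, wt X Y k I ≤ ∑ I ∈ T, wt X Y (bump k e) I ∧
      ∑ I ∈ T, wt X Y (bump k e) I ≤ 2 * ∑ I ∈ T, wt X Y k I := by
  rw [mul_sum]
  constructor <;> refine sum_le_sum fun I _ => ?_ <;> rw [wt_bump] <;>
    have := wt_nonneg X Y k I <;> split_ifs <;> linarith

theorem Zk_bump (k : G → ℕ) (e : G) : Zk X Y (bump k e) =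
    Zk X Y k + ∑ I ∈ trans univ, wt X Y k I * if (e, false) ∈ I then 1 else 0 := by
  simp only [Zk, ← sum_add_distrib]
  refine sum_congr rfl fun I _ => ?_
  rw [wt_bump]; split_ifs <;> ring

theorem Nk_nonneg (k : G → ℕ) (i j : G) : 0 ≤ Nk X Y k i j := sum_nonneg fun _ _ => wt_nonneg _ _ _ _

variable {k : G → ℕ} {h h' : G → G → ℝ} {R : ℝ}

theorem GoodK.step (H : GoodK X Y k h R) (e : G)
    (hh : ∀ i j, (h' i j = h i j / 2 ∧ Zk X Y k ≤ 2 * (h i j * Nk X Y k i j)) ∨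
      (h' i j = 2 * h i j ∧ h i j * Nk X Y k i j ≤ 2 * Zk X Y k)) : GoodK X Y (bump k e) h' R := by
  have z := sum_bump (X := X) (Y := Y) k e (trans univ)
  have hZ := H.hZ
  have hR := H.hR
  change Zk X Y k ≤ Zk X Y (bump k e) ∧ Zk X Y (bump k e) ≤ 2 * Zk X Y k at z
  have n : ∀ i j, h i j * Nk X Y k i j ≤ h i j * Nk X Y (bump k e) i j ∧
      h i j * Nk X Y (bump k e) i j ≤ 2 * (h i j * Nk X Y k i j) := fun i j => by
    have := sum_bump (X := X) (Y := Y) k e (Nset i j)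
    have hp := (H.pos i j).le
    exact ⟨mul_le_mul_of_nonneg_left this.1 hp, by
      rw [mul_left_comm]; exact mul_le_mul_of_nonneg_left this.2 hp⟩
  refine ⟨by linarith, hR, fun i j => ?_, fun i j => ?_, fun i j => ?_⟩
  · have := H.pos i j
    rcases hh i j with ⟨h1, -⟩ | ⟨h1, -⟩ <;> rw [h1] <;> positivity
  · have := n i j
    rcases hh i j with ⟨h1, h2⟩ | ⟨h1, h2⟩
    · right; rw [h1]; linarith
    · rcases H.low i j with h3 | h3
      · left
        have h4 := (sum_bump (X := X) (Y := Y) k e (Nset i j)).2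
        change Nk X Y (bump k e) i j ≤ 2 * Nk X Y k i j at h4
        exact le_antisymm (by linarith) (Nk_nonneg _ _ _)
      · right; rw [h1]; linarith
  · have := n i j
    have h3 := H.up i j
    rcases hh i j with ⟨h1, h2⟩ | ⟨h1, h2⟩ <;> rw [h1] <;> nlinarith

theorem Wk_nonneg (hh : ∀ i j, 0 < h i j) (I : Finset (G × Bool)) : 0 ≤ Wk X Y k h I := by
  refine mul_nonneg (wt_nonneg _ _ _ _) ?_
  rcases type_cases I with h1 | ⟨i, j, h1⟩ | ⟨h1, h2⟩
  · rw [tau_T _ h1]; norm_num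
  · rw [tau_N _ h1]; exact (hh i j).le
  · rw [tau_O _ h1 h2]

variable {c η Γ : ℝ} {T : ℕ} {acc : Finset (G × Bool) → Finset (G × Bool) → ℝ}

theorem GoodK.step_warm (H : GoodK X Y k h R) {e : G} (H' : GoodK X Y (bump k e) h' R)
    (hh : ∀ i j, h' i j = h i j / 2 ∨ h' i j = 2 * h i j)
    (M : Metro (Wk X Y (bump k e) h') c acc) (hΓ : 8 ≤ Γ) (hη : 0 ≤ η) (hT0 : 0 < T)
    (hT : (60 * Γ * R * (Fintype.card G + 1) ^ 3) ^ 2 ≤ η ^ 2 * c * T)
    {f : Finset (G × Bool) → ℝ} (hf : ∀ I, 0 ≤ f I ∧ f I ≤ 1) :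
    |Ep (Wk X Y k h) ((Pop c acc ^ T) f) - Ep (Wk X Y (bump k e) h') f| ≤ η := by
  set W := Wk X Y k h
  set W' := Wk X Y (bump k e) h'
  have hp : 0 < ∑ I, W I := H.hZ.trans_le H.tot.1
  have hp' : 0 < ∑ I, W' I := H'.hZ.trans_le H'.tot.1
  have h4 : ∑ I, W' I ≤ 4 * ∑ I, W I := by
    rw [mul_sum]
    refine sum_le_sum fun I _ => ?_
    have h0 := wt_nonneg X Y k I
    simp only [W, W', Wk, wt_bump]
    rcases type_cases I with h1 | ⟨i, j, h1⟩ | ⟨h1, h2⟩
    · rw [tau_T _ h1, tau_T _ h1]; split_ifs <;> linarith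
    · rw [tau_N _ h1, tau_N _ h1]
      have := mul_nonneg h0 (H.pos i j).le
      rcases hh i j with h2 | h2 <;> rw [h2] <;> split_ifs <;> nlinarith
    · rw [tau_O _ h1 h2, tau_O _ h1 h2]; simp
  set u := (∑ I, W' I) / ∑ I, W I with hu
  have hu0 : 0 ≤ u := by positivity
  have hu4 : u ≤ 4 := by rw [hu, div_le_iff₀ hp]; exact h4
  let g : Finset (G × Bool) → ℝ := fun I =>
    (if pin (some (e, false)) I then 1 / 2 else 1) * (tau h I / tau h' I) * u - 1
  have hg : ∀ I, W' I * (1 + g I) = W I * u := by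
    intro I
    simp only [W, W', Wk, wt_bump, g, pin, Option.elim, decide_eq_true_eq]
    rcases type_cases I with h1 | ⟨i, j, h1⟩ | ⟨h1, h2⟩
    · rw [tau_T _ h1, tau_T _ h1]; split_ifs <;> ring
    · rw [tau_N _ h1, tau_N _ h1]
      have := (H'.pos i j).ne'
      split_ifs <;> field_simp <;> ring
    · rw [tau_O _ h1 h2, tau_O _ h1 h2]; simp
  have := H'.warm M (o := some (e, false)) (Γ := Γ) (g := g) ⟨⟨fun b => (if b then 1 / 2 else 1) * u - 1,
    fun b => by rw [abs_le]; cases b <;> simp <;> constructor <;> linarith,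
    fun I hI => by simp only [g, tau_T _ hI]; simp⟩, fun i j =>
    ⟨fun b => (if b then 1 / 2 else 1) * (h i j / h' i j) * u - 1, fun b => ?_,
      fun I hI => by simp only [g, tau_N _ hI]⟩⟩ ?_ hη hT0 hT hf
  · have e : ∑ I, W' I * ((1 + g I) * (Pop c acc ^ T) f I) = (∑ I, W I * (Pop c acc ^ T) f I) * u := by
      rw [sum_mul]
      exact sum_congr rfl fun I _ => by rw [← mul_assoc, hg]; ring
    change |(∑ I, W' I * ((1 + g I) * (Pop c acc ^ T) f I)) / ∑ I, W' I - _| ≤ η at this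
    rw [e] at this
    convert this using 3
    rw [hu, Ep]
    field_simp
  · have h1 := (H.pos i j).ne'
    have : h i j / h' i j = 2 ∨ h i j / h' i j = 1 / 2 := by
      rcases hh i j with h2 | h2 <;> rw [h2] <;> [left; right] <;> field_simp
    rw [abs_le]
    rcases this with h2 | h2 <;> rw [h2] <;> cases b <;> simp <;> constructor <;> linarith
  · have : ∀ I, W' I * g I = W I * u - W' I := fun I => by rw [← hg]; ring
    change ∑ I, W' I * g I = 0
    simp only [this, sum_sub_distrib, ← sum_mul, hu]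
    field_simp; ring

theorem GoodK.same_warm (H : GoodK X Y k h R) (M : Metro (Wk X Y k h) c acc) (hΓ : 8 ≤ Γ)
    (hη : 0 ≤ η) (hT0 : 0 < T) (hT : (60 * Γ * R * (Fintype.card G + 1) ^ 3) ^ 2 ≤ η ^ 2 * c * T)
    {f : Finset (G × Bool) → ℝ} (hf : ∀ I, 0 ≤ f I ∧ f I ≤ 1) :
    |Ep (Wk X Y k h) ((Pop c acc ^ T) f) - Ep (Wk X Y k h) f| ≤ η := by
  have h0 : |(0 : ℝ)| ≤ Γ := by simp; linarith
  have := H.warm M (o := none) (Γ := Γ) (g := fun _ => 0) ⟨⟨fun _ => 0, fun _ => h0, fun _ _ => rfl⟩,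
    fun _ _ => ⟨fun _ => 0, fun _ => h0, fun _ _ => rfl⟩⟩ (by simp) hη hT0 hT hf
  simpa [Ep] using this

theorem GoodK.init_warm (H : GoodK X Y k h R) (M : Metro (Wk X Y k h) c acc)
    (hΓ : 1 + (Fintype.card G : ℝ) ^ 2 * R ≤ Γ) {S0 : Finset (G × Bool)} (hS0 : S0 ∈ trans univ) {η0 : ℝ}
    (h0 : Zk X Y k ≤ (1 + η0) * wt X Y k S0)
    (hη : 0 ≤ η) (hT0 : 0 < T) (hT : (60 * Γ * R * (Fintype.card G + 1) ^ 3) ^ 2 ≤ η ^ 2 * c * T)
    {f : Finset (G × Bool) → ℝ} (hf : ∀ I, 0 ≤ f I ∧ f I ≤ 1) :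
    |(Pop c acc ^ T) f S0 - Ep (Wk X Y k h) f| ≤ η0 + η := by
  set W := Wk X Y k h
  have hZ := H.hZ
  have hp : 0 < ∑ I, W I := H.hZ.trans_le H.tot.1
  set u := (∑ I, W I) / Zk X Y k with hu
  have hu0 : 1 ≤ u := by rw [hu, le_div_iff₀ hZ, one_mul]; exact H.tot.1
  have hu1 : u ≤ Γ := by
    rw [hu, div_le_iff₀ hZ]; exact H.tot.2.trans (mul_le_mul_of_nonneg_right hΓ hZ.le)
  let g : Finset (G × Bool) → ℝ := fun I => (if I ∈ trans univ then u else 0) - 1
  have hg : ∀ F : Finset (G × Bool) → ℝ, ∑ I, W I * ((1 + g I) * F I) =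
      u * ∑ I ∈ trans univ, wt X Y k I * F I := by
    intro F
    rw [sum_Wk, sum_eq_zero (s := univ), add_zero, mul_sum]
    · exact sum_congr rfl fun I hI => by simp only [g, if_pos hI]; ring
    · refine fun i _ => sum_eq_zero fun j _ => ?_
      rw [sum_eq_zero, mul_zero]
      intro I hI
      simp [g, not_T_of_N hI]
  have := H.warm M (o := none) (Γ := Γ) (g := g) ⟨⟨fun _ => u - 1,
    fun b => by rw [abs_le]; constructor <;> linarith, fun I hI => by simp only [g, if_pos hI]⟩,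
    fun i j => ⟨fun _ => -1, fun b => by simp; linarith,
      fun I hI => by simp [g, not_T_of_N hI]⟩⟩ (by
      have := hg fun _ => 1
      simp only [mul_one, mul_add, sum_add_distrib] at this
      have e : u * ∑ I ∈ trans univ, wt X Y k I = ∑ I, W I := div_mul_cancel₀ _ hZ.ne'
      linarith) hη hT0 hT hf
  rw [hg] at this
  set F := (Pop c acc ^ T) f
  have hF := M.unit hf T
  have e : (u * ∑ I ∈ trans univ, wt X Y k I * F I) / ∑ I, W I =
      (∑ I ∈ trans univ, wt X Y k I * F I) / Zk X Y k := by rw [hu]; field_simp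
  rw [e] at this
  have h2 : |F S0 - (∑ I ∈ trans univ, wt X Y k I * F I) / Zk X Y k| ≤ η0 := by
    have e1 := add_sum_erase _ (fun I => wt X Y k I * F I) hS0
    have e2 := add_sum_erase _ (fun I => wt X Y k I) hS0
    have b1 : 0 ≤ ∑ I ∈ (trans univ).erase S0, wt X Y k I * F I :=
      sum_nonneg fun I _ => mul_nonneg (wt_nonneg _ _ _ _) (hF I).1
    have b2 : ∑ I ∈ (trans univ).erase S0, wt X Y k I * F I ≤ ∑ I ∈ (trans univ).erase S0, wt X Y k I :=
      sum_le_sum fun I _ => mul_le_of_le_one_right (wt_nonneg _ _ _ _) (hF I).2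
    change _ = Zk X Y k at e2
    have b3 := wt_nonneg X Y k S0
    have b4 : 0 ≤ F S0 ∧ F S0 ≤ 1 := hF S0
    have b5 : 0 ≤ η0 := by
      by_contra hc
      have b7 : wt X Y k S0 ≤ Zk X Y k := by linarith
      have b8 : 0 < wt X Y k S0 := by
        by_contra h9
        rw [le_antisymm (not_lt.1 h9) b3] at h0
        linarith
      nlinarith
    rw [← e1, sub_div' hZ.ne', abs_div, abs_of_pos hZ, div_le_iff₀ hZ, abs_le]
    beta_reduce at e1 e2
    set a := ∑ I ∈ (trans univ).erase S0, wt X Y k I * F I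
    set b := ∑ I ∈ (trans univ).erase S0, wt X Y k I
    have b6 : b ≤ η0 * Zk X Y k := by nlinarith
    rw [← e2] at b6 ⊢
    constructor <;> nlinarith
  exact (abs_sub_le _ _ _).trans (add_le_add h2 this)

end Vale.Agent.P317
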