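import Mathlib

/-! Linear algebra for the Lorentzian property. -/

namespace Vale.Agent.P317

open Finset Matrix

variable {V : Type} [Fintype V] [DecidableEq V]

theorem quad_nonpos (B : Matrix V V ℝ) (hB : B.IsHermitian) (u : V → ℝ)
    (h : ∀ (μ : ℝ) (b : V → ℝ), 0 < μ → B *ᵥ b = μ • b → b ⬝ᵥ u = 0) : u ⬝ᵥ B *ᵥ u ≤ 0 := by
  set e := hB.eigenvectorBasis
  have hu : u = ∑ k, ((e k).ofLp ⬝ᵥ u) • (e k).ofLp := by
    have := e.sum_repr' (WithLp.toLp 2 u)
    have h2 := congrArg WithLp.ofLp this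
    simp only [WithLp.ofLp_sum, WithLp.ofLp_smul] at h2
    refine h2.symm.trans (sum_congr rfl fun k _ => ?_)
    congr 1
    simp [PiLp.inner_apply, dotProduct, mul_comm]
  have : B *ᵥ u = ∑ k, (((e k).ofLp ⬝ᵥ u) * hB.eigenvalues k) • (e k).ofLp := by
    conv_lhs => rw [hu]
    rw [Matrix.mulVec_sum]
    refine sum_congr rfl fun k _ => ?_
    rw [Matrix.mulVec_smul, hB.mulVec_eigenvectorBasis, smul_smul]
  rw [this, dotProduct_sum]
  refine sum_nonpos fun k _ => ?_
  rw [dotProduct_smul, dotProduct_comm u, smul_eq_mul]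
  by_cases hk : 0 < hB.eigenvalues k
  · rw [h _ _ hk (hB.mulVec_eigenvectorBasis k)]; simp
  · push Not at hk
    nlinarith [sq_nonneg ((e k).ofLp ⬝ᵥ u)]

omit [DecidableEq V] in
theorem lor_of_hyper (M : Matrix V V ℝ) (hs : ∀ i j, M i j = M j i) (lam : V → ℝ)
    (h : ∀ c, lam ⬝ᵥ c = 0 → c ⬝ᵥ M *ᵥ c ≤ 0) (c c' : V → ℝ) (h0 : 0 ≤ c' ⬝ᵥ M *ᵥ c') :
    (c ⬝ᵥ M *ᵥ c) * (c' ⬝ᵥ M *ᵥ c') ≤ (c ⬝ᵥ M *ᵥ c') ^ 2 := by
  rcases h0.eq_or_lt with h0 | h0
  · rw [← h0, mul_zero]; positivity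
  have hl : lam ⬝ᵥ c' ≠ 0 := fun e => absurd (h _ e) (not_le.2 h0)
  set t := -(lam ⬝ᵥ c) / (lam ⬝ᵥ c')
  have h1 := h (c + t • c') (by
    rw [dotProduct_add, dotProduct_smul, smul_eq_mul]; simp only [t]; field_simp; ring)
  have hsym : c' ⬝ᵥ M *ᵥ c = c ⬝ᵥ M *ᵥ c' := by
    simp only [dotProduct, mulVec, mul_sum]
    rw [sum_comm]
    exact sum_congr rfl fun i _ => sum_congr rfl fun j _ => by rw [hs j i]; ring
  simp only [mulVec_add, mulVec_smul, dotProduct_add, add_dotProduct, dotProduct_smul,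
    smul_dotProduct, smul_eq_mul, hsym] at h1
  nlinarith [sq_nonneg (t * (c' ⬝ᵥ M *ᵥ c') + c ⬝ᵥ M *ᵥ c'), mul_le_mul_of_nonneg_left h1 h0.le]

theorem bochner (M : Matrix V V ℝ) (hs : ∀ i j, M i j = M j i) (hn : ∀ i j, 0 ≤ M i j)
    (v : V → ℝ) (hv : ∀ i, 0 < v i)
    (conn : ∀ i j, 0 < (M *ᵥ v) i → 0 < (M *ᵥ v) j →
      i = j ∨ 0 < M i j ∨ ∃ k, 0 < M i k ∧ 0 < M k j)
    (hB : ∀ c : V → ℝ, c ⬝ᵥ M *ᵥ c ≤ ∑ i, v i * (M *ᵥ c) i ^ 2 / (M *ᵥ v) i)
    (c : V → ℝ) (hc : (M *ᵥ v) ⬝ᵥ c = 0) : c ⬝ᵥ M *ᵥ c ≤ 0 := by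
  set d := M *ᵥ v with hd
  have hd0 : ∀ i, 0 ≤ d i := fun i => sum_nonneg fun j _ => mul_nonneg (hn i j) (hv j).le
  have hrow : ∀ i j, d i = 0 → M i j = 0 := by
    intro i j hi
    have h1 : M i j * v j ≤ d i :=
      single_le_sum (f := fun j => M i j * v j) (fun j _ => mul_nonneg (hn i j) (hv j).le) (mem_univ j)
    have h2 := hn i j
    have h3 := hv j
    nlinarith
  set σ : V → ℝ := fun i => √(d i / v i) with hσ
  have hσ2 : ∀ i, σ i ^ 2 = d i / v i := fun i => Real.sq_sqrt (div_nonneg (hd0 i) (hv i).le)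
  have hσ0 : ∀ i, σ i = 0 → d i = 0 := fun i hi => by
    have := hσ2 i
    rw [hi] at this
    have h3 := hv i
    field_simp at this
    linarith
  set B : Matrix V V ℝ := fun i j => M i j / (σ i * σ j) with hBdef
  have hMB : ∀ i j, M i j = σ i * B i j * σ j := by
    intro i j
    by_cases hi : σ i = 0
    · rw [hrow i j (hσ0 i hi), hi]; simp
    by_cases hj : σ j = 0
    · rw [hs, hrow j i (hσ0 j hj), hj]; simp
    simp only [hBdef]; field_simp
  have hBh : B.IsHermitian := by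
    ext i j
    rw [conjTranspose_apply, star_trivial]
    simp only [hBdef]
    rw [hs j i, mul_comm]
  have hq : c ⬝ᵥ M *ᵥ c = (fun i => σ i * c i) ⬝ᵥ B *ᵥ (fun i => σ i * c i) := by
    simp only [dotProduct, mulVec, mul_sum]
    exact sum_congr rfl fun i _ => sum_congr rfl fun j _ => by rw [hMB i j]; ring
  rw [hq]
  refine quad_nonpos B hBh _ fun μ b hμ hb => ?_
  have hb0 : ∀ i, σ i = 0 → b i = 0 := by
    intro i hi
    have := congrFun hb i
    simp only [mulVec, dotProduct, hBdef, hi, zero_mul, div_zero, sum_const_zero, Pi.smul_apply,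
      smul_eq_mul] at this
    exact (mul_eq_zero.1 this.symm).resolve_left hμ.ne'
  set x : V → ℝ := fun i => b i / σ i with hx
  have hσx : ∀ i, σ i * x i = b i := by
    intro i
    by_cases hi : σ i = 0
    · rw [hb0 i hi, hi, zero_mul]
    · simp only [hx]; field_simp
  have hMx : ∀ i, (M *ᵥ x) i = μ * σ i * b i := by
    intro i
    have := congrFun hb i
    simp only [mulVec, dotProduct, Pi.smul_apply, smul_eq_mul] at this ⊢
    rw [mul_comm μ, mul_assoc, ← this, mul_sum]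
    exact sum_congr rfl fun j _ => by rw [hMB i j, ← hσx j]; ring
  have hxMx : x ⬝ᵥ M *ᵥ x = μ * ∑ i, b i ^ 2 := by
    simp only [dotProduct, hMx, mul_sum]
    exact sum_congr rfl fun i _ => by rw [← hσx i]; ring
  have hR : ∑ i, v i * (M *ᵥ x) i ^ 2 / d i = μ ^ 2 * ∑ i, b i ^ 2 := by
    rw [mul_sum]
    refine sum_congr rfl fun i _ => ?_
    by_cases hi : σ i = 0
    · rw [hMx, hb0 i hi]; simp
    · have h1 : d i ≠ 0 := fun e => hi (by simp [hσ, e])
      have h2 := (hv i).ne'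
      rw [hMx, mul_pow, mul_pow, hσ2]; field_simp
  by_cases hbz : ∑ i, b i ^ 2 = 0
  · have : ∀ i, b i = 0 := fun i =>
      pow_eq_zero_iff (two_ne_zero) |>.1 ((sum_eq_zero_iff_of_nonneg fun i _ => sq_nonneg _).1 hbz i (mem_univ i))
    simp [dotProduct, this]
  have hbp : 0 < ∑ i, b i ^ 2 := lt_of_le_of_ne (sum_nonneg fun i _ => sq_nonneg _) (Ne.symm hbz)
  have hμ1 : 1 ≤ μ := by
    have := hB x
    rw [hxMx, hR] at this
    have h2 : μ ≤ μ ^ 2 := le_of_mul_le_mul_right this hbp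
    nlinarith
  set z : V → ℝ := fun i => x i / v i with hz
  have hxz : ∀ i, x i = v i * z i := fun i => by have := (hv i).ne'; simp only [hz]; field_simp
  have hbz2 : ∀ i, b i ^ 2 = d i * v i * z i ^ 2 := fun i => by
    have := (hv i).ne'
    rw [← hσx, mul_pow, hσ2, hxz]; field_simp
  have hDir : ∑ i, ∑ j, M i j * v i * v j * (z i - z j) ^ 2 = 2 * (1 - μ) * ∑ i, b i ^ 2 := by
    have e1 : ∑ i, ∑ j, M i j * v i * v j * z i ^ 2 = ∑ i, b i ^ 2 := by
      refine sum_congr rfl fun i _ => ?_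
      rw [hbz2, hd]
      simp only [mulVec, dotProduct, sum_mul]
      exact sum_congr rfl fun j _ => by ring
    have e2 : ∑ i, ∑ j, M i j * v i * v j * z j ^ 2 = ∑ i, b i ^ 2 := by
      rw [sum_comm, ← e1]
      exact sum_congr rfl fun i _ => sum_congr rfl fun j _ => by rw [hs j i]; ring
    have e3 : ∑ i, ∑ j, M i j * v i * v j * (z i * z j) = μ * ∑ i, b i ^ 2 := by
      rw [← hxMx]
      simp only [mulVec, dotProduct, mul_sum]
      exact sum_congr rfl fun i _ => sum_congr rfl fun j _ => by rw [hxz, hxz]; ring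
    have : ∑ i, ∑ j, M i j * v i * v j * (z i - z j) ^ 2 =
        ∑ i, ∑ j, M i j * v i * v j * z i ^ 2 + ∑ i, ∑ j, M i j * v i * v j * z j ^ 2 -
          2 * ∑ i, ∑ j, M i j * v i * v j * (z i * z j) := by
      simp only [mul_sum, ← sum_add_distrib, ← sum_sub_distrib]
      exact sum_congr rfl fun i _ => sum_congr rfl fun j _ => by ring
    rw [this, e1, e2, e3]; ring
  have hterm : ∀ i j, 0 ≤ M i j * v i * v j * (z i - z j) ^ 2 := fun i j =>
    mul_nonneg (mul_nonneg (mul_nonneg (hn i j) (hv i).le) (hv j).le) (sq_nonneg _)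
  have hzero : ∑ i, ∑ j, M i j * v i * v j * (z i - z j) ^ 2 = 0 := by
    refine le_antisymm ?_ (sum_nonneg fun i _ => sum_nonneg fun j _ => hterm i j)
    rw [hDir]; nlinarith
  have hedge : ∀ i j, 0 < M i j → z i = z j := by
    intro i j hij
    have h1 := (sum_eq_zero_iff_of_nonneg fun i _ => sum_nonneg fun j _ => hterm i j).1 hzero i (mem_univ i)
    have h2 := (sum_eq_zero_iff_of_nonneg fun j _ => hterm i j).1 h1 j (mem_univ j)
    have h3 : 0 < M i j * v i * v j := mul_pos (mul_pos hij (hv i)) (hv j)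
    have := (mul_eq_zero.1 h2).resolve_left h3.ne'
    exact sub_eq_zero.1 (pow_eq_zero_iff two_ne_zero |>.1 this)
  have hconst : ∀ i j, 0 < d i → 0 < d j → z i = z j := by
    intro i j hi hj
    rcases conn i j hi hj with rfl | h | ⟨k, h1, h2⟩
    · rfl
    · exact hedge _ _ h
    · exact (hedge _ _ h1).trans (hedge _ _ h2)
  have hfin : b ⬝ᵥ (fun i => σ i * c i) = ∑ i, z i * (d i * c i) := by
    refine sum_congr rfl fun i _ => ?_
    have := (hv i).ne'
    have e : σ i * x i * (σ i * c i) = σ i ^ 2 * x i * c i := by ring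
    beta_reduce
    rw [← hσx, e, hσ2, hxz]; field_simp
  rw [hfin]
  by_cases hex : ∃ i0, 0 < d i0
  · obtain ⟨i0, h0⟩ := hex
    have : ∑ i, z i * (d i * c i) = z i0 * (d ⬝ᵥ c) := by
      rw [dotProduct, mul_sum]
      refine sum_congr rfl fun i _ => ?_
      rcases (hd0 i).eq_or_lt with h | h
      · rw [← h]; simp
      · rw [hconst i i0 h h0]
    rw [this, hc, mul_zero]
  · push Not at hex
    exact sum_eq_zero fun i _ => by rw [le_antisymm (hex i) (hd0 i)]; simp

omit [DecidableEq V] in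
/-- the matrix of an equivalence relation on a subset is positive semidefinite -/
theorem equiv_psd (P : V → Prop) (R : V → V → Prop) [DecidablePred P] [DecidableRel R]
    (hr : ∀ s, P s → R s s) (hsy : ∀ s t, R s t → R t s)
    (htr : ∀ s t u, P t → R s t → R t u → R s u) (c : V → ℝ) :
    0 ≤ ∑ s, ∑ t, if P s ∧ P t ∧ R s t then c s * c t else 0 := by
  classical
  let cl : V → Finset V := fun s => univ.filter (fun t => P t ∧ R s t)
  have hcl : ∀ s t, P s → P t → (R s t ↔ cl s = cl t) := by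
    intro s t hs ht
    constructor
    · intro h
      ext u
      simp only [cl, mem_filter, mem_univ, true_and]
      exact ⟨fun ⟨h1, h2⟩ => ⟨h1, htr _ _ _ hs (hsy _ _ h) h2⟩, fun ⟨h1, h2⟩ => ⟨h1, htr _ _ _ ht h h2⟩⟩
    · intro h
      have : t ∈ cl s := by rw [h]; simp [cl, ht, hr t ht]
      simpa [cl, ht] using this
  have : (∑ s, ∑ t, if P s ∧ P t ∧ R s t then c s * c t else 0) =
      ∑ K : Finset V, (∑ s, if P s ∧ cl s = K then c s else 0) ^ 2 := by
    simp only [pow_two, sum_mul_sum]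
    rw [sum_comm (γ := Finset V)]
    refine sum_congr rfl fun s _ => ?_
    rw [sum_comm (γ := Finset V)]
    refine sum_congr rfl fun t _ => ?_
    by_cases hs : P s
    · by_cases ht : P t
      · simp only [hs, ht, true_and, hcl s t hs ht, ite_mul, mul_ite, zero_mul, mul_zero]
        rw [sum_eq_single (cl t)] <;> simp +contextual [eq_comm]
      · simp [ht]
    · simp [hs]
  rw [this]
  exact sum_nonneg fun _ _ => sq_nonneg _

end Vale.Agent.P317
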