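import Vale.Agent.P317.HM2

/-! The exchange chain. -/

namespace Vale.Agent.P317

open Finset

section abstract

variable {ι : Type} [Fintype ι] (W : ι → ℝ)

def ip (g f : ι → ℝ) : ℝ := ∑ i, W i * (g i * f i)

theorem ip_comm (g f : ι → ℝ) : ip W g f = ip W f g := by simp [ip, mul_comm]

theorem ip_sub (g f f' : ι → ℝ) : ip W g (f - f') = ip W g f - ip W g f' := by
  simp [ip, mul_sub]

theorem ip_sum (g : ι → ℝ) (s : Finset ℕ) (f : ℕ → ι → ℝ) :
    ip W g (∑ k ∈ s, f k) = ∑ k ∈ s, ip W g (f k) := by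
  simp only [ip, Finset.sum_apply, mul_sum]
  rw [sum_comm]

variable {W} {P : (ι → ℝ) →ₗ[ℝ] (ι → ℝ)}

theorem ip_pow (hsym : ∀ g f, ip W g (P f) = ip W (P g) f) (k : ℕ) (g f : ι → ℝ) :
    ip W g ((P ^ k) f) = ip W ((P ^ k) g) f := by
  induction k generalizing g f with
  | zero => simp
  | succ k ih => rw [pow_succ, Module.End.mul_apply, ih, hsym, ← Module.End.mul_apply, ← pow_succ', pow_succ]

theorem decay (hW : ∀ i, 0 ≤ W i) (hsym : ∀ g f, ip W g (P f) = ip W (P g) f)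
    (hpsd : ∀ f, 0 ≤ ip W f (P f)) (hle : ∀ f, ip W f (P f) ≤ ip W f f) {g : ι → ℝ} {K : ℝ}
    (hK : 0 ≤ K) (hg : ∀ f, ip W g f ^ 2 ≤ K * (ip W f f - ip W f (P f))) (T : ℕ) :
    2 * T * ip W ((P ^ T) g) ((P ^ T) g) ≤ K := by
  have hnn : ∀ f, 0 ≤ ip W f f := fun f => sum_nonneg fun i _ => mul_nonneg (hW i) (mul_self_nonneg _)
  have h2 : ∀ x, ip W (P x) (P x) ≤ ip W x (P x) := by
    intro x
    have h1 := hpsd (P x - x)
    rw [map_sub, ip_sub, ip_comm W _ (P (P x)), ip_comm W _ (P x), ip_sub, ip_sub, ip_comm W _ (P x),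
      ip_comm W _ x, ip_comm W (P x) x, hsym x (P x)] at h1
    linarith [hle (P x)]
  set a : ℕ → ℝ := fun s => ip W g ((P ^ s) g) with ha
  have hadd : ∀ j k, a (j + k) = ip W ((P ^ j) g) ((P ^ k) g) := fun j k => by
    simp only [ha]; rw [pow_add, Module.End.mul_apply, ip_pow hsym]
  have hP : ∀ k, (P ^ (k + 1)) g = P ((P ^ k) g) := fun k => by rw [pow_succ', Module.End.mul_apply]
  have hanti : Antitone a := antitone_nat_of_succ_le fun s => by
    obtain ⟨k, rfl | rfl⟩ := Nat.even_or_odd' s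
    · rw [two_mul, add_assoc, hadd, hadd, hP]; exact hle _
    · rw [show 2 * k + 1 + 1 = (k + 1) + (k + 1) by ring, show 2 * k + 1 = k + (k + 1) by ring, hadd,
        hadd, hP]
      exact h2 _
  have ha0 : ∀ s, 0 ≤ a s := fun s => le_trans (by rw [hadd]; exact hnn _) (hanti (show s ≤ s + s by omega))
  set f := ∑ s ∈ range (T + T), (P ^ s) g with hf
  have e1 : f - P f = g - (P ^ (T + T)) g := by
    rw [hf, map_sum, ← sum_sub_distrib]
    simp only [← hP]
    rw [sum_range_sub']; simp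
  have e2 : ip W g f = ∑ s ∈ range (T + T), a s := ip_sum W g _ _
  have e3 : 0 ≤ ip W f ((P ^ (T + T)) g) := by
    rw [ip_comm, hf, ip_sum]
    exact sum_nonneg fun s _ => by rw [← hadd]; exact ha0 _
  have h3 := hg f
  rw [← ip_sub, e1, ip_sub, ip_comm W f g] at h3
  have h4 : 2 * T * a (T + T) ≤ ip W g f := by
    rw [e2]
    have := card_nsmul_le_sum (range (T + T)) a (a (T + T)) fun s hs => hanti (mem_range.1 hs).le
    rw [card_range, nsmul_eq_mul] at this
    push_cast at this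
    linarith
  rw [← hadd]
  refine h4.trans ?_
  by_contra hc
  push Not at hc
  nlinarith [mul_nonneg hK e3]

end abstract

variable {V : Type} [Fintype V] [DecidableEq V]

theorem sum_swp (F : Finset V → Finset V → ℝ) :
    (∑ I, ∑ p, ∑ s, if p ∈ I ∧ s ∉ I then F I (swp I p s) else 0) =
      ∑ I, ∑ p, ∑ s, if p ∈ I ∧ s ∉ I then F (swp I p s) I else 0 := by
  have e : ∀ F : Finset V → V → V → ℝ, ∑ I, ∑ p, ∑ s, F I p s =
      ∑ x : Finset V × V × V, F x.1 x.2.1 x.2.2 := fun F => by simp only [Fintype.sum_prod_type]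
  rw [e, e, ← sum_filter, ← sum_filter]
  have h1 : ∀ (I : Finset V) p s, p ∈ I → s ∉ I → swp (swp I p s) s p = I := by
    intro I p s hp hs
    rw [swp, swp, erase_insert (by simp [hs]), insert_erase hp]
  have h2 : ∀ (I : Finset V) p s, p ∈ I → s ∉ I → s ∈ swp I p s ∧ p ∉ swp I p s := by
    intro I p s hp hs
    have : p ≠ s := fun e => hs (e ▸ hp)
    simp [swp, this]
  refine sum_nbij' (fun x => (swp x.1 x.2.1 x.2.2, x.2.2, x.2.1))
    (fun x => (swp x.1 x.2.1 x.2.2, x.2.2, x.2.1)) ?_ ?_ ?_ ?_ ?_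
  all_goals
    rintro ⟨I, p, s⟩ h
    simp only [mem_filter, mem_univ, true_and] at h ⊢
  · exact h2 _ _ _ h.1 h.2
  · exact h2 _ _ _ h.1 h.2
  · rw [h1 _ _ _ h.1 h.2]
  · rw [h1 _ _ _ h.1 h.2]
  · rw [h1 _ _ _ h.1 h.2]

/-- the transition operator -/
noncomputable def Pop (c : ℝ) (acc : Finset V → Finset V → ℝ) : (Finset V → ℝ) →ₗ[ℝ] (Finset V → ℝ) where
  toFun f I := f I + c * ∑ p, ∑ s,
    if p ∈ I ∧ s ∉ I then acc I (swp I p s) * (f (swp I p s) - f I) else 0
  map_add' f g := by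
    funext I
    simp only [Pi.add_apply]
    rw [add_add_add_comm, ← mul_add, ← sum_add_distrib]
    congr 2
    refine sum_congr rfl fun p _ => ?_
    rw [← sum_add_distrib]
    refine sum_congr rfl fun s _ => ?_
    split_ifs <;> ring
  map_smul' a f := by
    funext I
    simp only [Pi.smul_apply, smul_eq_mul, RingHom.id_apply, mul_add, mul_sum]
    congr 1
    refine sum_congr rfl fun p _ => sum_congr rfl fun s _ => ?_
    split_ifs <;> ring

theorem Pop_apply (c : ℝ) (acc : Finset V → Finset V → ℝ) (f : Finset V → ℝ) (I : Finset V) :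
    Pop c acc f I = f I + c * ∑ p, ∑ s,
      if p ∈ I ∧ s ∉ I then acc I (swp I p s) * (f (swp I p s) - f I) else 0 := rfl

structure Metro (W : Finset V → ℝ) (c : ℝ) (acc : Finset V → Finset V → ℝ) : Prop where
  hW : ∀ I, 0 ≤ W I
  c0 : 0 < c
  c1 : c * (Fintype.card V : ℝ) ^ 2 ≤ 1 / 2
  a0 : ∀ I J, 0 ≤ acc I J
  a1 : ∀ I J, acc I J ≤ 1
  bal : ∀ I J, W I * acc I J = min (W I) (W J)

namespace Metro

variable {W : Finset V → ℝ} {c : ℝ} {acc : Finset V → Finset V → ℝ} (H : Metro W c acc)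
include H

theorem ip_P (g f : Finset V → ℝ) : ip W g (Pop c acc f) = ip W g f - c / 2 *
    ∑ I, ∑ p, ∑ s, if p ∈ I ∧ s ∉ I then
      min (W I) (W (swp I p s)) * ((g I - g (swp I p s)) * (f I - f (swp I p s))) else 0 := by
  have e1 : ip W g (Pop c acc f) = ip W g f + c * ∑ I, ∑ p, ∑ s, if p ∈ I ∧ s ∉ I then
      min (W I) (W (swp I p s)) * (g I * (f (swp I p s) - f I)) else 0 := by
    simp only [ip, Pop_apply, mul_add, sum_add_distrib, mul_sum]
    congr 1
    refine sum_congr rfl fun I _ => sum_congr rfl fun p _ => sum_congr rfl fun s _ => ?_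
    rw [← H.bal]
    split_ifs <;> ring
  have e2 := sum_swp fun I J => min (W I) (W J) * (g I * (f J - f I))
  have e3 : (∑ I, ∑ p, ∑ s, if p ∈ I ∧ s ∉ I then
      min (W I) (W (swp I p s)) * ((g I - g (swp I p s)) * (f I - f (swp I p s))) else 0) =
      -(∑ I, ∑ p, ∑ s, if p ∈ I ∧ s ∉ I then
        min (W I) (W (swp I p s)) * (g I * (f (swp I p s) - f I)) else 0) -
      ∑ I, ∑ p, ∑ s, if p ∈ I ∧ s ∉ I then
        min (W (swp I p s)) (W I) * (g (swp I p s) * (f I - f (swp I p s))) else 0 := by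
    simp only [← sum_neg_distrib, ← sum_sub_distrib]
    refine sum_congr rfl fun I _ => sum_congr rfl fun p _ => sum_congr rfl fun s _ => ?_
    rw [min_comm (W (swp I p s))]
    split_ifs <;> ring
  rw [e1, e3, ← e2]; ring

theorem symm (g f : Finset V → ℝ) : ip W g (Pop c acc f) = ip W (Pop c acc g) f := by
  rw [ip_comm W (Pop c acc g), H.ip_P, H.ip_P, ip_comm]
  simp only [mul_comm (g _ - g _)]

theorem energy (f : Finset V → ℝ) : ip W f f - ip W f (Pop c acc f) = c / 2 * dir W f := by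
  rw [H.ip_P, dir]; simp only [pow_two]; ring

theorem psd (f : Finset V → ℝ) : 0 ≤ ip W f (Pop c acc f) := by
  have e2 := sum_swp fun I J => min (W I) (W J) * f I ^ 2
  have h1 : (∑ I, ∑ p, ∑ s, if p ∈ I ∧ s ∉ I then min (W I) (W (swp I p s)) * f I ^ 2 else 0) ≤
      (Fintype.card V : ℝ) ^ 2 * ip W f f := by
    rw [ip, mul_sum]
    refine sum_le_sum fun I _ => ?_
    refine (sum_le_card_nsmul _ _ _ fun p _ => sum_le_card_nsmul _ _ (W I * (f I * f I))
      fun s _ => ?_).trans (le_of_eq (by simp; ring))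
    have := H.hW I
    split_ifs
    · rw [← pow_two]; exact mul_le_mul_of_nonneg_right (min_le_left _ _) (sq_nonneg _)
    · exact mul_nonneg this (mul_self_nonneg _)
  have h2 : dir W f ≤ 2 * (∑ I, ∑ p, ∑ s, if p ∈ I ∧ s ∉ I then min (W I) (W (swp I p s)) * f I ^ 2 else 0) +
      2 * ∑ I, ∑ p, ∑ s, if p ∈ I ∧ s ∉ I then min (W (swp I p s)) (W I) * f (swp I p s) ^ 2 else 0 := by
    simp only [dir, mul_sum, ← sum_add_distrib]
    refine sum_le_sum fun I _ => sum_le_sum fun p _ => sum_le_sum fun s _ => ?_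
    rw [min_comm (W (swp I p s))]
    split_ifs
    · nlinarith [mul_nonneg (le_min (H.hW I) (H.hW (swp I p s))) (sq_nonneg (f I + f (swp I p s)))]
    · simp
  rw [← e2] at h2
  have h3 := H.energy f
  have h4 : 0 ≤ ip W f f := sum_nonneg fun i _ => mul_nonneg (H.hW i) (mul_self_nonneg _)
  nlinarith [mul_le_mul_of_nonneg_left h1 H.c0.le, mul_le_mul_of_nonneg_left h2 H.c0.le,
    mul_le_mul_of_nonneg_right H.c1 h4]

theorem bound {f : Finset V → ℝ} {b : ℝ} (hf : ∀ I, f I ≤ b) (I : Finset V) : Pop c acc f I ≤ b := by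
  rw [Pop_apply]
  have h1 : (∑ p, ∑ s, if p ∈ I ∧ s ∉ I then acc I (swp I p s) * (f (swp I p s) - f I) else 0) ≤
      (Fintype.card V : ℝ) ^ 2 * (b - f I) := by
    refine (sum_le_card_nsmul _ _ _ fun p _ => sum_le_card_nsmul _ _ (b - f I)
      fun s _ => ?_).trans (le_of_eq (by simp; ring))
    have := hf I
    split_ifs
    · nlinarith [H.a0 I (swp I p s), H.a1 I (swp I p s), hf (swp I p s)]
    · linarith
  nlinarith [mul_le_mul_of_nonneg_left h1 H.c0.le, mul_le_mul_of_nonneg_right H.c1 (sub_nonneg.2 (hf I)),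
    hf I]

theorem unit {f : Finset V → ℝ} (hf : ∀ I, 0 ≤ f I ∧ f I ≤ 1) (k : ℕ) (I : Finset V) :
    0 ≤ (Pop c acc ^ k) f I ∧ (Pop c acc ^ k) f I ≤ 1 := by
  induction k generalizing I with
  | zero => exact hf I
  | succ k ih =>
    rw [pow_succ', Module.End.mul_apply]
    refine ⟨?_, H.bound (fun I => (ih I).2) I⟩
    have := H.bound (f := -(Pop c acc ^ k) f) (b := 0) (fun I => by simpa using (ih I).1) I
    rw [map_neg] at this
    simpa using this

omit H in
theorem one (k : ℕ) : (Pop c acc ^ k) (fun _ => 1) = fun _ => 1 := by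
  induction k with
  | zero => rfl
  | succ k ih =>
    rw [pow_succ', Module.End.mul_apply, ih]
    funext I; simp [Pop_apply]

end Metro

variable {G : Type} [Fintype G] [DecidableEq G] {A : Type} [CommRing A] [Algebra ℝ A]

theorem Sys.Zt_le {S : Sys (G × Bool) A} {h : G → G → ℝ} (hw : S.NN 1) (hh : ∀ i j, 0 ≤ h i j) :
    S.Zt ≤ ∑ I, S.Wt h I := by
  have := S.sum_Wt h (fun _ => 1)
  simp only [mul_one] at this
  rw [this, S.Zt_eq]
  exact le_add_of_nonneg_right (sum_nonneg fun i _ => sum_nonneg fun j _ =>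
    mul_nonneg (hh i j) (sum_nonneg fun _ _ => Sys.w_nonneg hw _))

theorem warm {S : Sys (G × Bool) A} {h : G → G → ℝ} {R c : ℝ}
    {acc : Finset (G × Bool) → Finset (G × Bool) → ℝ} (H : S.Good h R) (M : Metro (S.Wt h) c acc)
    {o : Option (G × Bool)} {Γ η : ℝ} {g : Finset (G × Bool) → ℝ} (hg : Sys.Cls o Γ g)
    (hg0 : ∑ I, S.Wt h I * g I = 0) {T : ℕ} (hη : 0 ≤ η) (hT0 : 0 < T)
    (hT : (60 * Γ * R * (Fintype.card G + 1) ^ 3) ^ 2 ≤ η ^ 2 * c * T)
    {f : Finset (G × Bool) → ℝ} (hf : ∀ I, 0 ≤ f I ∧ f I ≤ 1) :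
    |∑ I, S.Wt h I * ((1 + g I) * (Pop c acc ^ T) f I) - ∑ I, S.Wt h I * f I| ≤ η * ∑ I, S.Wt h I := by
  set W := S.Wt h
  have hZ := H.hZ
  have hc := M.c0
  set C := (60 * Γ * R * (Fintype.card G + 1) ^ 3) ^ 2
  have hC : 0 ≤ C := sq_nonneg _
  have hd := decay (P := Pop c acc) M.hW M.symm M.psd (fun f => by
    have := M.energy f
    have := dir_nonneg M.hW f
    nlinarith) (g := g) (K := C * S.Zt * (2 / c)) (by positivity) (fun f => by
      rw [M.energy]
      refine (H.poincare hg hg0 f).trans (le_of_eq ?_)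
      change C * S.Zt * dir W f = _
      field_simp) T
  have e1 : ∑ I, W I * ((1 + g I) * (Pop c acc ^ T) f I) - ∑ I, W I * f I =
      ip W ((Pop c acc ^ T) g) f := by
    have h1 := ip_pow M.symm T (fun _ => 1) f
    rw [Metro.one] at h1
    rw [← ip_pow M.symm]
    simp only [ip, one_mul] at h1 ⊢
    simp only [add_mul, one_mul, mul_add, sum_add_distrib, h1]; ring
  rw [e1]
  set x := (Pop c acc ^ T) g
  have hZW : S.Zt ≤ ∑ I, W I := Sys.Zt_le H.hw H.pos
  have hxx : ip W x x ≤ η ^ 2 * ∑ I, W I := by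
    have hT' : (0 : ℝ) < T := by exact_mod_cast hT0
    have : C * S.Zt * (2 / c) ≤ 2 * T * (η ^ 2 * S.Zt) := by
      rw [show C * S.Zt * (2 / c) = (C * S.Zt * 2) / c by ring, div_le_iff₀ hc]
      nlinarith
    have h2 := le_of_mul_le_mul_left (hd.trans this) (by positivity)
    exact h2.trans (mul_le_mul_of_nonneg_left hZW (sq_nonneg _))
  have := err_le univ W (fun I => x I * f I) (fun _ => True) (fun I _ => M.hW I) le_rfl
    (b := η ^ 2 * ∑ I, W I) (le_trans (sum_le_sum fun I _ => by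
      refine mul_le_mul_of_nonneg_left ?_ (M.hW I)
      have := hf I
      nlinarith [mul_self_nonneg (x I), mul_le_one₀ this.2 this.1 this.2]) hxx)
    (γ := η * ∑ I, W I) (mul_nonneg hη (hZ.le.trans hZW)) (le_of_eq (by ring))
  simpa [ip] using this

end Vale.Agent.P317
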