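import Mathlib

namespace Vale.Agent.P317

/-- A string function computed by a multi-stack Turing machine with finite alphabets in
polynomial time. -/
def PolyTime (f : List Bool → List Bool) : Prop :=
  ∃ h : Turing.TM2ComputableInPolyTime id id f, ∀ k, Finite (h.tm.Γ k)

/-- Unary code of `n`: `n` ones and a zero. -/
def unary (n : ℕ) : List Bool := List.replicate n true ++ [false]

/-- The input string: `n`, `k`, `l` and the length of the random string in unary, followed by the
random string. -/
def input (n k l : ℕ) (ρ : List Bool) : List Bool :=
  unary n ++ unary k ++ unary l ++ unary ρ.length ++ ρ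

/-- The subset of `Fin n` whose indicator vector is given by the first `n` bits of `q`. -/
def subsetOf (n : ℕ) (q : List Bool) : Set (Fin n) := {i | q.getD i false = true}

open Classical in
/-- The oracle answers received in the first `t` rounds.  In each round the machine `ask` reads
the input `x` followed by all previous answers and writes two subsets; the first is sent to the
independence oracle of `M₁`, the second to the independence oracle of `M₂`. -/
noncomputable def answers {n : ℕ} (M₁ M₂ : Matroid (Fin n)) (ask : List Bool → List Bool)
    (x : List Bool) : ℕ → List Bool
  | 0 => []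
  | t + 1 => answers M₁ M₂ ask x t ++
      [decide (M₁.Indep (subsetOf n (ask (x ++ answers M₁ M₂ ask x t)))),
        decide (M₂.Indep (subsetOf n ((ask (x ++ answers M₁ M₂ ask x t)).drop n)))]

/-- The natural number with the given binary digits, least significant digit first. -/
def binVal (l : List Bool) : ℕ := l.foldr Nat.bit 0

/-- The number of common bases. -/
noncomputable def commonBases {n : ℕ} (M₁ M₂ : Matroid (Fin n)) : ℕ :=
  {B : Set (Fin n) | M₁.IsBase B ∧ M₂.IsBase B}.ncard

/-- The string pair `(a, b)` is a fraction in binary within relative error `ε` of `N`. -/
def Approx (ε : ℚ) (N : ℕ) (a b : List Bool) : Prop :=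
  0 < binVal b ∧ (1 - ε) * N ≤ (binVal a : ℚ) / binVal b ∧ (binVal a : ℚ) / binVal b ≤ (1 + ε) * N

end Vale.Agent.P317
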