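import Vale.Agent.P317.Ineq

/-! Negative Sobolev bounds for the classes of states. -/

namespace Vale.Agent.P317

open Finset

variable {G : Type} [Fintype G] [DecidableEq G] {A : Type} [CommRing A] [Algebra ℝ A]

omit [Fintype G] [DecidableEq G] in
theorem err_le {ι : Type} (s : Finset ι) (w g : ι → ℝ) (p : ι → Prop) [DecidablePred p]
    (hw : ∀ i ∈ s, 0 ≤ w i) {a b γ : ℝ} (h1 : ∑ i ∈ s, w i ≤ a) (h2 : ∑ i ∈ s, w i * g i ^ 2 ≤ b)
    (hγ : 0 ≤ γ) (h : a * b ≤ γ ^ 2) : |∑ i ∈ s, if p i then w i * g i else 0| ≤ γ := by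
  have := wcs s w (fun i => if p i then g i else 0) hw
  have e : (∑ i ∈ s, if p i then w i * g i else 0) = ∑ i ∈ s, (if p i then g i else 0) * w i :=
    sum_congr rfl fun i _ => by split_ifs <;> ring
  rw [e]
  refine this.trans ?_
  have h0 : 0 ≤ ∑ i ∈ s, w i := sum_nonneg hw
  rw [← Real.sqrt_mul h0]
  refine Real.sqrt_le_iff.2 ⟨hγ, le_trans ?_ h⟩
  refine mul_le_mul h1 (le_trans (sum_le_sum fun i hi => ?_) h2)
    (sum_nonneg fun i hi => mul_nonneg (sq_nonneg _) (hw i hi)) (h0.trans h1)
  have := mul_nonneg (hw i hi) (sq_nonneg (g i))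
  split_ifs <;> nlinarith

namespace Sys

variable {S : Sys (G × Bool) A}

/-- The hypotheses on a function `f`, its extension `φ` and the energy scale `E`. -/
structure Star (S : Sys (G × Bool) A) (f φ : Finset (G × Bool) → ℝ) (E : ℝ) : Prop where
  hw : S.NN 1
  hL : S.Lor
  hE : 0 ≤ E
  hZ : 0 < S.Zt
  hT : ∀ j b, ∑ I ∈ trans (univ.erase j), S.w (insert (j, b) I) * (f (insert (j, b) I) - φ I) ^ 2 ≤
    S.Zt * E ^ 2
  hN : ∀ i j b, i ≠ j → ∑ J ∈ trans ((univ.erase j).erase i),
    S.w (dbl i J) * (f (dbl i J) - φ (insert (i, b) J)) ^ 2 ≤ 8 * S.Nm i j * E ^ 2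

variable {f φ : Finset (G × Bool) → ℝ} {E : ℝ}

theorem Star.gl (H : S.Star f φ E) {U : Finset G} {F : Finset (G × Bool)} (hF : F ∈ trans U)
    {j : G} (hj : j ∉ U) {y : A} (hy : S.Lin y)
    (h0 : S.l (S.PK (univ.erase j \ U) * S.mon F * y) = 0) {γ : ℝ} (hγ : 0 ≤ γ)
    (hβ : ∀ k, k ≠ j → k ∉ U →
      16 * -S.l (S.PK ((univ.erase j).erase k \ U) * S.mon F * y * y) * S.Nm k j ≤ γ ^ 2) :
    |∑ I ∈ trans (univ.erase j), if F ⊆ I then φ I * S.l (S.mon I * y) else 0| ≤
      Fintype.card G * (γ * E) := by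
  have hU : U ⊆ univ.erase j := fun g hg => by simp; rintro rfl; exact hj hg
  have := key H.hw H.hL (univ.erase j \ U) (S.mon F) y (cone_mon F) hy h0 (fun I => φ (I ∪ F))
  rw [pin_sum hF hU]
  have e : ∑ I ∈ trans (univ.erase j \ U), φ (I ∪ F) * S.l (S.mon (I ∪ F) * y) =
      ∑ I ∈ trans (univ.erase j \ U), φ (I ∪ F) * S.l (S.mon I * (S.mon F * y)) :=
    sum_congr rfl fun I hI => by rw [S.mon_union (disj_pin hF hI), mul_assoc]
  rw [e]
  refine this.trans ((sum_le_card_nsmul _ _ (γ * E) fun k hk => ?_).trans ?_)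
  · simp only [mem_sdiff, mem_erase, mem_univ, and_true] at hk
    rw [← erase_sdiff_comm]
    have hg0 := grad_nonneg H.hw ((univ.erase j).erase k \ U) k (cone_mon F) (fun I => φ (I ∪ F))
    have hU' : U ⊆ (univ.erase j).erase k := fun g hg => by
      simp only [mem_erase, mem_univ, and_true]
      constructor <;> rintro rfl
      exacts [hk.2 hg, hj hg]
    have hg : S.grad ((univ.erase j).erase k \ U) k (S.mon F) (fun I => φ (I ∪ F)) ≤
        32 * S.Nm k j * E ^ 2 := by
      have e2 : S.grad ((univ.erase j).erase k \ U) k (S.mon F) (fun I => φ (I ∪ F)) =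
          ∑ J ∈ trans ((univ.erase j).erase k), if F ⊆ J then
            (φ (insert (k, false) J) - φ (insert (k, true) J)) ^ 2 * S.w (dbl k J) else 0 := by
        rw [pin_sum hF hU', grad]
        refine sum_congr rfl fun J hJ => ?_
        have hJ' : J ∪ F ∈ trans ((univ.erase j).erase k) := by
          have := pin_sum (M := ℕ) hF hU' (fun I => if I = J ∪ F then 1 else 0)
          by_contra hc
          rw [sum_eq_zero] at this
          · have h2 := (sum_eq_zero_iff.1 this.symm) J hJ
            simp at h2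
          · intro I hI
            split_ifs with h1 h2
            · exact absurd (h2 ▸ hI) hc
            · rfl
            · rfl
        rw [insert_union, insert_union, w, S.mon_dbl (by simp) hJ', S.mon_union (disj_pin hF hJ)]
        congr 2; ring
      rw [e2]
      have h1 := H.hN k j false hk.1
      have h2 := H.hN k j true hk.1
      refine le_trans (sum_le_sum (g := fun J => 2 * (S.w (dbl k J) * (f (dbl k J) - φ (insert (k, false) J)) ^ 2) +
        2 * (S.w (dbl k J) * (f (dbl k J) - φ (insert (k, true) J)) ^ 2)) fun J _ => ?_) ?_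
      · have := w_nonneg H.hw (dbl k J)
        split_ifs
        · nlinarith [mul_nonneg this (sq_nonneg (2 * f (dbl k J) - φ (insert (k, false) J) - φ (insert (k, true) J)))]
        · positivity
      · rw [sum_add_distrib, ← mul_sum, ← mul_sum]; linarith
    rw [← Real.sqrt_mul' _ hg0]
    refine Real.sqrt_le_iff.2 ⟨mul_nonneg hγ H.hE, ?_⟩
    have := hβ k hk.1 hk.2
    set a := -S.l (S.PK ((univ.erase j).erase k \ U) * S.mon F * y * y)
    by_cases ha : 0 ≤ a
    · nlinarith [mul_le_mul_of_nonneg_left hg ha, mul_le_mul_of_nonneg_right this (sq_nonneg E)]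
    · nlinarith [sq_nonneg (γ * E)]
  · rw [nsmul_eq_mul]
    exact mul_le_mul_of_nonneg_right (by exact_mod_cast card_le_univ _) (mul_nonneg hγ H.hE)

theorem sum_T (j : G) (Ψ : Finset (G × Bool) → ℝ) : ∑ I ∈ trans univ, Ψ I =
    ∑ I ∈ trans (univ.erase j), Ψ (insert (j, false) I) +
      ∑ I ∈ trans (univ.erase j), Ψ (insert (j, true) I) := by
  rw [← sum_trans_insert (notMem_erase j univ), insert_erase (mem_univ j)]

theorem sum_w_le (hw : S.NN 1) (j : G) (b : Bool) :
    ∑ I ∈ trans (univ.erase j), S.w (insert (j, b) I) ≤ S.Zt := by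
  rw [Zt_eq, sum_T j]
  have := fun b => sum_nonneg (s := trans (univ.erase j)) fun I _ => w_nonneg hw (insert (j, b) I)
  cases b
  · linarith [this true]
  · linarith [this false]

theorem Star.errT (H : S.Star f φ E) (j : G) (b : Bool) (p : Finset (G × Bool) → Prop)
    [DecidablePred p] : |∑ I ∈ trans (univ.erase j),
      if p I then S.w (insert (j, b) I) * (f (insert (j, b) I) - φ I) else 0| ≤ S.Zt * E :=
  err_le _ _ _ p (fun _ _ => w_nonneg H.hw _) (sum_w_le H.hw j b) (H.hT j b)
    (mul_nonneg H.hZ.le H.hE) (by nlinarith)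

theorem l_mon_x (I : Finset (G × Bool)) {s : G × Bool} (h : s ∉ I) :
    S.l (S.mon I * S.x s) = S.w (insert s I) := by
  rw [w, S.mon_insert h, mul_comm]

theorem Star.d2 (H : S.Star f φ E) (h0 : ∑ I ∈ trans univ, S.w I * f I = 0) (X : G × Bool) :
    |∑ I ∈ trans univ, if X ∈ I then S.w I * f I else 0| ≤ (2 * Fintype.card G + 2) * (S.Zt * E) := by
  obtain ⟨e, b⟩ := X
  set K : Finset G := univ.erase e with hK
  set z : Bool → ℝ := fun b => ∑ I ∈ trans K, S.w (insert (e, b) I) with hz
  set σ : Bool → ℝ := fun b => ∑ I ∈ trans K, S.w (insert (e, b) I) * f (insert (e, b) I) with hσ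
  have hz0 : ∀ b, 0 ≤ z b := fun b => sum_nonneg fun _ _ => w_nonneg H.hw _
  have hzs : z b + z (!b) = S.Zt := by
    rw [Zt_eq, sum_T e]; cases b <;> simp [hz, hK, add_comm]
  have hσs : σ b + σ (!b) = 0 := by
    rw [← h0, sum_T e]; cases b <;> simp [hσ, hK, add_comm]
  have hzl : ∀ b, S.l (S.PK K * S.x (e, b)) = z b := fun b => by
    rw [l_PK]
    exact sum_congr rfl fun I hI => l_mon_x I (not_mem_of_trans hI (notMem_erase _ _) b)
  have e1 : (∑ I ∈ trans univ, if (e, b) ∈ I then S.w I * f I else 0) = σ b := by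
    rw [← insert_erase (mem_univ e), sum_trans_pin (notMem_erase _ _)]
  rw [e1]
  have hZ := H.hZ
  set α := z (!b) / S.Zt with hα
  set α' := z b / S.Zt with hα'
  have hα0 : 0 ≤ α := div_nonneg (hz0 _) hZ.le
  have hα0' : 0 ≤ α' := div_nonneg (hz0 _) hZ.le
  have hαs : α + α' = 1 := by rw [hα, hα', ← add_div, add_comm, hzs, div_self hZ.ne']
  have hx : S.x (e, b) * S.x (e, !b) = S.x (e, false) * S.x (e, true) := by
    cases b <;> simp [mul_comm]
  have g := H.gl (U := ∅) (F := ∅) (by simp [trans_empty]) (j := e) (by simp)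
    (y := α • S.x (e, b) - α' • S.x (e, !b)) (((lin_x _).smul _).sub ((lin_x _).smul _)) (by
      simp only [sdiff_empty, mon_empty, mul_one, mul_sub, mul_smul_comm, map_sub, map_smul,
        smul_eq_mul, ← hK, hzl]
      rw [hα, hα']; ring) (γ := 2 * S.Zt) (by positivity) (fun k hk _ => by
      have : S.PK ((univ.erase e).erase k \ ∅) * S.mon ∅ * (α • S.x (e, b) - α' • S.x (e, !b)) *
          (α • S.x (e, b) - α' • S.x (e, !b)) = (-(2 * α * α')) •
            (S.PK ((univ.erase k).erase e) * (S.x (e, false) * S.x (e, true))) := by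
        rw [← hx, sdiff_empty, mon_empty, erase_right_comm]
        simp only [Algebra.smul_def, map_mul, map_neg, map_ofNat]
        linear_combination (S.PK ((univ.erase k).erase e) * algebraMap ℝ A α ^ 2) * S.sq (e, b) +
          (S.PK ((univ.erase k).erase e) * algebraMap ℝ A α' ^ 2) * S.sq (e, !b)
      rw [this, map_smul, smul_eq_mul]
      change 16 * -(-(2 * α * α') * S.Nm e k) * S.Nm k e ≤ _
      have h2 := ineq_two H.hL hk
      have h3 := mul_nonneg (Nm_nonneg H.hw k e) (Nm_nonneg H.hw e k)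
      have h4 : α * α' ≤ 1 / 4 := by nlinarith [sq_nonneg (α - α')]
      nlinarith [mul_le_mul_of_nonneg_right h4 h3])
  have r1 := H.errT e b (fun _ => True)
  have r2 := H.errT e (!b) (fun _ => True)
  simp only [empty_subset, if_true, ← hK] at g r1 r2
  have e2 : σ b = ∑ I ∈ trans K, φ I * S.l (S.mon I * (α • S.x (e, b) - α' • S.x (e, !b))) +
      α * ∑ I ∈ trans K, S.w (insert (e, b) I) * (f (insert (e, b) I) - φ I) -
      α' * ∑ I ∈ trans K, S.w (insert (e, !b) I) * (f (insert (e, !b) I) - φ I) := by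
    have : σ b = α * σ b - α' * σ (!b) := by
      have : σ (!b) = -σ b := by linarith
      rw [this]; linear_combination (-σ b) * hαs
    rw [this]
    simp only [hσ, mul_sum, ← sum_add_distrib, ← sum_sub_distrib]
    refine sum_congr rfl fun I hI => ?_
    simp only [mul_sub, mul_smul_comm, map_sub, map_smul, smul_eq_mul,
      l_mon_x I (not_mem_of_trans hI (notMem_erase _ _) _)]
    ring
  rw [e2]
  have hZE := mul_nonneg hZ.le H.hE
  rw [abs_le] at g r1 r2 ⊢
  constructor <;> nlinarith [g.1, g.2, mul_le_mul_of_nonneg_left r1.1 hα0,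
    mul_le_mul_of_nonneg_left r1.2 hα0, mul_le_mul_of_nonneg_left r2.1 hα0',
    mul_le_mul_of_nonneg_left r2.2 hα0']

theorem Star.d1 (H : S.Star f φ E) {U : Finset G} {F : Finset (G × Bool)} (hF : F ∈ trans U)
    {i j : G} (hij : i ≠ j) (hi : i ∉ U) (hj : j ∉ U)
    (hZF : S.Zt ≤ 2 * ∑ I ∈ trans univ, if F ⊆ I then S.w I else 0) {τ : ℝ}
    (hτ : |∑ I ∈ trans univ, if F ⊆ I then S.w I * f I else 0| ≤ τ * (S.Zt * E)) :
    |∑ I ∈ Nset i j, if F ⊆ I then S.w I * f I else 0| ≤
      (8 * Fintype.card G + 7 + 2 * τ) * (S.Nm i j * E) := by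
  set K : Finset G := univ.erase j with hK
  have hU : U ⊆ K := fun g hg => by simp [hK]; rintro rfl; exact hj hg
  have hU' : U ⊆ K.erase i := fun g hg => by
    refine mem_erase.2 ⟨?_, hU hg⟩; rintro rfl; exact hi hg
  have hFi : ∀ b I, F ⊆ insert (i, b) I ↔ F ⊆ I := fun b I =>
    subset_insert_iff_of_notMem (not_mem_of_trans hF hi b)
  have hFj : ∀ b I, F ⊆ insert (j, b) I ↔ F ⊆ I := fun b I =>
    subset_insert_iff_of_notMem (not_mem_of_trans hF hj b)
  have hFd : ∀ I, F ⊆ dbl i I ↔ F ⊆ I := fun I => by rw [dbl, hFi, hFi]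
  have hiK : i ∈ K := by simp [hK, hij]
  set ZF := ∑ I ∈ trans univ, if F ⊆ I then S.w I else 0 with hZFd
  set NF := S.l (S.PK (K.erase i \ U) * S.mon F * (S.x (i, false) * S.x (i, true))) with hNF
  have hxx : S.Cone (S.x (i, false) * S.x (i, true)) := (pos_x _).cone.mul_pos (pos_x _)
  have hNF0 : 0 ≤ NF := (((S.cone_PK _).mul_cone (cone_mon F)).mul_cone hxx).nonneg H.hw
  have hNFN : NF ≤ S.Nm i j := mono_pin H.hw hF hU' hxx
  have hN0 := Nm_nonneg H.hw i j
  have hZ := H.hZ
  have hZF0 : 0 < ZF := by linarith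
  have hZFl : S.l (S.PK (K \ U) * S.mon F * S.pr j) = ZF := by
    rw [hZFd, pin_sum hF (subset_univ U), mul_right_comm, mul_comm _ (S.pr j), hK, erase_sdiff_comm,
      S.pr_PK (by simp [hj]), l_PK]
    exact sum_congr rfl fun I hI => by rw [w, S.mon_union (disj_pin hF hI)]
  set c := NF / ZF with hc
  have hc0 : 0 ≤ c := div_nonneg hNF0 hZF0.le
  have hcZ : c * S.Zt ≤ 2 * S.Nm i j := by
    have : c * ZF = NF := div_mul_cancel₀ _ hZF0.ne'
    nlinarith
  have ePi : S.PK (K \ U) = S.pr i * S.PK (K.erase i \ U) := by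
    rw [erase_sdiff_comm K, S.pr_PK (by simp [hiK, hi])]
  have g := H.gl hF hj (y := S.x (i, true) - c • S.pr j) ((lin_x _).sub ((S.pos_pr j).lin.smul _)) (by
      rw [mul_sub, mul_smul_comm, map_sub, map_smul, smul_eq_mul, ← hK, hZFl, ePi,
        show S.pr i * S.PK (K.erase i \ U) * S.mon F * S.x (i, true) =
          S.PK (K.erase i \ U) * S.mon F * (S.pr i * S.x (i, true)) by ring, pr_x, ← hNF, hc]
      field_simp; ring) (γ := 8 * S.Nm i j) (by positivity) (fun k hk hkU => by
      rw [← hK]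
      set m := S.PK (K.erase k \ U) * S.mon F with hm
      have hmc : S.Cone m := (S.cone_PK _).mul_cone (cone_mon F)
      have e : m * (S.x (i, true) - c • S.pr j) * (S.x (i, true) - c • S.pr j) =
          (c ^ 2) • (m * S.pr j * S.pr j) - (2 * c) • (m * (S.x (i, true) * S.pr j)) := by
        simp only [Algebra.smul_def, map_mul, map_pow, map_ofNat]
        linear_combination m * S.sq (i, true)
      have n1 := ((hmc.mul_pos (S.pos_pr j)).mul_pos (S.pos_pr j)).nonneg H.hw
      have hUk : U ⊆ K.erase k := fun g hg => by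
        refine mem_erase.2 ⟨?_, hU hg⟩; rintro rfl; exact hkU hg
      have n2 : S.l (m * (S.x (i, true) * S.pr j)) ≤ S.l (S.PK (K.erase k) * (S.x (i, true) * S.pr j)) :=
        mono_pin H.hw hF hUk ((pos_x _).cone.mul_pos (S.pos_pr j))
      have ek : S.PK (K.erase k) * (S.x (i, true) * S.pr j) = S.PK (univ.erase k) * S.x (i, true) := by
        rw [hK, erase_right_comm, ← S.pr_PK (K := univ.erase k) (j := j) (by simp [hk.symm])]; ring
      rw [ek] at n2
      have hNk := Nm_nonneg H.hw k j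
      have n3 : S.l (S.PK (univ.erase k) * S.x (i, true)) * S.Nm k j ≤ S.Zt * S.Nm i j := by
        by_cases hki : k = i
        · subst hki
          refine mul_le_mul_of_nonneg_right ?_ hNk
          rw [l_PK]
          refine le_trans (le_of_eq ?_) (sum_w_le H.hw k true)
          exact sum_congr rfl fun I hI => l_mon_x I (not_mem_of_trans hI (notMem_erase _ _) _)
        · have : S.l (S.PK (univ.erase k) * S.x (i, true)) = S.Nm i k := by
            rw [Nm, ← S.pr_PK (K := univ.erase k) (j := i) (by simp [Ne.symm hki]), ← S.pr_x i true]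
            congr 1; ring
          rw [this]
          exact ineq_three H.hw H.hL (Ne.symm hki) hk hij
      rw [e]
      simp only [map_sub, map_smul, smul_eq_mul]
      have n4 := mul_le_mul_of_nonneg_left ((mul_le_mul_of_nonneg_right n2 hNk).trans n3) hc0
      nlinarith [mul_nonneg (mul_nonneg (sq_nonneg c) n1) hNk, mul_le_mul_of_nonneg_right hcZ hN0])
  have r0 := H.errT j false (fun I => F ⊆ I)
  have r1 := H.errT j true (fun I => F ⊆ I)
  have r2 := err_le (trans (K.erase i)) (fun J => S.w (dbl i J))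
    (fun J => f (dbl i J) - φ (insert (i, false) J)) (fun I => F ⊆ I) (fun _ _ => w_nonneg H.hw _)
    (S.Nm_eq' i j).ge (H.hN i j false hij) (γ := 3 * (S.Nm i j * E))
    (by have := H.hE; positivity) (by nlinarith [sq_nonneg (S.Nm i j * E)])
  rw [← hK] at g r0 r1
  have e1 : (∑ I ∈ trans K, if F ⊆ I then φ I * S.l (S.mon I * S.x (i, true)) else 0) =
      ∑ J ∈ trans (K.erase i), if F ⊆ J then S.w (dbl i J) * φ (insert (i, false) J) else 0 := by
    rw [← insert_erase hiK, sum_trans_insert (notMem_erase _ _), erase_insert (notMem_erase _ _),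
      sum_eq_zero (f := fun I => if F ⊆ insert (i, true) I then _ else _), add_zero]
    · refine sum_congr rfl fun J hJ => ?_
      have h1 := not_mem_of_trans hJ (notMem_erase _ _)
      simp only [hFi]
      rw [l_mon_x _ (by simp [h1]), insert_comm, mul_comm, dbl]
    · intro J _
      rw [mul_comm (S.mon _), S.x_mul_mon (mem_insert_self _ _)]; simp
  have e2 : (∑ I ∈ Nset i j, if F ⊆ I then S.w I * f I else 0) =
      (∑ I ∈ trans K, if F ⊆ I then φ I * S.l (S.mon I * (S.x (i, true) - c • S.pr j)) else 0) +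
      (∑ J ∈ trans (K.erase i), if F ⊆ J then S.w (dbl i J) * (f (dbl i J) - φ (insert (i, false) J)) else 0) -
      c * (∑ I ∈ trans K, if F ⊆ I then S.w (insert (j, false) I) * (f (insert (j, false) I) - φ I) else 0) -
      c * (∑ I ∈ trans K, if F ⊆ I then S.w (insert (j, true) I) * (f (insert (j, true) I) - φ I) else 0) +
      c * ∑ I ∈ trans univ, if F ⊆ I then S.w I * f I else 0 := by
    have a1 : (∑ I ∈ Nset i j, if F ⊆ I then S.w I * f I else 0) =
        (∑ J ∈ trans (K.erase i), if F ⊆ J then S.w (dbl i J) * φ (insert (i, false) J) else 0) +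
        (∑ J ∈ trans (K.erase i), if F ⊆ J then S.w (dbl i J) * (f (dbl i J) - φ (insert (i, false) J)) else 0) := by
      rw [sum_Nset hij, ← sum_add_distrib]
      refine sum_congr rfl fun J _ => ?_
      simp only [hFd]
      split_ifs <;> ring
    rw [a1, ← e1, sum_T j, ← hK]
    have : ∀ a b c' d e' : ℝ, a = b - c' - d + e' → ∀ r, a + r = b + r - c' - d + e' := by
      intro a b c' d e' h r; linarith
    apply this
    simp only [mul_add, mul_sum, ← sum_add_distrib, ← sum_sub_distrib]
    refine sum_congr rfl fun I hI => ?_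
    have h1 := not_mem_of_trans hI (notMem_erase _ _)
    simp only [hFj, pr, mul_sub, mul_add, mul_smul_comm, map_sub, map_add, map_smul, smul_eq_mul,
      l_mon_x I (h1 _), smul_add]
    split_ifs <;> ring
  rw [e2]
  have hE := H.hE
  have hτ0 : 0 ≤ τ * E := by
    have := (abs_nonneg _).trans hτ
    by_contra hneg
    nlinarith
  have b1 := mul_le_mul_of_nonneg_right hcZ hE
  have b2 := mul_le_mul_of_nonneg_right hcZ hτ0
  rw [abs_le] at g r0 r1 r2 hτ ⊢
  constructor <;> nlinarith [g.1, g.2, r2.1, r2.2, mul_le_mul_of_nonneg_left r0.1 hc0,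
    mul_le_mul_of_nonneg_left r0.2 hc0, mul_le_mul_of_nonneg_left r1.1 hc0,
    mul_le_mul_of_nonneg_left r1.2 hc0, mul_le_mul_of_nonneg_left hτ.1 hc0,
    mul_le_mul_of_nonneg_left hτ.2 hc0]

end Sys

end Vale.Agent.P317
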