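import Vale.Agent.P317.HM

/-! The restricted Poincare inequality. -/

namespace Vale.Agent.P317

open Finset

variable {G : Type} [Fintype G] [DecidableEq G] {A : Type} [CommRing A] [Algebra ℝ A]

def pin (o : Option (G × Bool)) (I : Finset (G × Bool)) : Bool := o.elim true fun X => decide (X ∈ I)

def swp {V : Type} [DecidableEq V] (I : Finset V) (p s : V) : Finset V := insert s (I.erase p)

/-- Dirichlet-type form of the exchange graph -/
noncomputable def dir {V : Type} [Fintype V] [DecidableEq V] (W f : Finset V → ℝ) : ℝ :=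
  ∑ I, ∑ p, ∑ s, if p ∈ I ∧ s ∉ I then min (W I) (W (swp I p s)) * (f I - f (swp I p s)) ^ 2 else 0

theorem dir_nonneg {V : Type} [Fintype V] [DecidableEq V] {W : Finset V → ℝ} (hW : ∀ I, 0 ≤ W I)
    (f : Finset V → ℝ) : 0 ≤ dir W f :=
  sum_nonneg fun _ _ => sum_nonneg fun _ _ => sum_nonneg fun _ _ => by
    split_ifs
    · exact mul_nonneg (le_min (hW _) (hW _)) (sq_nonneg _)
    · rfl

theorem exists_ext {V : Type} [Fintype V] [DecidableEq V] {W : Finset V → ℝ} (hW : ∀ I, 0 ≤ W I)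
    (f : Finset V → ℝ) : ∃ φ : Finset V → ℝ, ∀ (T : Finset (Finset V)) (p : V), (∀ I ∈ T, p ∈ I) →
      ∑ I ∈ T, W I * (f I - φ (I.erase p)) ^ 2 ≤ dir W f := by
  classical
  have hex : ∀ J : Finset V, ∃ r : ℝ, ∀ p ∉ J, ∃ s ∉ J, W (insert p J) ≤ W (insert s J) ∧
      r = f (insert s J) := by
    intro J
    by_cases h : (univ \ J).Nonempty
    · obtain ⟨s, hs, h2⟩ := exists_max_image _ (fun s => W (insert s J)) h
      exact ⟨_, fun p hp => ⟨s, by simpa using hs, h2 p (by simpa using hp), rfl⟩⟩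
    · exact ⟨0, fun p hp => absurd ⟨p, by simpa using hp⟩ h⟩
  choose φ hφ using hex
  refine ⟨φ, fun T p hT => ?_⟩
  have hn : ∀ I p s, 0 ≤ if p ∈ I ∧ s ∉ I then
      min (W I) (W (swp I p s)) * (f I - f (swp I p s)) ^ 2 else 0 := fun I p s => by
    split_ifs
    · exact mul_nonneg (le_min (hW _) (hW _)) (sq_nonneg _)
    · rfl
  refine le_trans (sum_le_sum fun I hI => ?_) (sum_le_sum_of_subset_of_nonneg (subset_univ T)
    fun I _ _ => sum_nonneg fun _ _ => sum_nonneg fun _ _ => hn _ _ _)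
  refine le_trans ?_ (single_le_sum (fun p _ => sum_nonneg fun s _ => hn I p s) (mem_univ p))
  obtain ⟨s, hs, h1, h2⟩ := hφ (I.erase p) p (notMem_erase _ _)
  rw [insert_erase (hT I hI)] at h1
  by_cases hsp : s = p
  · subst hsp
    rw [h2, insert_erase (hT I hI)]
    simpa using sum_nonneg fun s' _ => hn I s s'
  · refine le_trans (le_of_eq ?_) (single_le_sum (fun s _ => hn I p s) (mem_univ s))
    rw [if_pos ⟨hT I hI, by simpa [hsp] using hs⟩, h2, swp, min_eq_left h1]

namespace Sys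

variable {S : Sys (G × Bool) A} {f φ : Finset (G × Bool) → ℝ} {E : ℝ}

theorem Star.classT (H : S.Star f φ E) (h0 : ∑ I ∈ trans univ, S.w I * f I = 0)
    (o : Option (G × Bool)) :
    |∑ I ∈ trans univ, if pin o I then S.w I * f I else 0| ≤ (2 * Fintype.card G + 2) * (S.Zt * E) := by
  cases o with
  | none =>
    simp only [pin, Option.elim, if_true, h0, abs_zero]
    have := H.hZ; have := H.hE; positivity
  | some X => simpa [pin] using H.d2 h0 X

theorem Star.full (H : S.Star f φ E) (h0 : ∑ I ∈ trans univ, S.w I * f I = 0) {i j : G}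
    (hij : i ≠ j) : |∑ I ∈ Nset i j, S.w I * f I| ≤ (8 * Fintype.card G + 7) * (S.Nm i j * E) := by
  have := H.d1 (U := ∅) (F := ∅) (by simp [trans_empty]) hij (by simp) (by simp)
    (by simp only [empty_subset, if_true, ← Zt_eq]; linarith [H.hZ]) (τ := 0) (by simp [h0])
  simpa using this

theorem Star.classN (H : S.Star f φ E) (h0 : ∑ I ∈ trans univ, S.w I * f I = 0)
    (o : Option (G × Bool)) (i j : G) :
    |∑ I ∈ Nset i j, if pin o I then S.w I * f I else 0| ≤
      (20 * Fintype.card G + 18) * (S.Nm i j * E) := by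
  have hNE := mul_nonneg (Nm_nonneg H.hw i j) H.hE
  have hm : (0 : ℝ) ≤ Fintype.card G := Nat.cast_nonneg _
  by_cases hij : i = j
  · subst hij; simp only [Nset_self, sum_empty, abs_zero]; positivity
  have hfull := H.full h0 hij
  have hfull' : |∑ I ∈ Nset i j, S.w I * f I| ≤ (20 * Fintype.card G + 18) * (S.Nm i j * E) :=
    hfull.trans (by nlinarith)
  cases o with
  | none => simpa [pin] using hfull'
  | some X =>
    obtain ⟨e, b⟩ := X
    simp only [pin, Option.elim, decide_eq_true_eq]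
    by_cases hei : e = i
    · subst hei
      rw [sum_congr rfl (g := fun I => S.w I * f I) fun I hI => if_pos (by
        have := mem_Nset.1 hI; cases b; exacts [this.1, this.2.1])]
      exact hfull'
    by_cases hej : e = j
    · subst hej
      rw [sum_eq_zero fun I hI => if_neg (by
        have := mem_Nset.1 hI; cases b; exacts [this.2.2.1, this.2.2.2.1])]
      simp only [abs_zero]; positivity
    have main : ∀ b : Bool, (S.Zt ≤ 2 * ∑ I ∈ trans univ, if (e, b) ∈ I then S.w I else 0) →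
        |∑ I ∈ Nset i j, if (e, b) ∈ I then S.w I * f I else 0| ≤
          (12 * Fintype.card G + 11) * (S.Nm i j * E) := by
      intro b hb
      have := H.d1 (U := {e}) (F := {(e, b)}) (by
        simpa using insert_mem_trans (K := ∅) (g := e) (by simp) b (I := ∅) (by simp [trans_empty]))
        hij (by simpa using Ne.symm hei) (by simpa using Ne.symm hej) (by simpa using hb)
        (τ := 2 * Fintype.card G + 2) (by simpa using H.d2 h0 (e, b))
      simp only [singleton_subset_iff] at this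
      exact this.trans (le_of_eq (by ring))
    by_cases hb : S.Zt ≤ 2 * ∑ I ∈ trans univ, if (e, b) ∈ I then S.w I else 0
    · exact (main b hb).trans (by nlinarith)
    have s1 : (∑ I ∈ trans univ, if (e, b) ∈ I then S.w I else 0) +
        (∑ I ∈ trans univ, if (e, !b) ∈ I then S.w I else 0) = S.Zt := by
      rw [Zt_eq, ← sum_add_distrib]
      refine sum_congr rfl fun I hI => ?_
      simp only [trans_not hI (mem_univ e)]
      split_ifs <;> simp
    have s2 : (∑ I ∈ Nset i j, if (e, b) ∈ I then S.w I * f I else 0) =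
        ∑ I ∈ Nset i j, S.w I * f I - (∑ I ∈ Nset i j, if (e, !b) ∈ I then S.w I * f I else 0) := by
      rw [← sum_sub_distrib]
      refine sum_congr rfl fun I hI => ?_
      have := (mem_Nset.1 hI).2.2.2.2 e hei hej
      cases b <;> by_cases h : (e, true) ∈ I <;> simp [h, this]
    have := main (!b) (by linarith)
    rw [s2]
    refine (abs_sub _ _).trans ?_
    linarith

variable (S) in
/-- the weights of the states -/
noncomputable def Wt (h : G → G → ℝ) (I : Finset (G × Bool)) : ℝ :=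
  S.w I * ((if I ∈ trans univ then 1 else 0) + ∑ i, ∑ j, if I ∈ Nset i j then h i j else 0)

theorem sum_Wt (h : G → G → ℝ) (F : Finset (G × Bool) → ℝ) :
    ∑ I, S.Wt h I * F I = ∑ I ∈ trans univ, S.w I * F I +
      ∑ i, ∑ j, h i j * ∑ I ∈ Nset i j, S.w I * F I := by
  have e : ∀ I, S.Wt h I * F I = (if I ∈ trans univ then S.w I * F I else 0) +
      ∑ i, ∑ j, if I ∈ Nset i j then h i j * (S.w I * F I) else 0 := by
    intro I
    simp only [Wt, mul_add, add_mul, mul_sum, sum_mul]
    congr 1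
    · split_ifs <;> simp
    · refine sum_congr rfl fun i _ => sum_congr rfl fun j _ => ?_
      split_ifs <;> ring
  simp only [e, sum_add_distrib, ← sum_filter, filter_mem_eq_inter, univ_inter]
  congr 1
  simp only [sum_filter]
  rw [sum_comm]
  refine sum_congr rfl fun i _ => ?_
  rw [sum_comm]
  refine sum_congr rfl fun j _ => ?_
  rw [← sum_filter, filter_mem_eq_inter, univ_inter, mul_sum]

/-- good weights -/
structure Good (S : Sys (G × Bool) A) (h : G → G → ℝ) (R : ℝ) : Prop where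
  hw : S.NN 1
  hL : S.Lor
  hZ : 0 < S.Zt
  hR : 1 ≤ R
  pos : ∀ i j, 0 ≤ h i j
  low : ∀ i j, i ≠ j → S.Nm i j = 0 ∨ S.Zt ≤ 8 * (h i j * S.Nm i j)
  up : ∀ i j, i ≠ j → h i j * S.Nm i j ≤ R * S.Zt

variable {h : G → G → ℝ} {R : ℝ}

theorem Wt_nonneg (hw : S.NN 1) (hh : ∀ i j, 0 ≤ h i j) (I : Finset (G × Bool)) : 0 ≤ S.Wt h I := by
  refine mul_nonneg (w_nonneg hw I) (add_nonneg (by split_ifs <;> norm_num)
    (sum_nonneg fun i _ => sum_nonneg fun j _ => ?_))
  split_ifs
  exacts [hh i j, le_rfl]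

theorem Good.star (H : S.Good h R) (f : Finset (G × Bool) → ℝ) :
    ∃ φ : Finset (G × Bool) → ℝ, ∀ a : ℝ, S.Star (fun I => f I - a) (fun I => φ I - a) √(dir (S.Wt h) f / S.Zt) := by
  have hW := Wt_nonneg H.hw H.pos
  obtain ⟨φ, hφ⟩ := exists_ext hW f
  have hZ := H.hZ
  have hD := dir_nonneg hW f
  have hE : S.Zt * √(dir (S.Wt h) f / S.Zt) ^ 2 = dir (S.Wt h) f := by
    rw [Real.sq_sqrt (by positivity)]; field_simp
  have hs : ∀ I, 0 ≤ ∑ i, ∑ j, if I ∈ Nset i j then h i j else 0 := fun I =>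
    sum_nonneg fun i _ => sum_nonneg fun j _ => by
      split_ifs
      exacts [H.pos i j, le_rfl]
  refine ⟨φ, fun a => ⟨H.hw, H.hL, Real.sqrt_nonneg _, hZ, fun j b => ?_, fun i j b hij => ?_⟩⟩
  · rw [hE]
    refine le_trans ?_ (hφ ((trans univ).filter ((j, b) ∈ ·)) (j, b) fun I hI => (mem_filter.1 hI).2)
    have := sum_trans_pin (notMem_erase j univ) b fun I => S.w I * (f I - φ (I.erase (j, b))) ^ 2
    rw [insert_erase (mem_univ j), ← sum_filter] at this
    refine le_trans (le_of_eq ?_) (this.ge.trans (sum_le_sum fun I hI => ?_))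
    · refine sum_congr rfl fun I hI => ?_
      rw [erase_insert (not_mem_of_trans hI (notMem_erase _ _) _)]; ring
    · refine mul_le_mul_of_nonneg_right ?_ (sq_nonneg _)
      rw [Wt, if_pos (mem_filter.1 hI).1]
      nlinarith [w_nonneg H.hw I, hs I]
  · have h1 := hφ (Nset i j) (i, !b) fun I hI => by
      have := mem_Nset.1 hI; cases b; exacts [this.2.1, this.1]
    have h2 : h i j * ∑ J ∈ trans ((univ.erase j).erase i),
        S.w (dbl i J) * (f (dbl i J) - a - (φ (insert (i, b) J) - a)) ^ 2 ≤ dir (S.Wt h) f := by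
      refine le_trans ?_ h1
      rw [sum_Nset hij, mul_sum]
      refine sum_le_sum fun J hJ => ?_
      have hn := not_mem_of_trans hJ (notMem_erase _ _)
      have e : (dbl i J).erase (i, !b) = insert (i, b) J := by
        cases b
        · rw [dbl, insert_comm, Bool.not_false, erase_insert (by simp [hn])]
        · rw [dbl, Bool.not_true, erase_insert (by simp [hn])]
      have hmem : dbl i J ∈ Nset i j := by
        have := sum_Nset (M := ℕ) hij (fun I => if I ∈ Nset i j then 0 else 1)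
        rw [sum_eq_zero fun I hI => if_pos hI] at this
        by_contra hc
        have h2 := sum_eq_zero_iff.1 this.symm J hJ
        simp [hc] at h2
      rw [e, sub_sub_sub_cancel_right, ← mul_assoc]
      refine mul_le_mul_of_nonneg_right ?_ (sq_nonneg _)
      rw [Wt, mul_comm]
      refine mul_le_mul_of_nonneg_left ?_ (w_nonneg H.hw _)
      have hn : ∀ i' j', 0 ≤ if dbl i J ∈ Nset i' j' then h i' j' else 0 := fun i' j' => by
        split_ifs
        exacts [H.pos _ _, le_rfl]
      have a1 := single_le_sum (fun i' _ => sum_nonneg fun j' (_ : j' ∈ univ) => hn i' j') (mem_univ i)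
      have a2 := single_le_sum (fun j' _ => hn i j') (mem_univ j)
      rw [if_pos hmem] at a2
      split_ifs <;> linarith
    rcases H.low i j hij with h0 | h0
    · rw [h0, sum_eq_zero]
      · simp
      · intro J hJ
        rw [Nm_eq'] at h0
        rw [(sum_eq_zero_iff_of_nonneg fun _ _ => w_nonneg H.hw _).1 h0 J hJ, zero_mul]
    · rw [← hE] at h2
      set x := ∑ J ∈ trans ((univ.erase j).erase i),
        S.w (dbl i J) * (f (dbl i J) - a - (φ (insert (i, b) J) - a)) ^ 2
      have hx : 0 ≤ x := sum_nonneg fun _ _ => mul_nonneg (w_nonneg H.hw _) (sq_nonneg _)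
      refine le_of_mul_le_mul_left ?_ hZ
      nlinarith [mul_le_mul_of_nonneg_right h0 hx, mul_le_mul_of_nonneg_left h2 (Nm_nonneg H.hw i j)]

/-- functions that only depend on the type of the state and the pinned element -/
def Cls (o : Option (G × Bool)) (Γ : ℝ) (g : Finset (G × Bool) → ℝ) : Prop :=
  (∃ γ : Bool → ℝ, (∀ b, |γ b| ≤ Γ) ∧ ∀ I ∈ trans univ, g I = γ (pin o I)) ∧
  ∀ i j, ∃ γ : Bool → ℝ, (∀ b, |γ b| ≤ Γ) ∧ ∀ I ∈ Nset i j, g I = γ (pin o I)

omit [Fintype G] in
theorem cls_aux (T : Finset (Finset (G × Bool))) (o : Option (G × Bool)) {Γ c : ℝ}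
    (u g : Finset (G × Bool) → ℝ) (γ : Bool → ℝ) (h1 : ∀ b, |γ b| ≤ Γ)
    (h2 : ∀ I ∈ T, g I = γ (pin o I)) (h3 : ∀ o, |∑ I ∈ T, if pin o I then u I else 0| ≤ c) :
    |∑ I ∈ T, g I * u I| ≤ 3 * Γ * c := by
  have e : ∑ I ∈ T, g I * u I = γ false * (∑ I ∈ T, if pin none I then u I else 0) +
      (γ true - γ false) * ∑ I ∈ T, if pin o I then u I else 0 := by
    simp only [mul_sum, ← sum_add_distrib]
    refine sum_congr rfl fun I hI => ?_
    rw [h2 I hI]
    cases pin o I <;> simp [pin] <;> ring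
  rw [e]
  refine (abs_add_le _ _).trans ?_
  rw [abs_mul, abs_mul]
  have a1 := mul_le_mul (h1 false) (h3 none) (abs_nonneg _) ((abs_nonneg _).trans (h1 false))
  have a2 := mul_le_mul ((abs_sub _ _).trans (add_le_add (h1 true) (h1 false))) (h3 o) (abs_nonneg _)
    (by linarith [(abs_nonneg _).trans (h1 false)])
  linarith

theorem Good.poincare (H : S.Good h R) {o : Option (G × Bool)} {Γ : ℝ} {g : Finset (G × Bool) → ℝ}
    (hg : Cls o Γ g) (hg0 : ∑ I, S.Wt h I * g I = 0) (f : Finset (G × Bool) → ℝ) :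
    (∑ I, S.Wt h I * (g I * f I)) ^ 2 ≤
      (60 * Γ * R * (Fintype.card G + 1) ^ 3) ^ 2 * S.Zt * dir (S.Wt h) f := by
  obtain ⟨φ, hφ⟩ := H.star f
  have hZ := H.hZ
  set a := (∑ I ∈ trans univ, S.w I * f I) / S.Zt with ha
  have hS := hφ a
  set E := √(dir (S.Wt h) f / S.Zt) with hE
  have hE2 : dir (S.Wt h) f = S.Zt * E ^ 2 := by
    rw [Real.sq_sqrt (div_nonneg (dir_nonneg (Wt_nonneg H.hw H.pos) f) hZ.le)]; field_simp
  have h0 : ∑ I ∈ trans univ, S.w I * (f I - a) = 0 := by
    simp only [mul_sub, sum_sub_distrib, ← sum_mul, ← Zt_eq, ha]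
    field_simp; ring
  have e : ∑ I, S.Wt h I * (g I * f I) = ∑ I, S.Wt h I * (g I * (f I - a)) := by
    simp only [mul_sub, sum_sub_distrib, ← mul_assoc, ← sum_mul, hg0]; simp
  obtain ⟨⟨γ, hγ1, hγ2⟩, hgN⟩ := hg
  have hΓ : 0 ≤ Γ := (abs_nonneg _).trans (hγ1 true)
  set m : ℝ := (Fintype.card G : ℝ) with hm
  have hm0 : 0 ≤ m := Nat.cast_nonneg _
  have hE0 := hS.hE
  have hR := H.hR
  have b1 := cls_aux _ o (fun I => S.w I * (f I - a)) g γ hγ1 hγ2 (hS.classT h0)
  have b2 : ∀ i j, |h i j * ∑ I ∈ Nset i j, S.w I * (g I * (f I - a))| ≤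
      3 * Γ * ((20 * m + 20) * (R * (S.Zt * E))) := by
    intro i j
    by_cases hij : i = j
    · subst hij; simp only [Nset_self, sum_empty, mul_zero, abs_zero]; positivity
    obtain ⟨γ, hγ1, hγ2⟩ := hgN i j
    have := cls_aux _ o (fun I => S.w I * (f I - a)) g γ hγ1 hγ2 (fun o => hS.classN h0 o i j)
    rw [abs_mul, abs_of_nonneg (H.pos i j)]
    simp only [mul_left_comm (S.w _)]
    refine (mul_le_mul_of_nonneg_left this (H.pos i j)).trans ?_
    have h1 := mul_le_mul_of_nonneg_right (H.up i j hij) hE0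
    have h2 : 0 ≤ R * (S.Zt * E) := by positivity
    rw [← hm]
    nlinarith [mul_le_mul_of_nonneg_left h1 (show 0 ≤ 3 * Γ * (20 * m + 18) by positivity),
      mul_nonneg hΓ h2]
  rw [e, hE2, show (60 * Γ * R * (m + 1) ^ 3) ^ 2 * S.Zt * (S.Zt * E ^ 2) =
    (60 * Γ * R * (m + 1) ^ 3 * (S.Zt * E)) ^ 2 by ring]
  refine sq_le_sq' ?_ ?_ <;> [refine le_trans ?_ (neg_abs_le _); refine (le_abs_self _).trans ?_]
  all_goals
    try rw [neg_le_neg_iff]
    rw [sum_Wt]
    refine (abs_add_le _ _).trans ?_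
    have b3 : |∑ i, ∑ j, h i j * ∑ I ∈ Nset i j, S.w I * (g I * (f I - a))| ≤
        m * (m * (3 * Γ * ((20 * m + 20) * (R * (S.Zt * E))))) := by
      refine (abs_sum_le_sum_abs _ _).trans ((sum_le_card_nsmul _ _ _ fun i _ =>
        (abs_sum_le_sum_abs _ _).trans (sum_le_card_nsmul _ _ _ fun j _ => b2 i j)).trans ?_)
      simp [hm]
    simp only [mul_left_comm (S.w _)] at b3 ⊢
    have h2 : 0 ≤ Γ * (S.Zt * E) := by positivity
    have h3 : Γ * (S.Zt * E) ≤ R * (Γ * (S.Zt * E)) := by nlinarith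
    have h4 : 0 ≤ R * (Γ * (S.Zt * E)) := by positivity
    nlinarith [mul_le_mul_of_nonneg_left h3 (show 0 ≤ 6 * m + 6 by positivity),
      mul_nonneg h4 hm0, mul_nonneg h4 (sq_nonneg m)]

end Sys

end Vale.Agent.P317
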