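import Vale.Agent.P317.Key

/-! Near-transversals, pinning, and the Lorentz inequalities. -/

namespace Vale.Agent.P317

open Finset

variable {G : Type} [Fintype G] [DecidableEq G] {A : Type} [CommRing A] [Algebra ℝ A]

def Nset (i j : G) : Finset (Finset (G × Bool)) :=
  univ.filter fun I => (i, false) ∈ I ∧ (i, true) ∈ I ∧ (j, false) ∉ I ∧ (j, true) ∉ I ∧
    ∀ g, g ≠ i → g ≠ j → ((g, false) ∈ I ↔ (g, true) ∉ I)

theorem mem_Nset {i j : G} {I : Finset (G × Bool)} : I ∈ Nset i j ↔
    (i, false) ∈ I ∧ (i, true) ∈ I ∧ (j, false) ∉ I ∧ (j, true) ∉ I ∧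
    ∀ g, g ≠ i → g ≠ j → ((g, false) ∈ I ↔ (g, true) ∉ I) := by simp [Nset]

theorem Nset_self (i : G) : Nset i i = ∅ := by
  ext I; simp only [mem_Nset, notMem_empty, iff_false]; tauto

def dbl (i : G) (J : Finset (G × Bool)) : Finset (G × Bool) := insert (i, false) (insert (i, true) J)

theorem sum_Nset {M : Type} [AddCommMonoid M] {i j : G} (hij : i ≠ j) (F : Finset (G × Bool) → M) :
    ∑ I ∈ Nset i j, F I = ∑ J ∈ trans ((univ.erase j).erase i), F (dbl i J) := by
  symm
  refine sum_nbij' (fun J => dbl i J) (fun I => (I.erase (i, false)).erase (i, true)) ?_ ?_ ?_ ?_ ?_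
  · intro J hJ
    have h1 := not_mem_of_trans hJ (g := j) (by simp)
    simp only [mem_Nset, dbl, mem_insert, Prod.mk.injEq, h1, hij.symm]
    refine ⟨by simp, by simp, by simp, by simp, fun g h2 h3 => ?_⟩
    simpa [h2] using ((mem_trans.1 hJ) g).1 (by simp [h2, h3])
  · intro I hI
    obtain ⟨h1, h2, h3, h4, h5⟩ := mem_Nset.1 hI
    rw [mem_trans]
    intro g
    refine ⟨fun hg => ?_, fun hg b => ?_⟩
    · simp only [mem_erase, mem_univ, and_true] at hg
      simpa [hg.1] using h5 g hg.1 hg.2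
    · by_cases hgi : g = i
      · subst hgi; cases b <;> simp
      · have : g = j := by simpa [hgi] using hg
        subst this; cases b <;> simp [h3, h4]
  · intro J hJ
    have h1 := not_mem_of_trans hJ (g := i) (by simp)
    rw [dbl, erase_insert (by simp [h1]), erase_insert (h1 _)]
  · intro I hI
    obtain ⟨h1, h2, -⟩ := mem_Nset.1 hI
    rw [dbl, insert_erase (by simp [h2]), insert_erase h1]
  · intro J _; rfl

theorem disj_pin {K U : Finset G} {F I : Finset (G × Bool)} (hF : F ∈ trans U)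
    (hI : I ∈ trans (K \ U)) : Disjoint I F := by
  rw [disjoint_left]
  rintro ⟨g, b⟩ h1 h2
  by_cases hg : g ∈ U
  · exact not_mem_of_trans hI (by simp [hg]) b h1
  · exact not_mem_of_trans hF hg b h2

theorem pin_sum {M : Type} [AddCommMonoid M] {K U : Finset G} {F : Finset (G × Bool)}
    (hF : F ∈ trans U) (hU : U ⊆ K) (Ψ : Finset (G × Bool) → M) :
    ∑ I ∈ trans K, (if F ⊆ I then Ψ I else 0) = ∑ I ∈ trans (K \ U), Ψ (I ∪ F) := by
  rw [← sum_filter]
  refine sum_nbij' (fun I => I \ F) (fun I => I ∪ F) ?_ ?_ ?_ ?_ ?_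
  · intro I hI
    obtain ⟨h1, h2⟩ := mem_filter.1 hI
    rw [mem_trans]
    intro g
    refine ⟨fun hg => ?_, fun hg b => ?_⟩
    · rw [mem_sdiff] at hg
      have := not_mem_of_trans hF hg.2
      simpa [this] using ((mem_trans.1 h1) g).1 hg.1
    · by_cases hgU : g ∈ U
      · rw [mem_sdiff, not_and, not_not]
        intro h3
        by_contra h4
        have h5 := h2 ((trans_not hF hgU b).2 h4)
        exact (trans_not h1 (hU hgU) b).1 h5 h3
      · have : g ∉ K := by simpa [hgU] using hg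
        simp [not_mem_of_trans h1 this]
  · intro I hI
    refine mem_filter.2 ⟨?_, subset_union_right⟩
    rw [mem_trans]
    intro g
    refine ⟨fun hg => ?_, fun hg b => ?_⟩
    · by_cases hgU : g ∈ U
      · have := not_mem_of_trans hI (g := g) (by simp [hgU])
        simpa [this] using ((mem_trans.1 hF) g).1 hgU
      · have := not_mem_of_trans hF hgU
        simpa [this] using ((mem_trans.1 hI) g).1 (by simp [hg, hgU])
    · simp [not_mem_of_trans hI (g := g) (by simp [hg]), not_mem_of_trans hF fun h => hg (hU h)]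
  · intro I hI
    exact sdiff_union_of_subset (mem_filter.1 hI).2
  · intro I hI
    exact union_sdiff_cancel_right (disj_pin hF hI)
  · intro I hI
    rw [sdiff_union_of_subset (mem_filter.1 hI).2]

namespace Sys

variable (S : Sys (G × Bool) A)

def w (I : Finset (G × Bool)) : ℝ := S.l (S.mon I)

def Zt : ℝ := S.l (S.PK univ)

def Nm (i j : G) : ℝ := S.l (S.PK ((univ.erase j).erase i) * (S.x (i, false) * S.x (i, true)))

theorem Zt_eq : S.Zt = ∑ I ∈ trans univ, S.w I := by
  rw [Zt, PK_eq, map_sum]; rfl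

theorem mon_dbl {K : Finset G} {i : G} (hi : i ∉ K) {J : Finset (G × Bool)} (hJ : J ∈ trans K) :
    S.mon (dbl i J) = S.mon J * (S.x (i, false) * S.x (i, true)) := by
  have h1 := not_mem_of_trans hJ hi
  rw [dbl, S.mon_insert (by simp [h1]), S.mon_insert (h1 _)]; ring

theorem Nm_eq' (i j : G) : S.Nm i j = ∑ J ∈ trans ((univ.erase j).erase i), S.w (dbl i J) := by
  rw [Nm, l_PK]
  exact sum_congr rfl fun J hJ => by rw [w, S.mon_dbl (by simp) hJ]

theorem Nm_eq {i j : G} (hij : i ≠ j) : S.Nm i j = ∑ I ∈ Nset i j, S.w I := by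
  rw [Nm_eq', sum_Nset hij]

omit [Fintype G] in
theorem pr_PK {K : Finset G} {j : G} (hj : j ∈ K) : S.pr j * S.PK (K.erase j) = S.PK K :=
  mul_prod_erase K S.pr hj

omit [Fintype G] [DecidableEq G] in
theorem pr_sq (j : G) : S.pr j * S.pr j = (2 : ℝ) • (S.x (j, false) * S.x (j, true)) := by
  simp only [pr, Algebra.smul_def, map_ofNat]
  linear_combination S.sq (j, false) + S.sq (j, true)

omit [Fintype G] [DecidableEq G] in
theorem pr_x (j : G) (b : Bool) : S.pr j * S.x (j, b) = S.x (j, false) * S.x (j, true) := by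
  cases b
  · simp only [pr]; linear_combination S.sq (j, false)
  · simp only [pr]; linear_combination S.sq (j, true)

variable {S}

omit [Fintype G] in
theorem w_nonneg (hw : S.NN 1) (I : Finset (G × Bool)) : 0 ≤ S.w I := by simpa [w] using hw I

theorem Nm_nonneg (hw : S.NN 1) (i j : G) : 0 ≤ S.Nm i j := by
  rw [Nm_eq']; exact sum_nonneg fun _ _ => w_nonneg hw _

theorem Zt_nonneg (hw : S.NN 1) : 0 ≤ S.Zt := (S.cone_PK _).nonneg hw

theorem mono_pin (hw : S.NN 1) {K U : Finset G} {F : Finset (G × Bool)} (hF : F ∈ trans U)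
    (hU : U ⊆ K) {a : A} (ha : S.Cone a) : S.l (S.PK (K \ U) * S.mon F * a) ≤ S.l (S.PK K * a) := by
  have : S.PK K = S.PK U * S.PK (K \ U) := by rw [mul_comm]; exact (prod_sdiff hU).symm
  rw [this, mul_assoc (S.PK U), l_PK S U, mul_right_comm, mul_comm _ (S.mon F)]
  exact single_le_sum (f := fun I => S.l (S.mon I * (S.PK (K \ U) * a)))
    (fun I _ => ((S.cone_PK _).mul_cone ha).nn hw I) hF

theorem ineq_two (hL : S.Lor) {i k : G} (h : i ≠ k) : 4 * S.Nm i k * S.Nm k i ≤ S.Zt ^ 2 := by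
  have := hL _ (S.cone_PK ((univ.erase k).erase i)) _ _ (S.pos_pr i).lin (S.pos_pr k)
  rw [mul_assoc, mul_assoc, pr_sq, pr_sq, mul_smul_comm, mul_smul_comm, map_smul, map_smul,
    mul_comm _ (S.pr i), S.pr_PK (by simp [h]), mul_comm _ (S.pr k), S.pr_PK (mem_univ _)] at this
  rw [Nm, Nm, erase_right_comm (a := i), Zt]
  simp only [smul_eq_mul] at this
  linarith

theorem ineq_three (hw : S.NN 1) (hL : S.Lor) {i k j : G} (hik : i ≠ k) (hkj : k ≠ j) (hij : i ≠ j) :
    S.Nm i k * S.Nm k j ≤ S.Zt * S.Nm i j := by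
  set K := ((univ.erase j).erase k).erase i with hK
  have e1 : S.PK K * S.pr k = S.PK ((univ.erase j).erase i) := by
    rw [mul_comm, hK, erase_right_comm, S.pr_PK (by simp [hik.symm, hkj])]
  have e2 : S.PK K * S.pr j = S.PK ((univ.erase k).erase i) := by
    rw [mul_comm, hK, erase_right_comm (a := j), erase_right_comm (a := j),
      S.pr_PK (by simp [hij.symm, hkj.symm])]
  have e3 : S.PK K * S.pr i = S.PK ((univ.erase j).erase k) := by
    rw [mul_comm, hK, S.pr_PK (by simp [hij, hik])]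
  have e4 : S.PK K * S.pr i * S.pr k * S.pr j = S.PK univ := by
    rw [e3, mul_comm _ (S.pr k), S.pr_PK (by simp [hkj]), mul_comm, S.pr_PK (mem_univ _)]
  have hβ0 := Nm_nonneg hw i k
  have hα0 := Nm_nonneg hw i j
  have main : ∀ b : Bool, S.Nm i k * S.l (S.PK K * S.x (i, b) * (S.x (k, false) * S.x (k, true))) ≤
      S.l (S.PK K * S.x (i, b) * S.pr k * S.pr j) * S.Nm i j := by
    intro b
    have hm := (S.cone_PK K).mul_pos (pos_x (i, b))
    have hx : S.x (i, b) * S.x (i, !b) = S.x (i, false) * S.x (i, true) := by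
      cases b <;> simp [mul_comm]
    have eα : S.l (S.PK K * S.x (i, b) * S.x (i, !b) * S.pr k) = S.Nm i j := by
      rw [Nm, ← e1, ← hx]; congr 1; ring
    have eβ : S.l (S.PK K * S.x (i, b) * S.x (i, !b) * S.pr j) = S.Nm i k := by
      rw [Nm, ← e2, ← hx]; congr 1; ring
    have hz := ((hm.mul_pos (S.pos_pr k)).mul_pos (S.pos_pr j)).nonneg hw
    rcases hβ0.eq_or_lt with h | h
    · rw [← h, zero_mul]; positivity
    have := ns hw hL hm (pos_x (i, !b)) (S.pos_pr j)
      (((S.pos_pr k).lin.smul (S.Nm i k)).sub ((S.pos_pr j).lin.smul (S.Nm i j))) (by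
        rw [mul_sub, mul_smul_comm, mul_smul_comm, map_sub, map_smul, map_smul, eα, eβ]
        simp [mul_comm]) (by rwa [eβ])
    rw [show S.PK K * S.x (i, b) * (S.Nm i k • S.pr k - S.Nm i j • S.pr j) *
        (S.Nm i k • S.pr k - S.Nm i j • S.pr j) =
        (S.Nm i k ^ 2) • (S.PK K * S.x (i, b) * (S.pr k * S.pr k)) -
        (2 * S.Nm i k * S.Nm i j) • (S.PK K * S.x (i, b) * S.pr k * S.pr j) +
        (S.Nm i j ^ 2) • (S.PK K * S.x (i, b) * S.pr j * S.pr j) by
      simp only [Algebra.smul_def, map_mul, map_pow, map_ofNat]; ring, pr_sq] at this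
    simp only [mul_smul_comm, map_add, map_sub, map_smul, smul_eq_mul] at this
    have n3 := ((hm.mul_pos (S.pos_pr j)).mul_pos (S.pos_pr j)).nonneg hw
    refine le_of_mul_le_mul_left ?_ h
    nlinarith [mul_nonneg (sq_nonneg (S.Nm i j)) n3]
  have s1 : S.Nm k j = S.l (S.PK K * S.x (i, false) * (S.x (k, false) * S.x (k, true))) +
      S.l (S.PK K * S.x (i, true) * (S.x (k, false) * S.x (k, true))) := by
    rw [Nm, ← e3, ← map_add, pr]; congr 1; ring
  have s2 : S.Zt = S.l (S.PK K * S.x (i, false) * S.pr k * S.pr j) +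
      S.l (S.PK K * S.x (i, true) * S.pr k * S.pr j) := by
    rw [Zt, ← e4, ← map_add, pr]; congr 1; ring
  rw [s1, s2]
  linarith [main false, main true]

end Sys

end Vale.Agent.P317
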