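import Vale.Agent.P317.Anneal

/-! The first and the last stage of the annealing. -/

namespace Vale.Agent.P317

open Finset

variable {G : Type} [Fintype G] [DecidableEq G] {Cs : Finset G} {X Y : Fx Cs}

def mkS (B1 B2 : Finset G) : Finset (G × Bool) :=
  univ.filter fun v => if v.2 then v.1 ∉ B2 else v.1 ∈ B1

@[simp] theorem mem_mkS_false {B1 B2 : Finset G} {g : G} : (g, false) ∈ mkS B1 B2 ↔ g ∈ B1 := by
  simp [mkS]

@[simp] theorem mem_mkS_true {B1 B2 : Finset G} {g : G} : (g, true) ∈ mkS B1 B2 ↔ g ∉ B2 := by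
  simp [mkS]

@[simp] theorem sl_mkS_false (B1 B2 : Finset G) : sl false (mkS B1 B2) = B1 := by ext; simp

@[simp] theorem sl_mkS_true (B1 B2 : Finset G) : (sl true (mkS B1 B2))ᶜ = B2 := by ext; simp

theorem mkS_T (B : Finset G) : mkS B B ∈ trans univ := by simp [mem_trans]

theorem eq_mkS_T {I : Finset (G × Bool)} (h : I ∈ trans univ) : I = mkS (sl false I) (sl false I) := by
  ext ⟨g, b⟩
  have := ((mem_trans.1 h) g).1 (mem_univ g)
  cases b <;> simp [this]

theorem inj_T : Set.InjOn (sl false) (trans (univ : Finset G) : Set (Finset (G × Bool))) :=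
  fun I hI J hJ h => by rw [eq_mkS_T hI, eq_mkS_T hJ, h]

theorem inj_N (i j : G) : Set.InjOn (sl false) (Nset i j : Set (Finset (G × Bool))) := by
  intro I hI J hJ h
  obtain ⟨a1, a2, a3, a4, a5⟩ := mem_Nset.1 hI
  obtain ⟨b1, b2, b3, b4, b5⟩ := mem_Nset.1 hJ
  have h0 : ∀ g, (g, false) ∈ I ↔ (g, false) ∈ J := fun g => by rw [← mem_sl, h, mem_sl]
  ext ⟨g, b⟩
  cases b
  · exact h0 g
  · by_cases hi : g = i
    · simp [hi, a2, b2]
    by_cases hj : g = j
    · simp [hj, a4, b4]
    have := h0 g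
    rw [a5 g hi hj, b5 g hi hj] at this
    exact not_iff_not.1 this

theorem sum_le_split (T : Finset (Finset (G × Bool))) (hinj : Set.InjOn (sl false) (T : Set (Finset (G × Bool))))
    (k : G → ℕ) (A e : ℕ) {η0 : ℝ} (hη : 2 ^ Fintype.card G ≤ η0 * 2 ^ A) (top : Finset (Finset G))
    (h : ∀ I ∈ T, Val X Y I → (fe k I ≤ e ∧ sl false I ∈ top) ∨ fe k I + A ≤ e) :
    ∑ I ∈ T, wt X Y k I ≤ (top.card + η0) * 2 ^ e := by
  have h1 : ∑ I ∈ T, wt X Y k I ≤
      ∑ I ∈ T, ((if sl false I ∈ top then (2 : ℝ) ^ e else 0) + 2 ^ e / 2 ^ A) := by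
    refine sum_le_sum fun I hI => ?_
    unfold wt
    split_ifs with h1 h2 h2
    · have : fe k I ≤ e := by rcases h I hI h1 with h3 | h3 <;> omega
      have h3 : (2 : ℝ) ^ fe k I ≤ 2 ^ e := pow_le_pow_right₀ (by norm_num) this
      have : (0 : ℝ) ≤ 2 ^ e / 2 ^ A := by positivity
      linarith
    · have := (h I hI h1).resolve_left fun h3 => h2 h3.2
      rw [zero_add, le_div_iff₀ (by positivity), ← pow_add]
      exact pow_le_pow_right₀ (by norm_num) this
    · positivity
    · positivity
  refine h1.trans ?_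
  rw [sum_add_distrib, ← sum_filter, sum_const, sum_const, nsmul_eq_mul, nsmul_eq_mul, add_mul]
  have c1 : (T.filter fun I => sl false I ∈ top).card ≤ top.card :=
    card_le_card_of_injOn (sl false) (fun I hI => by simpa using (mem_filter.1 hI).2)
      (hinj.mono (coe_subset.2 (filter_subset _ _)))
  have c2 : T.card ≤ 2 ^ Fintype.card G := by
    have := card_le_card_of_injOn (t := univ) (sl false) (fun I _ => by simp) hinj
    simpa using this
  refine add_le_add (mul_le_mul_of_nonneg_right (by exact_mod_cast c1) (by positivity)) ?_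
  have c3 : (T.card : ℝ) ≤ η0 * 2 ^ A := le_trans (by exact_mod_cast c2) hη
  refine (mul_le_mul_of_nonneg_right c3 (by positivity)).trans (le_of_eq ?_)
  field_simp

def k0 (Cs : Finset G) (A : ℕ) : G → ℕ := fun g => if g ∈ Cs then A else 0

def kL (Cs : Finset G) (A : ℕ) : G → ℕ := fun g => if g ∈ Cs then A else 2 * A

noncomputable def h0 (Cs : Finset G) (A : ℕ) : G → G → ℝ := fun i j => if i ∈ Cs ∧ j ∉ Cs then 1 else 2 ^ A

theorem fe_k0 (A : ℕ) (I : Finset (G × Bool)) : fe (k0 Cs A) I = A * (sl false I ∩ Cs).card := by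
  simp [fe, k0, ← sum_filter, filter_mem_eq_inter, mul_comm]

theorem fe_kL (A : ℕ) (I : Finset (G × Bool)) :
    fe (kL Cs A) I + A * (sl false I ∩ Cs).card = 2 * A * (sl false I).card := by
  rw [← fe_k0, fe, fe, ← sum_add_distrib, card_eq_sum_ones, mul_sum]
  refine sum_congr rfl fun g _ => ?_
  simp only [kL, k0]; split_ifs <;> omega

omit [Fintype G] in
theorem Fx.all (X : Fx Cs) {D : Finset G} (hD : D ⊆ Cs) : X.J D := by
  simpa using X.union hD X.empty

omit [Fintype G] in
theorem Fx.ins (X : Fx Cs) {D : Finset G} (hD : D ⊆ Cs) {a : G} (ha : X.J {a}) : X.J (insert a D) := by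
  have := X.union hD ha
  rwa [union_comm, ← insert_eq] at this

theorem wt_S0 (A : ℕ) : wt X Y (k0 Cs A) (mkS Cs Cs) = 2 ^ (A * Cs.card) := by
  rw [wt, if_pos ⟨by simpa using X.all (Subset.refl _), by simp, by simpa using Y.all (Subset.refl _),
    by simp⟩, fe_k0]
  simp

omit [Fintype G] in
theorem top_or {B : Finset G} (hB : B.card = Cs.card) (A : ℕ) :
    (A * (B ∩ Cs).card ≤ A * Cs.card ∧ B ∈ ({Cs} : Finset (Finset G))) ∨
      A * (B ∩ Cs).card + A ≤ A * Cs.card := by
  have h1 : (B ∩ Cs).card ≤ Cs.card := card_le_card inter_subset_right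
  rcases h1.eq_or_lt with h | h
  · left
    refine ⟨Nat.mul_le_mul_left _ h1, mem_singleton.2 ?_⟩
    have e1 := eq_of_subset_of_card_le (inter_subset_right (s₁ := B) (s₂ := Cs)) h.ge
    have e2 := eq_of_subset_of_card_le (inter_subset_left (s₁ := B) (s₂ := Cs)) (by omega)
    rw [← e2, e1]
  · right
    rw [← Nat.mul_succ]; exact Nat.mul_le_mul_left _ h

theorem Z0_bounds (A : ℕ) {η0 : ℝ} (hη : 2 ^ Fintype.card G ≤ η0 * 2 ^ A) :
    2 ^ (A * Cs.card) ≤ Zk X Y (k0 Cs A) ∧ Zk X Y (k0 Cs A) ≤ (1 + η0) * 2 ^ (A * Cs.card) := by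
  constructor
  · rw [← wt_S0 (X := X) (Y := Y)]
    exact single_le_sum (fun I _ => wt_nonneg X Y _ I) (mkS_T Cs)
  · have := sum_le_split (X := X) (Y := Y) _ inj_T (k0 Cs A) A (A * Cs.card) hη {Cs} fun I _ hv => by
      rw [fe_k0]; exact top_or hv.2.1 A
    simpa [Zk] using this

theorem N_lower (k : G → ℕ) {i j : G} {D : Finset G} (hij : i ≠ j) (hi : i ∉ D) (hj : j ∉ D)
    (hD : D.card + 1 = Cs.card) (h1 : X.J (insert i D)) (h2 : Y.J (insert j D)) :
    2 ^ fe k (mkS (insert i D) (insert j D)) ≤ Nk X Y k i j := by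
  have hm : mkS (insert i D) (insert j D) ∈ Nset i j := by
    simp only [mem_Nset, mem_mkS_false, mem_mkS_true, mem_insert, hi, hj, hij, hij.symm]
    exact ⟨by simp, by simp, by simp, by simp, fun g h1 h2 => by simp [h1, h2]⟩
  refine le_trans (le_of_eq ?_) (single_le_sum (fun I _ => wt_nonneg X Y k I) hm)
  rw [wt, if_pos ⟨by simpa using h1, by simp [card_insert_of_notMem hi, hD], by simpa using h2,
    by simp [card_insert_of_notMem hj, hD]⟩]

theorem exists_of_Nk {k : G → ℕ} {i j : G} (h : Nk X Y k i j ≠ 0) : ∃ I ∈ Nset i j, Val X Y I := by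
  obtain ⟨I, hI, h2⟩ := exists_ne_zero_of_sum_ne_zero h
  exact ⟨I, hI, by_contra fun hv => h2 (if_neg hv)⟩

theorem init_good (A : ℕ) {η0 R : ℝ} (hη : 2 ^ Fintype.card G ≤ η0 * 2 ^ A) (hη1 : η0 ≤ 1)
    (hR : (Fintype.card G : ℝ) ^ 2 + 8 ≤ R) : GoodK X Y (k0 Cs A) (h0 Cs A) R := by
  obtain ⟨z1, z2⟩ := Z0_bounds (X := X) (Y := Y) A hη
  have hp : (0 : ℝ) < 2 ^ (A * Cs.card) := by positivity
  have hm := sq_nonneg (Fintype.card G : ℝ)
  have z3 : Zk X Y (k0 Cs A) ≤ 2 * 2 ^ (A * Cs.card) := by nlinarith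
  refine ⟨by linarith, by linarith, fun i j => by unfold h0; split_ifs <;> positivity,
    fun i j => ?_, fun i j => ?_⟩
  · by_cases hN : Nk X Y (k0 Cs A) i j = 0
    · exact Or.inl hN
    right
    obtain ⟨I, hI, v1, v2, v3, v4⟩ := exists_of_Nk hN
    obtain ⟨a1, a2, a3, a4, a5⟩ := mem_Nset.1 hI
    have hij : i ≠ j := fun e => a3 (e ▸ a1)
    have xi : X.J {i} := X.down _ _ (by simpa using a1) v1
    have yj : Y.J {j} := Y.down _ _ (by simpa using a4) v3
    have hr : 0 < Cs.card := v2 ▸ card_pos.2 ⟨i, by simpa using a1⟩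
    suffices h : 2 ^ (A * Cs.card) ≤ h0 Cs A i j * Nk X Y (k0 Cs A) i j by linarith
    have fin : ∀ D : Finset G, i ∉ D → j ∉ D → D.card + 1 = Cs.card → X.J (insert i D) →
        Y.J (insert j D) → (insert i D ∩ Cs).card + 1 = Cs.card →
        2 ^ (A * Cs.card) ≤ 2 ^ A * Nk X Y (k0 Cs A) i j := by
      intro D d1 d2 d3 d4 d5 d6
      have := N_lower (k0 Cs A) hij d1 d2 d3 d4 d5
      rw [fe_k0, sl_mkS_false] at this
      refine le_trans (le_of_eq ?_) (mul_le_mul_of_nonneg_left this (by positivity))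
      rw [← pow_add, ← d6]; congr 1; ring
    unfold h0
    by_cases hi : i ∈ Cs <;> by_cases hj : j ∈ Cs
    · rw [if_neg (by simp [hj])]
      have hsub : ¬ (sl false I).erase i ⊆ (Cs.erase i).erase j := fun hs => by
        have := card_le_card hs
        rw [card_erase_of_mem (by simpa using a1), card_erase_of_mem (by simp [hj, hij.symm]),
          card_erase_of_mem hi] at this
        have := card_pos.2 ⟨j, (show j ∈ Cs.erase i by simp [hj, hij.symm])⟩
        rw [card_erase_of_mem hi] at this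
        omega
      obtain ⟨e, he1, he2⟩ := not_subset.1 hsub
      simp only [mem_erase, mem_sl] at he1 he2
      have hej : e ≠ j := fun h => a3 (h ▸ he1.2)
      have heC : e ∉ Cs := fun h => he2 ⟨hej, he1.1, h⟩
      have xe : X.J {e} := X.down _ _ (by simpa using he1.2) v1
      have ye : Y.J {e} := Y.down _ _ (by simpa using (a5 e he1.1 hej).1 he1.2) v3
      have c1 : ((Cs.erase i).erase j).card + 2 = Cs.card := by
        have := card_pos.2 ⟨j, (show j ∈ Cs.erase i by simp [hj, hij.symm])⟩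
        rw [card_erase_of_mem (by simp [hj, hij.symm])]
        rw [card_erase_of_mem hi] at this ⊢
        omega
      have s1 : (Cs.erase i).erase j ⊆ Cs := (erase_subset _ _).trans (erase_subset _ _)
      refine fin (insert e ((Cs.erase i).erase j)) (by simp [he1.1.symm]) (by simp [hej.symm])
        (by rw [card_insert_of_notMem (by simp [heC])]; omega) ?_ ?_ ?_
      · rw [insert_comm]; exact X.ins (insert_subset hi s1) xe
      · rw [insert_comm]; exact Y.ins (insert_subset hj s1) ye
      · rw [insert_inter_of_mem hi, insert_inter_of_notMem heC, inter_eq_left.2 s1,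
          card_insert_of_notMem (by simp)]
        omega
    · rw [if_pos ⟨hi, hj⟩, one_mul]
      have := N_lower (X := X) (Y := Y) (k0 Cs A) hij (notMem_erase i Cs) (by simp [hj])
        (card_erase_add_one hi) (X.ins (erase_subset _ _) xi) (Y.ins (erase_subset _ _) yj)
      rwa [fe_k0, sl_mkS_false, insert_erase hi, inter_self] at this
    · rw [if_neg (by simp [hi])]
      refine fin (Cs.erase j) (by simp [hi]) (by simp) (card_erase_add_one hj)
        (X.ins (erase_subset _ _) xi) (Y.ins (erase_subset _ _) yj) ?_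
      rw [insert_inter_of_notMem hi, inter_eq_left.2 (erase_subset _ _), card_erase_add_one hj]
    · rw [if_neg (by simp [hi])]
      obtain ⟨c, hc⟩ := card_pos.1 hr
      refine fin (Cs.erase c) (by simp [hi]) (by simp [hj]) (card_erase_add_one hc)
        (X.ins (erase_subset _ _) xi) (Y.ins (erase_subset _ _) yj) ?_
      rw [insert_inter_of_notMem hi, inter_eq_left.2 (erase_subset _ _), card_erase_add_one hc]
  · unfold h0
    split_ifs with hc
    · have := sum_le_split (X := X) (Y := Y) _ (inj_N i j) (k0 Cs A) A (A * Cs.card) hη {Cs}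
        fun I _ hv => by rw [fe_k0]; exact top_or hv.2.1 A
      simp only [card_singleton, Nat.cast_one] at this
      change Nk X Y (k0 Cs A) i j ≤ _ at this
      nlinarith
    by_cases hN : Nk X Y (k0 Cs A) i j = 0
    · rw [hN, mul_zero]; nlinarith
    obtain ⟨I0, hI0, -, v2, -⟩ := exists_of_Nk hN
    have hr : 0 < Cs.card := v2 ▸ card_pos.2 ⟨i, by simpa using (mem_Nset.1 hI0).1⟩
    have := sum_le_split (X := X) (Y := Y) _ (inj_N i j) (k0 Cs A) A (A * (Cs.card - 1)) hη
      (univ.image fun x : G × G => insert x.2 (Cs.erase x.1)) fun I hI hv => by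
        rw [fe_k0]
        obtain ⟨a1, a2, a3, -⟩ := mem_Nset.1 hI
        have v2 := hv.2.1
        have h1 : (sl false I ∩ Cs).card ≤ Cs.card - 1 := by
          by_cases hi : i ∈ Cs
          · have hj : j ∈ Cs := by simpa [hi] using hc
            rw [← card_erase_of_mem hj]
            refine card_le_card fun g hg => ?_
            simp only [mem_inter, mem_sl, mem_erase] at hg ⊢
            exact ⟨fun e => a3 (e ▸ hg.1), hg.2⟩
          · rw [← v2, ← card_erase_of_mem (a := i) (by simpa using a1)]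
            refine card_le_card fun g hg => ?_
            simp only [mem_inter, mem_sl, mem_erase] at hg ⊢
            exact ⟨fun e => hi (e ▸ hg.2), hg.1⟩
        rcases h1.eq_or_lt with h | h
        · left
          refine ⟨Nat.mul_le_mul_left _ h1, ?_⟩
          have e1 := card_sdiff_add_card_inter (sl false I) Cs
          have e2 := card_sdiff_add_card_inter Cs (sl false I)
          rw [inter_comm] at e2
          obtain ⟨e, he⟩ := card_eq_one.1 (show (sl false I \ Cs).card = 1 by omega)
          obtain ⟨c, hc⟩ := card_eq_one.1 (show (Cs \ sl false I).card = 1 by omega)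
          refine mem_image.2 ⟨(c, e), mem_univ _, ?_⟩
          ext g
          have g1 := Finset.ext_iff.1 he g
          have g2 := Finset.ext_iff.1 hc g
          simp only [mem_sdiff, mem_singleton, mem_insert, mem_erase] at g1 g2 ⊢
          tauto
        · right
          rw [← Nat.mul_succ]; exact Nat.mul_le_mul_left _ h
    change Nk X Y (k0 Cs A) i j ≤ _ at this
    have c1 : ((univ.image fun x : G × G => insert x.2 (Cs.erase x.1)).card : ℝ) ≤
        (Fintype.card G : ℝ) ^ 2 := by
      have := card_image_le (s := univ) (f := fun x : G × G => insert x.2 (Cs.erase x.1))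
      rw [card_univ, Fintype.card_prod] at this
      rw [pow_two]; exact_mod_cast this
    have e : (2 : ℝ) ^ (A * Cs.card) = 2 ^ A * 2 ^ (A * (Cs.card - 1)) := by
      rw [← pow_add]; congr 1
      obtain ⟨r, hr'⟩ := Nat.exists_eq_succ_of_ne_zero hr.ne'
      rw [hr']; simp; ring
    have h3 : Nk X Y (k0 Cs A) i j ≤ R * 2 ^ (A * (Cs.card - 1)) :=
      this.trans (mul_le_mul_of_nonneg_right (by linarith) (by positivity))
    calc 2 ^ A * Nk X Y (k0 Cs A) i j ≤ 2 ^ A * (R * 2 ^ (A * (Cs.card - 1))) :=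
          mul_le_mul_of_nonneg_left h3 (by positivity)
      _ = R * 2 ^ (A * Cs.card) := by rw [e]; ring
      _ ≤ _ := mul_le_mul_of_nonneg_left z1 (by linarith)

variable (X Y) in
open Classical in
/-- the common bases avoiding the free elements -/
noncomputable def pureB : Finset (Finset G) :=
  univ.filter fun B => Disjoint B Cs ∧ X.J B ∧ Y.J B ∧ B.card = Cs.card

theorem mem_pureB {I : Finset (G × Bool)} (hI : I ∈ trans univ) (hv : Val X Y I)
    (hd : Disjoint (sl false I) Cs) : sl false I ∈ pureB X Y := by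
  have := hv.2.2.1
  rw [eq_mkS_T hI, sl_mkS_true] at this
  simp [pureB, hd, hv.1, hv.2.1, this]

theorem ZL_pure (A : ℕ) :
    ∑ I ∈ trans univ, wt X Y (kL Cs A) I * (if Disjoint (sl false I) Cs then 1 else 0) =
      (pureB X Y).card * 2 ^ (2 * A * Cs.card) := by
  classical
  have : ∀ I ∈ trans univ, wt X Y (kL Cs A) I * (if Disjoint (sl false I) Cs then 1 else 0) =
      if sl false I ∈ pureB X Y then 2 ^ (2 * A * Cs.card) else 0 := by
    intro I hI
    by_cases h : sl false I ∈ pureB X Y
    · have h' := h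
      simp only [pureB, mem_filter, mem_univ, true_and] at h'
      have hv : Val X Y I := by
        rw [eq_mkS_T hI]
        exact ⟨by simpa using h'.2.1, by simpa using h'.2.2.2, by simpa using h'.2.2.1,
          by simpa using h'.2.2.2⟩
      have := fe_kL (Cs := Cs) A I
      rw [disjoint_iff_inter_eq_empty.1 h'.1, h'.2.2.2] at this
      rw [if_pos h, if_pos h'.1, wt, if_pos hv, mul_one, ← this]; simp
    · rw [if_neg h]
      by_cases hv : Val X Y I
      · rw [if_neg fun hd => h (mem_pureB hI hv hd), mul_zero]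
      · rw [wt, if_neg hv, zero_mul]
  rw [sum_congr rfl this, ← sum_filter, sum_const, nsmul_eq_mul]
  congr 2
  refine card_nbij' (sl false) (fun B => mkS B B) ?_ ?_ ?_ ?_
  · intro I hI; simpa using (mem_filter.1 hI).2
  · intro B hB; simpa [mkS_T] using hB
  · intro I hI; exact (eq_mkS_T (mem_filter.1 hI).1).symm
  · intro B _; simp

theorem ZL_le (A : ℕ) {η0 : ℝ} (hη : 2 ^ Fintype.card G ≤ η0 * 2 ^ A) :
    Zk X Y (kL Cs A) ≤ ((pureB X Y).card + η0) * 2 ^ (2 * A * Cs.card) :=
  sum_le_split _ inj_T (kL Cs A) A _ hη _ fun I hI hv => by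
    have := fe_kL (Cs := Cs) A I
    rw [hv.2.1] at this
    by_cases hd : Disjoint (sl false I) Cs
    · exact Or.inl ⟨by omega, mem_pureB hI hv hd⟩
    · right
      have h2 := card_pos.2 (not_disjoint_iff_nonempty_inter.1 hd)
      have := Nat.mul_le_mul_left A h2
      omega

end Vale.Agent.P317
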