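import Vale.Agent.P317.Mat
import Vale.Agent.P317.Chain

/-! The extended instance. -/

namespace Vale.Agent.P317

open Finset

variable {G : Type} [Fintype G] [DecidableEq G]

/-- independence of the part outside the set `Cs` of free elements -/
structure Fx (Cs : Finset G) where
  J : Finset G → Prop
  empty : J ∅
  down : ∀ I I', I' ⊆ I → J I → J I'
  free : ∀ c ∈ Cs, ∀ I, J I → J (insert c I)
  aug : ∀ I I', J I → J I' → (I \ Cs).card < (I' \ Cs).card → ∃ s ∈ I', s ∉ I ∧ J (insert s I)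

variable {Cs : Finset G}

omit [Fintype G] in
theorem Fx.union (X : Fx Cs) {D I : Finset G} (hD : D ⊆ Cs) (hI : X.J I) : X.J (D ∪ I) := by
  induction D using Finset.induction_on with
  | empty => simpa using hI
  | insert c D _ ih =>
    rw [insert_union]
    exact X.free c (hD (mem_insert_self _ _)) _ (ih ((subset_insert _ _).trans hD))

def Fx.cx (X : Fx Cs) : Cx G where
  Ind I := X.J I ∧ I.card ≤ Cs.card
  down I J h hI := ⟨X.down _ _ h hI.1, (card_le_card h).trans hI.2⟩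
  aug I I' hI hI' h := by
    by_cases hc : I' ∩ Cs ⊆ I ∩ Cs
    · have h1 := card_le_card hc
      have h2 := card_sdiff_add_card_inter I Cs
      have h3 := card_sdiff_add_card_inter I' Cs
      obtain ⟨s, h4, h5, h6⟩ := X.aug I I' hI.1 hI'.1 (by omega)
      exact ⟨s, h4, h5, h6, by rw [card_insert_of_notMem h5]; have := hI'.2; omega⟩
    · obtain ⟨s, h1, h2⟩ := not_subset.1 hc
      simp only [mem_inter, not_and] at h1 h2
      have h5 : s ∉ I := fun h => h2 h h1.2
      exact ⟨s, h1.1, h5, X.free s h1.2 _ hI.1, by rw [card_insert_of_notMem h5]; have := hI'.2; omega⟩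

omit [Fintype G] in
theorem Cx.ext_sub (C : Cx G) {B : Finset G} (hB : C.Ind B) :
    ∀ (k : ℕ) (I : Finset G), C.Ind I → I.card + k = B.card →
      ∃ B', I ⊆ B' ∧ B' ⊆ I ∪ B ∧ C.Ind B' ∧ B'.card = B.card := by
  intro k
  induction k with
  | zero => exact fun I hI h => ⟨I, Subset.refl _, subset_union_left, hI, h⟩
  | succ k ih =>
    intro I hI h
    obtain ⟨s, hsB, hs, hi⟩ := C.aug I B hI hB (by omega)
    obtain ⟨B', h1, h2, h3⟩ := ih (insert s I) hi (by rw [card_insert_of_notMem hs]; omega)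
    refine ⟨B', (subset_insert s I).trans h1, h2.trans ?_, h3⟩
    rw [insert_union]
    exact insert_subset (mem_union_right _ hsB) (Subset.refl _)

def Cx.dual (C : Cx G) (r : ℕ) : Cx G where
  Ind I := ∃ B, C.Ind B ∧ B.card = r ∧ Disjoint I B
  down I J h := fun ⟨B, h1, h2, h3⟩ => ⟨B, h1, h2, h3.mono_left h⟩
  aug I I' := by
    rintro ⟨B, h1, h2, h3⟩ ⟨B', h1', h2', h3'⟩ h
    have e1 := card_sdiff_add_card_inter B' I
    obtain ⟨D, d1, d2, d3, d4⟩ := C.ext_sub h1 (B' ∩ I).card (B' \ I) (C.down _ _ sdiff_subset h1')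
      (by omega)
    have hD : Disjoint I D := Disjoint.mono_right d2 (disjoint_union_right.2 ⟨disjoint_sdiff, h3⟩)
    by_contra hc
    push Not at hc
    have s1 : I' \ I ⊆ D \ (B' \ I) := by
      intro s hs
      rw [mem_sdiff] at hs ⊢
      refine ⟨?_, fun h => disjoint_left.1 h3' hs.1 (mem_sdiff.1 h).1⟩
      by_contra hsD
      exact hc s hs.1 hs.2 D d3 (d4.trans h2) (by simpa [hsD] using hD)
    have s2 : B' ∩ I ⊆ I \ I' := by
      intro s hs
      rw [mem_inter] at hs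
      exact mem_sdiff.2 ⟨hs.2, fun h => disjoint_left.1 h3' h hs.1⟩
    have c1 := card_le_card s1
    have c2 := card_le_card s2
    rw [card_sdiff_of_subset d1] at c1
    have e2 := card_sdiff_add_card_inter I I'
    have e3 := card_sdiff_add_card_inter I' I
    rw [inter_comm] at e3
    omega

def sl (b : Bool) (S : Finset (G × Bool)) : Finset G := univ.filter fun g => (g, b) ∈ S

@[simp] theorem mem_sl {b : Bool} {S : Finset (G × Bool)} {g : G} : g ∈ sl b S ↔ (g, b) ∈ S := by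
  simp [sl]

theorem card_sl (S : Finset (G × Bool)) : S.card = (sl false S).card + (sl true S).card := by
  have : ∀ b, (sl b S).card = (S.filter fun x => x.2 = b).card := fun b => by
    refine card_nbij' (fun g => (g, b)) Prod.fst ?_ ?_ ?_ ?_
    · intro g hg; simpa using hg
    · rintro ⟨g, b'⟩ h
      simp only [coe_filter, Set.mem_setOf_eq] at h
      obtain ⟨h1, rfl⟩ := h
      simpa using h1
    · intro g _; rfl
    · rintro ⟨g, b'⟩ h
      simp only [coe_filter, Set.mem_setOf_eq] at h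
      obtain ⟨h1, rfl⟩ := h
      rfl
  rw [this, this, ← card_filter_add_card_filter_not (s := S) (fun x => x.2 = false)]
  simp

def Cx.sum (C D : Cx G) : Cx (G × Bool) where
  Ind S := C.Ind (sl false S) ∧ D.Ind (sl true S)
  down I J h hI := ⟨C.down _ _ (fun g hg => by simpa using h (by simpa using hg)) hI.1,
    D.down _ _ (fun g hg => by simpa using h (by simpa using hg)) hI.2⟩
  aug I J hI hJ h := by
    rw [card_sl, card_sl] at h
    by_cases h0 : (sl false I).card < (sl false J).card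
    · obtain ⟨s, h1, h2, h3⟩ := C.aug _ _ hI.1 hJ.1 h0
      refine ⟨(s, false), by simpa using h1, by simpa using h2, ?_, ?_⟩
      · convert h3 using 1; ext g; simp
      · convert hI.2 using 1; ext g; simp
    · obtain ⟨s, h1, h2, h3⟩ := D.aug _ _ hI.2 hJ.2 (by omega)
      refine ⟨(s, true), by simpa using h1, by simpa using h2, ?_, ?_⟩
      · convert hI.1 using 1; ext g; simp
      · convert h3 using 1; ext g; simp

variable (X Y : Fx Cs)

def Val (S : Finset (G × Bool)) : Prop :=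
  X.J (sl false S) ∧ (sl false S).card = Cs.card ∧ Y.J (sl true S)ᶜ ∧ ((sl true S)ᶜ).card = Cs.card

def fe (k : G → ℕ) (S : Finset (G × Bool)) : ℕ := ∑ g ∈ sl false S, k g

open Classical in
noncomputable def wt (k : G → ℕ) (S : Finset (G × Bool)) : ℝ := if Val X Y S then 2 ^ fe k S else 0

theorem wt_nonneg (k : G → ℕ) (S : Finset (G × Bool)) : 0 ≤ wt X Y k S := by
  unfold wt; split_ifs <;> positivity

theorem exists_inst (k : G → ℕ) : ∃ S : Sys (G × Bool) (Alg (G × Bool)),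
    S.NN 1 ∧ S.Lor ∧ ∀ I, S.w I = wt X Y k I := by
  obtain ⟨S, h1, h2⟩ := exists_lor (X.cx.sum (Y.cx.dual Cs.card)) (Fintype.card G)
    (fun s => if s.2 then 1 else 2 ^ k s.1) (fun s => by split_ifs <;> positivity)
  have h3 : ∀ I, S.w I = wt X Y k I := by
    intro I
    rw [Sys.w, h2, wt]
    have e : ((X.cx.sum (Y.cx.dual Cs.card)).Ind I ∧ I.card = Fintype.card G) ↔ Val X Y I := by
      rw [card_sl]
      constructor
      · rintro ⟨⟨⟨a1, a2⟩, B, ⟨b1, -⟩, b2, b3⟩, hc⟩
        have hB : B ⊆ (sl true I)ᶜ := fun g hg => mem_compl.2 fun h => disjoint_left.1 b3 h hg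
        have c1 := card_le_card hB
        have c2 := card_add_card_compl (sl true I)
        have := eq_of_subset_of_card_le hB (by omega)
        exact ⟨a1, by omega, this ▸ b1, this ▸ b2⟩
      · rintro ⟨a1, a2, a3, a4⟩
        have c2 := card_add_card_compl (sl true I)
        exact ⟨⟨⟨a1, a2.le⟩, _, ⟨a3, a4.le⟩, a4, disjoint_compl_right⟩, by omega⟩
    by_cases hv : Val X Y I
    · rw [if_pos (e.2 hv), if_pos hv, fe, ← prod_pow_eq_pow_sum, ← prod_filter_mul_prod_filter_not I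
        (fun s => s.2 = true), prod_eq_one (fun s hs => if_pos (mem_filter.1 hs).2), one_mul]
      symm
      refine prod_nbij' (fun g => (g, false)) Prod.fst ?_ ?_ ?_ ?_ ?_
      · intro g hg; simpa using hg
      · rintro ⟨g, b⟩ h
        cases b <;> simpa using h
      · intro g _; rfl
      · rintro ⟨g, b⟩ h
        cases b
        · rfl
        · simp at h
      · intro g _; simp
    · rw [if_neg (fun h => hv (e.1 h)), if_neg hv]
  exact ⟨S, fun I => by rw [mul_one]; exact (h3 I).ge.trans' (wt_nonneg X Y k I), h1, h3⟩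

/-- type factor -/
noncomputable def tau (h : G → G → ℝ) (I : Finset (G × Bool)) : ℝ :=
  (if I ∈ trans univ then 1 else 0) + ∑ i, ∑ j, if I ∈ Nset i j then h i j else 0

theorem not_T_of_N {i j : G} {I : Finset (G × Bool)} (h : I ∈ Nset i j) : I ∉ trans univ := fun hT => by
  have := mem_Nset.1 h
  exact (((mem_trans.1 hT) i).1 (mem_univ _)).1 this.1 this.2.1

theorem Nset_uniq {i j i' j' : G} {I : Finset (G × Bool)} (h : I ∈ Nset i j) (h' : I ∈ Nset i' j') :
    i' = i ∧ j' = j := by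
  obtain ⟨a1, a2, a3, a4, a5⟩ := mem_Nset.1 h
  obtain ⟨b1, b2, b3, b4, b5⟩ := mem_Nset.1 h'
  constructor
  · by_contra hi
    by_cases hj : i' = j
    · exact a3 (hj ▸ b1)
    · exact (a5 i' hi hj).1 b1 b2
  · by_contra hj
    by_cases hi : j' = i
    · exact b3 (hi ▸ a1)
    · exact b3 ((a5 j' hi hj).2 b4)

theorem sum_ite_N {M : Type} [AddCommMonoid M] (h : G → G → M) {i j : G} {I : Finset (G × Bool)}
    (hI : I ∈ Nset i j) : (∑ i', ∑ j', if I ∈ Nset i' j' then h i' j' else 0) = h i j := by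
  rw [sum_eq_single i, sum_eq_single j, if_pos hI]
  · exact fun j' _ hj => if_neg fun h' => hj (Nset_uniq hI h').2
  · simp
  · exact fun i' _ hi => sum_eq_zero fun j' _ => if_neg fun h' => hi (Nset_uniq hI h').1
  · simp

theorem tau_T (h : G → G → ℝ) {I : Finset (G × Bool)} (hI : I ∈ trans univ) : tau h I = 1 := by
  rw [tau, if_pos hI, sum_eq_zero, add_zero]
  exact fun i _ => sum_eq_zero fun j _ => if_neg fun h' => not_T_of_N h' hI

theorem tau_N (h : G → G → ℝ) {i j : G} {I : Finset (G × Bool)} (hI : I ∈ Nset i j) :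
    tau h I = h i j := by
  rw [tau, if_neg (not_T_of_N hI), sum_ite_N h hI, zero_add]

theorem tau_O (h : G → G → ℝ) {I : Finset (G × Bool)} (h1 : I ∉ trans univ)
    (h2 : ∀ i j, I ∉ Nset i j) : tau h I = 0 := by
  simp [tau, h1, h2]

theorem type_cases (I : Finset (G × Bool)) :
    I ∈ trans univ ∨ (∃ i j, I ∈ Nset i j) ∨ (I ∉ trans univ ∧ ∀ i j, I ∉ Nset i j) := by
  by_cases h1 : I ∈ trans univ
  · exact Or.inl h1
  by_cases h2 : ∃ i j, I ∈ Nset i j
  · exact Or.inr (Or.inl h2)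
  · exact Or.inr (Or.inr ⟨h1, fun i j h => h2 ⟨i, j, h⟩⟩)

noncomputable def Zk (k : G → ℕ) : ℝ := ∑ I ∈ trans univ, wt X Y k I

noncomputable def Nk (k : G → ℕ) (i j : G) : ℝ := ∑ I ∈ Nset i j, wt X Y k I

noncomputable def Wk (k : G → ℕ) (h : G → G → ℝ) (I : Finset (G × Bool)) : ℝ := wt X Y k I * tau h I

/-- expectation -/
noncomputable def Ep {ι : Type} [Fintype ι] (W f : ι → ℝ) : ℝ := (∑ I, W I * f I) / ∑ I, W I

structure GoodK (k : G → ℕ) (h : G → G → ℝ) (R : ℝ) : Prop where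
  hZ : 0 < Zk X Y k
  hR : 8 ≤ R
  pos : ∀ i j, 0 < h i j
  low : ∀ i j, Nk X Y k i j = 0 ∨ Zk X Y k ≤ 8 * (h i j * Nk X Y k i j)
  up : ∀ i j, h i j * Nk X Y k i j ≤ R * Zk X Y k

variable {X Y}

theorem sum_Wk (k : G → ℕ) (h : G → G → ℝ) (F : Finset (G × Bool) → ℝ) :
    ∑ I, Wk X Y k h I * F I = ∑ I ∈ trans univ, wt X Y k I * F I +
      ∑ i, ∑ j, h i j * ∑ I ∈ Nset i j, wt X Y k I * F I := by
  obtain ⟨S, -, -, h3⟩ := exists_inst X Y k
  simpa only [Sys.Wt, h3, Wk, tau] using S.sum_Wt h F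

theorem GoodK.tot {k : G → ℕ} {h : G → G → ℝ} {R : ℝ} (H : GoodK X Y k h R) :
    Zk X Y k ≤ ∑ I, Wk X Y k h I ∧
      ∑ I, Wk X Y k h I ≤ (1 + (Fintype.card G : ℝ) ^ 2 * R) * Zk X Y k := by
  have := sum_Wk (X := X) (Y := Y) k h fun _ => 1
  simp only [mul_one] at this
  rw [this]
  refine ⟨le_add_of_nonneg_right (sum_nonneg fun i _ => sum_nonneg fun j _ =>
    mul_nonneg (H.pos i j).le (sum_nonneg fun _ _ => wt_nonneg _ _ _ _)), ?_⟩
  have := sum_le_card_nsmul univ _ _ fun i _ => sum_le_card_nsmul univ _ _ fun j _ => H.up i j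
  simp only [card_univ, nsmul_eq_mul] at this
  simp only [Nk, Zk] at this ⊢
  linarith

theorem GoodK.warm {k : G → ℕ} {h : G → G → ℝ} {R c : ℝ}
    {acc : Finset (G × Bool) → Finset (G × Bool) → ℝ} (H : GoodK X Y k h R)
    (M : Metro (Wk X Y k h) c acc)
    {o : Option (G × Bool)} {Γ η : ℝ} {g : Finset (G × Bool) → ℝ} (hg : Sys.Cls o Γ g)
    (hg0 : ∑ I, Wk X Y k h I * g I = 0) {T : ℕ} (hη : 0 ≤ η) (hT0 : 0 < T)
    (hT : (60 * Γ * R * (Fintype.card G + 1) ^ 3) ^ 2 ≤ η ^ 2 * c * T)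
    {f : Finset (G × Bool) → ℝ} (hf : ∀ I, 0 ≤ f I ∧ f I ≤ 1) :
    |(∑ I, Wk X Y k h I * ((1 + g I) * (Pop c acc ^ T) f I)) / ∑ I, Wk X Y k h I -
      Ep (Wk X Y k h) f| ≤ η := by
  obtain ⟨S, h1, h2, h3⟩ := exists_inst X Y k
  have eW : S.Wt h = Wk X Y k h := by funext I; simp only [Sys.Wt, h3, Wk, tau]
  have eZ : S.Zt = Zk X Y k := by simp only [Sys.Zt_eq, h3, Zk]
  have eN : ∀ i j, i ≠ j → S.Nm i j = Nk X Y k i j := fun i j hij => by
    simp only [S.Nm_eq hij, h3, Nk]
  have HG : S.Good h R := ⟨h1, h2, eZ ▸ H.hZ, by linarith [H.hR], fun i j => (H.pos i j).le,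
    fun i j hij => by rw [eN i j hij, eZ]; exact H.low i j,
    fun i j hij => by rw [eN i j hij, eZ]; exact H.up i j⟩
  have := P317.warm HG (eW ▸ M) hg (eW ▸ hg0) hη hT0 hT hf
  rw [eW] at this
  have hpos : 0 < ∑ I, Wk X Y k h I := H.hZ.trans_le H.tot.1
  rw [Ep, ← sub_div, abs_div, abs_of_pos hpos, div_le_iff₀ hpos]
  exact this

end Vale.Agent.P317
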