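import Vale.Agent.P317.Alg

/-! The key transport inequality on transversals. -/

namespace Vale.Agent.P317

open Finset

variable {G : Type} [Fintype G] [DecidableEq G] {A : Type} [CommRing A] [Algebra ℝ A]

def trans (K : Finset G) : Finset (Finset (G × Bool)) :=
  univ.filter fun I => ∀ g, (g ∈ K → ((g, false) ∈ I ↔ (g, true) ∉ I)) ∧ (g ∉ K → ∀ b, (g, b) ∉ I)

theorem mem_trans {K : Finset G} {I : Finset (G × Bool)} : I ∈ trans K ↔
    ∀ g, (g ∈ K → ((g, false) ∈ I ↔ (g, true) ∉ I)) ∧ (g ∉ K → ∀ b, (g, b) ∉ I) := by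
  simp [trans]

theorem not_mem_of_trans {K : Finset G} {I : Finset (G × Bool)} (h : I ∈ trans K) {g : G}
    (hg : g ∉ K) (b : Bool) : (g, b) ∉ I := ((mem_trans.1 h) g).2 hg b

theorem trans_not {K : Finset G} {I : Finset (G × Bool)} (h : I ∈ trans K) {g : G}
    (hg : g ∈ K) (b : Bool) : (g, !b) ∈ I ↔ (g, b) ∉ I := by
  have := ((mem_trans.1 h) g).1 hg
  cases b
  · simp only [Bool.not_false, this, not_not]
  · simpa using this

theorem trans_empty : trans (∅ : Finset G) = {∅} := by
  ext I
  simp only [mem_trans, notMem_empty, false_imp_iff, not_false_eq_true, true_imp_iff, true_and,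
    mem_singleton, eq_empty_iff_forall_notMem, Prod.forall]

theorem insert_mem_trans {K : Finset G} {g : G} (hg : g ∉ K) (b : Bool) {I : Finset (G × Bool)}
    (h : I ∈ trans K) : insert (g, b) I ∈ trans (insert g K) := by
  rw [mem_trans]
  intro e
  by_cases he : e = g
  · subst he
    have h1 := not_mem_of_trans h hg
    cases b <;> simp [h1]
  · have := (mem_trans.1 h) e
    simpa [he] using this

theorem erase_mem_trans {K : Finset G} {g : G} (hg : g ∉ K) (b : Bool) {I : Finset (G × Bool)}
    (h : I ∈ trans (insert g K)) (hb : (g, b) ∈ I) : I.erase (g, b) ∈ trans K := by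
  rw [mem_trans]
  intro e
  by_cases he : e = g
  · subst he
    refine ⟨fun h => absurd h hg, fun _ b' => ?_⟩
    by_cases hbb : b' = b
    · simp [hbb]
    · have : b' = !b := by cases b <;> cases b' <;> simp_all
      subst this
      simp [trans_not h (mem_insert_self _ _), hb]
  · have := (mem_trans.1 h) e
    simpa [he] using this

theorem sum_trans_pin {M : Type} [AddCommMonoid M] {K : Finset G} {g : G} (hg : g ∉ K) (b : Bool)
    (F : Finset (G × Bool) → M) :
    ∑ I ∈ trans (insert g K), (if (g, b) ∈ I then F I else 0) = ∑ I ∈ trans K, F (insert (g, b) I) := by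
  rw [← sum_filter]
  refine sum_nbij' (fun I => I.erase (g, b)) (fun I => insert (g, b) I) ?_ ?_ ?_ ?_ ?_
  · intro I hI
    simp only [mem_filter] at hI
    exact erase_mem_trans hg b hI.1 hI.2
  · intro I hI
    simp only [mem_filter]
    exact ⟨insert_mem_trans hg b hI, mem_insert_self _ _⟩
  · intro I hI
    simp only [mem_filter] at hI
    exact insert_erase hI.2
  · intro I hI
    exact erase_insert (not_mem_of_trans hI hg b)
  · intro I hI
    simp only [mem_filter] at hI
    rw [insert_erase hI.2]

theorem sum_trans_insert {M : Type} [AddCommMonoid M] {K : Finset G} {g : G} (hg : g ∉ K)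
    (F : Finset (G × Bool) → M) :
    ∑ I ∈ trans (insert g K), F I =
      ∑ I ∈ trans K, F (insert (g, false) I) + ∑ I ∈ trans K, F (insert (g, true) I) := by
  rw [← sum_trans_pin hg, ← sum_trans_pin hg, ← sum_add_distrib]
  refine sum_congr rfl fun I hI => ?_
  have := ((mem_trans.1 hI) g).1 (mem_insert_self _ _)
  by_cases h : (g, true) ∈ I <;> simp [h, this]

namespace Sys

variable (S : Sys (G × Bool) A)

def pr (g : G) : A := S.x (g, false) + S.x (g, true)

def PK (K : Finset G) : A := ∏ g ∈ K, S.pr g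

theorem pos_pr (g : G) : S.Pos (S.pr g) := (pos_x _).add (pos_x _)

omit [Fintype G] in
theorem PK_insert {K : Finset G} {g : G} (hg : g ∉ K) : S.PK (insert g K) = S.pr g * S.PK K :=
  prod_insert hg

theorem cone_PK (K : Finset G) : S.Cone (S.PK K) := by
  induction K using Finset.induction_on with
  | empty => simpa [PK] using Cone.one
  | insert g K h ih => rw [S.PK_insert h]; exact Cone.mul (S.pos_pr g) ih

theorem PK_eq (K : Finset G) : S.PK K = ∑ I ∈ trans K, S.mon I := by
  induction K using Finset.induction_on with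
  | empty => simp [PK, trans_empty]
  | insert g K h ih =>
    rw [S.PK_insert h, sum_trans_insert h, ih, pr, add_mul, mul_sum, mul_sum]
    congr 1 <;> exact sum_congr rfl fun I hI => (S.mon_insert (not_mem_of_trans hI h _)).symm

theorem l_PK (K : Finset G) (a : A) : S.l (S.PK K * a) = ∑ I ∈ trans K, S.l (S.mon I * a) := by
  rw [PK_eq, sum_mul, map_sum]

variable {S}

theorem aux_delta (hw : S.NN 1) (hL : S.Lor) {m y : A} (hm : S.Cone m) (hy : S.Lin y) (u u' : G × Bool)
    (h0 : S.l (m * (S.x u + S.x u') * y) = 0) {s : G × Bool}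
    (h1 : 0 < S.l (m * (S.x u + S.x u') * S.x s)) :
    S.l (m * S.x u * y) / S.l (m * S.x u * S.x u') * S.l (m * S.x u * S.x u') = S.l (m * S.x u * y) ∧
    (S.l (m * S.x u * y) / S.l (m * S.x u * S.x u')) ^ 2 * S.l (m * S.x u * S.x u') ≤
      -S.l (m * y * y) / 2 := by
  set δ := S.l (m * S.x u * y) with hδ
  set N := S.l (m * S.x u * S.x u') with hN
  have hδ' : S.l (m * S.x u' * y) = -δ := by
    rw [mul_add, add_mul, map_add] at h0; linarith
  have key : ∀ t : ℝ, S.l (m * y * y) + 4 * t * δ - 2 * t ^ 2 * N ≤ 0 := by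
    intro t
    have := ns hw hL hm ((pos_x u).add (pos_x u')) (pos_x s)
      (hy.add (((lin_x u).sub (lin_x u')).smul t)) (by
        have : m * (S.x u + S.x u') * (y + t • (S.x u - S.x u')) = m * (S.x u + S.x u') * y := by
          simp only [Algebra.smul_def]
          linear_combination (m * algebraMap ℝ A t) * S.sq u - (m * algebraMap ℝ A t) * S.sq u'
        rw [this, h0]) h1
    have e : m * (y + t • (S.x u - S.x u')) * (y + t • (S.x u - S.x u')) =
        m * y * y + (2 * t) • (m * S.x u * y) - (2 * t) • (m * S.x u' * y) -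
          (2 * t ^ 2) • (m * S.x u * S.x u') := by
      simp only [Algebra.smul_def, map_mul, map_pow, map_ofNat]
      linear_combination (m * algebraMap ℝ A t ^ 2) * S.sq u + (m * algebraMap ℝ A t ^ 2) * S.sq u'
    rw [e] at this
    simp only [map_sub, map_add, map_smul, smul_eq_mul, hδ', ← hδ, ← hN] at this
    linarith
  by_cases hN0 : N = 0
  · have hδ0 : δ = 0 := by
      by_contra h
      have := key ((1 - S.l (m * y * y)) / (4 * δ))
      rw [hN0] at this
      have e : 4 * ((1 - S.l (m * y * y)) / (4 * δ)) * δ = 1 - S.l (m * y * y) := by field_simp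
      linarith
    have := key 0
    simp [hN0, hδ0]
    linarith
  · refine ⟨div_mul_cancel₀ _ hN0, ?_⟩
    have := key (δ / N)
    have e : δ = δ / N * N := (div_mul_cancel₀ _ hN0).symm
    set c := δ / N
    rw [e] at this
    nlinarith

theorem aux_a (hw : S.NN 1) (hL : S.Lor) {m p y : A} (hm : S.Cone m) (hp : S.Pos p) (hy : S.Lin y)
    (u u' : G × Bool) (c : ℝ) (h0 : S.l (m * p * (S.x u + S.x u') * y) = 0)
    (hc : c * S.l (m * p * S.x u * S.x u') = S.l (m * p * S.x u * y))
    (hc' : S.l (m * p * S.x u * S.x u') = 0 → c = 0) {s : G × Bool}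
    (h1 : 0 < S.l (m * p * (S.x u + S.x u') * S.x s)) :
    S.l (m * S.x u * (y - c • S.x u') * (y - c • S.x u')) ≤ 0 := by
  by_cases hz : ∀ s, S.l (m * p * S.x u * S.x s) = 0
  · have hc0 := hc' (hz u')
    subst hc0
    simp only [zero_smul, sub_zero]
    have hδ : S.l (m * p * S.x u * y) = 0 := hy.l_eq_zero hz
    have hδ' : S.l (m * p * S.x u' * y) = 0 := by
      rw [mul_add, add_mul, map_add] at h0; linarith
    have h2 : 0 < S.l (m * p * S.x u' * S.x s) := by
      rw [mul_add, add_mul, map_add, hz s] at h1; linarith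
    have key : ∀ t : ℝ, 0 < t → S.l (m * S.x u * y * y) + t * S.l (m * S.x u' * y * y) ≤ 0 := by
      intro t ht
      have := ns hw hL (hm.mul_pos ((pos_x u).add ((pos_x u').smul ht.le))) hp (pos_x s) hy (by
        rw [show m * (S.x u + t • S.x u') * p * y = m * p * S.x u * y + t • (m * p * S.x u' * y) by
          simp only [Algebra.smul_def]; ring]
        simp [hδ, hδ']) (by
        rw [show m * (S.x u + t • S.x u') * p * S.x s =
          m * p * S.x u * S.x s + t • (m * p * S.x u' * S.x s) by simp only [Algebra.smul_def]; ring]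
        simp only [map_add, map_smul, hz s, smul_eq_mul, zero_add]
        positivity)
      rw [show m * (S.x u + t • S.x u') * y * y = m * S.x u * y * y + t • (m * S.x u' * y * y) by
        simp only [Algebra.smul_def]; ring] at this
      simpa using this
    by_contra hneg
    push Not at hneg
    set α := S.l (m * S.x u * y * y)
    set β := S.l (m * S.x u' * y * y)
    have hpos : 0 < α / (|β| + 1) := by positivity
    have := key _ hpos
    have e : α / (|β| + 1) * (|β| + 1) = α := by field_simp
    nlinarith [neg_abs_le β]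
  · push Not at hz
    obtain ⟨s', hs'⟩ := hz
    have hnn := (((hm.mul_pos hp).mul_pos (pos_x u)).mul_pos (pos_x s')).nonneg hw
    refine ns hw hL (hm.mul_pos (pos_x u)) hp (pos_x s') (hy.sub ((lin_x u').smul c)) ?_ ?_
    · rw [show m * S.x u * p * (y - c • S.x u') = m * p * S.x u * y - c • (m * p * S.x u * S.x u') by
        simp only [Algebra.smul_def]; ring]
      simp [hc]
    · rw [show m * S.x u * p * S.x s' = m * p * S.x u * S.x s' by ring]
      exact lt_of_le_of_ne hnn (Ne.symm hs')

end Sys

theorem sqrt_cs {a a' b b' : ℝ} (ha : 0 ≤ a) (ha' : 0 ≤ a') (hb : 0 ≤ b) (hb' : 0 ≤ b') :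
    √a * √b + √a' * √b' ≤ √(a + a') * √(b + b') := by
  rw [← Real.sqrt_mul (add_nonneg ha ha')]
  refine Real.le_sqrt_of_sq_le ?_
  nlinarith [Real.sq_sqrt ha, Real.sq_sqrt ha', Real.sq_sqrt hb, Real.sq_sqrt hb',
    sq_nonneg (√a * √b' - √a' * √b)]

omit [Fintype G] [DecidableEq G] in
/-- weighted Cauchy-Schwarz -/
theorem wcs {ι : Type} (s : Finset ι) (w f : ι → ℝ) (hw : ∀ i ∈ s, 0 ≤ w i) :
    |∑ i ∈ s, f i * w i| ≤ √(∑ i ∈ s, w i) * √(∑ i ∈ s, f i ^ 2 * w i) := by
  rw [← Real.sqrt_mul (sum_nonneg hw)]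
  refine Real.abs_le_sqrt ?_
  rw [mul_comm]
  refine sum_sq_le_sum_mul_sum_of_sq_eq_mul s (fun i hi => mul_nonneg (sq_nonneg _) (hw i hi)) hw
    fun i _ => by ring

namespace Sys

variable {S : Sys (G × Bool) A}

/-- squared gradient term -/
noncomputable def grad (S : Sys (G × Bool) A) (K : Finset G) (i : G) (m : A)
    (φ : Finset (G × Bool) → ℝ) : ℝ :=
  ∑ J ∈ trans K, (φ (insert (i, false) J) - φ (insert (i, true) J)) ^ 2 *
    S.l (S.mon J * (m * S.x (i, false) * S.x (i, true)))

theorem grad_nonneg (hw : S.NN 1) (K : Finset G) (i : G) {m : A} (hm : S.Cone m)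
    (φ : Finset (G × Bool) → ℝ) : 0 ≤ S.grad K i m φ :=
  sum_nonneg fun J _ => mul_nonneg (sq_nonneg _)
    (((hm.mul_pos (pos_x _)).mul_pos (pos_x _)).nn hw J)

theorem key (hw : S.NN 1) (hL : S.Lor) (K : Finset G) : ∀ (m y : A), S.Cone m → S.Lin y →
    S.l (S.PK K * m * y) = 0 → ∀ φ : Finset (G × Bool) → ℝ,
    |∑ I ∈ trans K, φ I * S.l (S.mon I * (m * y))| ≤
      ∑ i ∈ K, √(-S.l (S.PK (K.erase i) * m * y * y) / 2) * √(S.grad (K.erase i) i m φ) := by
  induction K using Finset.induction_on with
  | empty =>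
    intro m y _ _ h φ
    simp only [PK, prod_empty, one_mul] at h
    simp [trans_empty, h]
  | insert g K hg ih =>
    intro m y hm hy h φ
    set u : G × Bool := (g, false) with hu
    set u' : G × Bool := (g, true) with hu'
    have hmK := (S.cone_PK K).mul_cone hm
    have h0 : S.l (S.PK K * m * (S.x u + S.x u') * y) = 0 := by
      rw [← h, S.PK_insert hg, pr]; congr 1; ring
    have hsplit : ∑ I ∈ trans (insert g K), φ I * S.l (S.mon I * (m * y)) =
        ∑ I ∈ trans K, φ (insert u I) * S.l (S.mon I * (m * S.x u * y)) +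
        ∑ I ∈ trans K, φ (insert u' I) * S.l (S.mon I * (m * S.x u' * y)) := by
      rw [sum_trans_insert hg]
      congr 1 <;> refine sum_congr rfl fun I hI => ?_ <;>
        rw [S.mon_insert (not_mem_of_trans hI hg _)] <;> congr 2 <;> ring
    rw [hsplit]
    by_cases hz : ∀ s, S.l (S.PK K * m * (S.x u + S.x u') * S.x s) = 0
    · have hz' : ∀ I ∈ trans K, ∀ s, S.l (S.mon I * (m * S.x u) * S.x s) = 0 ∧
          S.l (S.mon I * (m * S.x u') * S.x s) = 0 := by
        intro I hI s
        have := hz s
        rw [show S.PK K * m * (S.x u + S.x u') * S.x s = S.PK K * (m * (S.x u + S.x u') * S.x s) by ring,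
          S.l_PK] at this
        have h2 := (sum_eq_zero_iff_of_nonneg fun I _ =>
          ((hm.mul_pos ((pos_x u).add (pos_x u'))).mul_pos (pos_x s)).nn hw I).1 this I hI
        rw [show S.mon I * (m * (S.x u + S.x u') * S.x s) =
          S.mon I * (m * S.x u) * S.x s + S.mon I * (m * S.x u') * S.x s by ring, map_add] at h2
        have n1 := (((cone_mon I).mul_cone (hm.mul_pos (pos_x u))).mul_pos (pos_x s)).nonneg hw
        have n2 := (((cone_mon I).mul_cone (hm.mul_pos (pos_x u'))).mul_pos (pos_x s)).nonneg hw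
        constructor <;> linarith
      rw [sum_eq_zero, sum_eq_zero]
      · simp only [add_zero, abs_zero]; positivity
      · intro I hI
        rw [← mul_assoc, hy.l_eq_zero fun s => (hz' I hI s).2, mul_zero]
      · intro I hI
        rw [← mul_assoc, hy.l_eq_zero fun s => (hz' I hI s).1, mul_zero]
    push Not at hz
    obtain ⟨s, hs⟩ := hz
    have h1 : 0 < S.l (S.PK K * m * (S.x u + S.x u') * S.x s) := lt_of_le_of_ne
      (((hmK.mul_pos ((pos_x u).add (pos_x u'))).mul_pos (pos_x s)).nonneg hw) (Ne.symm hs)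
    obtain ⟨hc1, hc2⟩ := aux_delta hw hL hmK hy u u' h0 h1
    set δ := S.l (S.PK K * m * S.x u * y) with hδ
    set N := S.l (S.PK K * m * S.x u * S.x u') with hN
    set c := δ / N with hc
    have hδ' : S.l (S.PK K * m * S.x u' * y) = -δ := by
      rw [mul_add, add_mul, map_add] at h0; linarith
    have i1 := ih (m * S.x u) (y - c • S.x u') (hm.mul_pos (pos_x u)) (hy.sub ((lin_x u').smul c)) (by
      rw [show S.PK K * (m * S.x u) * (y - c • S.x u') =
        S.PK K * m * S.x u * y - c • (S.PK K * m * S.x u * S.x u') by simp only [Algebra.smul_def]; ring]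
      simp [← hδ, ← hN, hc1]) (fun I => φ (insert u I))
    have i2 := ih (m * S.x u') (y - (-c) • S.x u) (hm.mul_pos (pos_x u')) (hy.sub ((lin_x u).smul _)) (by
      rw [show S.PK K * (m * S.x u') * (y - (-c) • S.x u) =
        S.PK K * m * S.x u' * y + c • (S.PK K * m * S.x u * S.x u') by
          simp only [Algebra.smul_def, map_neg]; ring]
      simp [hδ', ← hN, hc1]) (fun I => φ (insert u' I))
    have hdec : ∑ I ∈ trans K, φ (insert u I) * S.l (S.mon I * (m * S.x u * y)) +
        ∑ I ∈ trans K, φ (insert u' I) * S.l (S.mon I * (m * S.x u' * y)) =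
        ∑ I ∈ trans K, φ (insert u I) * S.l (S.mon I * (m * S.x u * (y - c • S.x u'))) +
        ∑ I ∈ trans K, φ (insert u' I) * S.l (S.mon I * (m * S.x u' * (y - (-c) • S.x u))) +
        c * ∑ I ∈ trans K, (φ (insert u I) - φ (insert u' I)) * S.l (S.mon I * (m * S.x u * S.x u')) := by
      simp only [mul_sum, ← sum_add_distrib]
      refine sum_congr rfl fun I _ => ?_
      rw [show S.mon I * (m * S.x u * (y - c • S.x u')) =
        S.mon I * (m * S.x u * y) - c • (S.mon I * (m * S.x u * S.x u')) by
          simp only [Algebra.smul_def]; ring,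
        show S.mon I * (m * S.x u' * (y - (-c) • S.x u)) =
        S.mon I * (m * S.x u' * y) + c • (S.mon I * (m * S.x u * S.x u')) by
          simp only [Algebra.smul_def, map_neg]; ring]
      simp only [map_sub, map_add, map_smul, smul_eq_mul]; ring
    have h3 : |c * ∑ I ∈ trans K, (φ (insert u I) - φ (insert u' I)) *
        S.l (S.mon I * (m * S.x u * S.x u'))| ≤
        √(-S.l (S.PK K * m * y * y) / 2) * √(S.grad K g m φ) := by
      have := wcs (trans K) (fun I => S.l (S.mon I * (m * S.x u * S.x u')))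
        (fun I => φ (insert u I) - φ (insert u' I))
        (fun I _ => ((hm.mul_pos (pos_x u)).mul_pos (pos_x u')).nn hw I)
      rw [← S.l_PK, show S.PK K * (m * S.x u * S.x u') = S.PK K * m * S.x u * S.x u' by ring, ← hN] at this
      rw [abs_mul]
      refine (mul_le_mul_of_nonneg_left this (abs_nonneg c)).trans ?_
      rw [← mul_assoc]
      refine mul_le_mul_of_nonneg_right ?_ (Real.sqrt_nonneg _)
      rw [← Real.sqrt_sq_eq_abs, ← Real.sqrt_mul (sq_nonneg c)]
      exact Real.sqrt_le_sqrt hc2
    rw [hdec, sum_insert hg, erase_insert hg]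
    refine (abs_add_three _ _ _).trans ?_
    rw [add_comm (√_ * _)]
    refine add_le_add ((add_le_add i1 i2).trans ?_) h3
    rw [← sum_add_distrib]
    refine sum_le_sum fun i hi => ?_
    have hig : i ≠ g := fun e => hg (e ▸ hi)
    have hgi : g ∉ K.erase i := fun e => hg (mem_of_mem_erase e)
    have eK : (insert g K).erase i = insert g (K.erase i) := erase_insert_of_ne hig.symm
    have ePK : S.PK K = S.pr i * S.PK (K.erase i) := by
      rw [← S.PK_insert (notMem_erase i K), insert_erase hi]
    have hmi := (S.cone_PK (K.erase i)).mul_cone hm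
    have hcN : N = 0 → c = 0 := fun e => by simp [hc, e]
    have eN : ∀ a b, S.PK (K.erase i) * m * S.pr i * a * b = S.PK K * m * a * b := fun a b => by
      rw [ePK]; ring
    have a1 := aux_a hw hL hmi (S.pos_pr i) hy u u' c (by rw [eN, h0]) (by rw [eN, eN, hc1])
      (by rw [eN]; exact hcN) (s := s) (by rw [eN]; exact h1)
    have a2 := aux_a hw hL hmi (S.pos_pr i) hy u' u (-c) (by rw [eN, add_comm, h0])
      (by rw [eN, eN, hδ', mul_right_comm _ (S.x u'), ← hN, neg_mul, hc1])
      (by rw [eN, mul_right_comm _ (S.x u')]; intro e; rw [hcN e, neg_zero]) (s := s)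
      (by rw [eN, add_comm]; exact h1)
    rw [← mul_assoc _ m, ← mul_assoc _ m]
    refine (sqrt_cs (by linarith) (by linarith) (grad_nonneg hw _ _ (hm.mul_pos (pos_x u)) _)
      (grad_nonneg hw _ _ (hm.mul_pos (pos_x u')) _)).trans (le_of_eq ?_)
    congr 2
    · rw [eK, S.PK_insert hgi, ← add_div, ← neg_add, ← map_add, pr]
      congr 3
      simp only [Algebra.smul_def, map_neg]
      linear_combination (S.PK (K.erase i) * m * algebraMap ℝ A c ^ 2 * S.x u) * S.sq u' +
        (S.PK (K.erase i) * m * algebraMap ℝ A c ^ 2 * S.x u') * S.sq u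
    · rw [eK, grad, grad, grad, sum_trans_insert hgi]
      congr 1 <;> refine sum_congr rfl fun I hI => ?_ <;>
        rw [S.mon_insert (not_mem_of_trans hI hgi _), insert_comm (i, false), insert_comm (i, true)] <;>
        congr 2 <;> ring

end Sys

end Vale.Agent.P317
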