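import Vale.Agent.P317.Ex

/-! Repeated sampling and a Chernoff bound. -/

namespace Vale.Agent.P317

open Finset

variable {α σ : Type}

/-- composition of the transition operators of one sample -/
noncomputable def Fw (Op : ℕ → (ℕ → α) → Module.End ℝ (σ → ℝ)) (g0 : ℕ) (H : ℕ → α) : ℕ → Module.End ℝ (σ → ℝ)
  | 0 => 1
  | w + 1 => Fw Op g0 H w * Op (g0 + w) H

structure Smp (cs B : ℕ) (st : ℕ → (ℕ → α) → List Bool → α) (ab : α → σ) (S0 : σ)
    (Op : ℕ → (ℕ → α) → Module.End ℝ (σ → ℝ)) : Prop where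
  hB : 0 < B
  step : ∀ g H f, Ex cs (fun c => f (ab (st g H c))) = Op g H f (if g % B = 0 then S0 else ab (H (g - 1)))
  dep : ∀ g H H', Agree (g / B * B) H H' → Op g H = Op g H'
  one : ∀ g H, Op g H (fun _ => 1) = fun _ => 1
  unit : ∀ g H f, (∀ x, 0 ≤ f x ∧ f x ≤ 1) → ∀ x, 0 ≤ Op g H f x ∧ Op g H f x ≤ 1

namespace Smp

variable {cs B : ℕ} {st : ℕ → (ℕ → α) → List Bool → α} {ab : α → σ} {S0 : σ}
  {Op : ℕ → (ℕ → α) → Module.End ℝ (σ → ℝ)} (S : Smp cs B st ab S0 Op) (H0 : ℕ → α)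
include S

theorem Fw_one (g0 : ℕ) (H : ℕ → α) (w : ℕ) : Fw Op g0 H w (fun _ => 1) = fun _ => 1 := by
  induction w with
  | zero => rfl
  | succ w ih => rw [Fw, Module.End.mul_apply, S.one, ih]

theorem Fw_unit (g0 : ℕ) (H : ℕ → α) (w : ℕ) (f : σ → ℝ) (hf : ∀ x, 0 ≤ f x ∧ f x ≤ 1) (x : σ) :
    0 ≤ Fw Op g0 H w f x ∧ Fw Op g0 H w f x ≤ 1 := by
  induction w generalizing f with
  | zero => exact hf x
  | succ w ih => rw [Fw, Module.End.mul_apply]; exact ih _ (S.unit _ _ _ hf)

theorem sample (z w : ℕ) (hw : w ≤ B) (Φ : (ℕ → α) → σ → ℝ)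
    (hΦ : ∀ H H', Agree (z * B) H H' → Φ H = Φ H') :
    Et cs H0 st (z * B + w) (fun H => Φ H (if w = 0 then S0 else ab (H (z * B + w - 1)))) =
      Et cs H0 st (z * B) fun H => Fw Op (z * B) H w (Φ H) S0 := by
  induction w generalizing Φ with
  | zero => rfl
  | succ w ih =>
    have e1 : (z * B + w) / B = z := by
      rw [mul_comm, Nat.mul_add_div S.hB, Nat.div_eq_of_lt (by omega), add_zero]
    have e2 : (z * B + w) % B = w := by
      rw [mul_comm, Nat.mul_add_mod, Nat.mod_eq_of_lt (by omega)]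
    rw [← add_assoc, Et_succ]
    have := ih (by omega) (fun H => Op (z * B + w) H (Φ H)) fun H H' h => by
      rw [hΦ H H' h, S.dep _ H H' (by rwa [e1])]
    refine Eq.trans ?_ this
    congr 1
    funext H
    have h2 := S.step (z * B + w) H (Φ H)
    rw [e2] at h2
    rw [← h2]
    congr 1
    funext c
    rw [hΦ _ H (agree_update (by omega) _ _), if_neg (by omega)]
    simp

theorem chernoff (z0 Q : ℕ) (G : (ℕ → α) → Prop) [DecidablePred G] (p : (ℕ → α) → ℝ)
    (hG : ∀ H H', Agree (z0 * B) H H' → (G H ↔ G H') ∧ p H = p H') (hp : ∀ H, 0 ≤ p H ∧ p H ≤ 1)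
    (χ : σ → ℝ) (hχ : ∀ x, χ x = 0 ∨ χ x = 1) {ζ s : ℝ} (hζ0 : 0 ≤ ζ) (hζ : ζ ≤ 1) (hs : s = 1 ∨ s = -1)
    (hb : ∀ q < Q, ∀ H, G H → |Fw Op ((z0 + q) * B) H B χ S0 - p H| ≤ ζ / 2)
    {g : ℕ} (hg : (z0 + Q) * B ≤ g) :
    Et cs H0 st g (fun H => if G H ∧
      Q * ζ < s * (∑ q ∈ range Q, χ (ab (H ((z0 + q) * B + B - 1))) - Q * p H) then 1 else 0) ≤
      Real.exp (-(Q * ζ ^ 2 / 16)) := by
  set θ := s * ζ / 4 with hθ
  set lam := 3 * ζ ^ 2 / 16 with hlam
  have hθ2 : θ ^ 2 = ζ ^ 2 / 16 := by rcases hs with h | h <;> rw [hθ, h] <;> ring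
  have hθa : |θ| = ζ / 4 := by
    rcases hs with h | h <;> rw [hθ, h] <;> simp [abs_div, abs_of_nonneg hζ0]
  let u : (ℕ → α) → σ → ℝ := fun H x => Real.exp (θ * (χ x - p H) - lam)
  let Ψ : ℕ → (ℕ → α) → ℝ := fun q H =>
    (if G H then 1 else 0) * ∏ q' ∈ range q, u H (ab (H ((z0 + q') * B + B - 1)))
  have hB := S.hB
  have hΨ : ∀ q H H', Agree ((z0 + q) * B) H H' → Ψ q H = Ψ q H' := by
    intro q H H' h
    have h1 := hG H H' (h.mono (Nat.mul_le_mul_right _ (by omega)))
    simp only [Ψ, u, h1.1, h1.2]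
    congr 1
    refine prod_congr rfl fun q' hq => ?_
    rw [h]
    have : (z0 + q' + 1) * B ≤ (z0 + q) * B := Nat.mul_le_mul_right _ (by have := mem_range.1 hq; omega)
    rw [Nat.succ_mul] at this
    omega
  have hΨ0 : ∀ q H, 0 ≤ Ψ q H := fun q H =>
    mul_nonneg (by split_ifs <;> norm_num) (prod_nonneg fun _ _ => (Real.exp_pos _).le)
  have main : ∀ q ≤ Q, Et cs H0 st ((z0 + q) * B) (Ψ q) ≤ 1 := by
    intro q hq
    induction q with
    | zero =>
      refine (Et_mono cs H0 st _ (Ψ := fun _ => 1) fun H => ?_).trans (le_of_eq (Ex_const _ _))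
      simp only [Ψ, range_zero, prod_empty, mul_one]
      split_ifs <;> norm_num
    | succ q ih =>
      refine le_trans ?_ (ih (by omega))
      have := S.sample H0 (z0 + q) B le_rfl (fun H x => Ψ q H * u H x) fun H H' h => by
        funext x
        rw [hΨ q H H' h]
        simp only [u, (hG H H' (h.mono (Nat.mul_le_mul_right _ (by omega)))).2]
      rw [← add_assoc, Nat.succ_mul]
      refine le_trans (le_of_eq ?_) (this.le.trans (Et_mono cs H0 st _ fun H => ?_))
      · congr 1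
        funext H
        simp only [Ψ, prod_range_succ, if_neg hB.ne', mul_assoc]
      · by_cases hGH : G H
        swap
        · have : (fun x => Ψ q H * u H x) = 0 := by funext x; simp [Ψ, hGH]
          rw [this, map_zero]; exact hΨ0 q H
        have e : (fun x => Ψ q H * u H x) =
            (Ψ q H * Real.exp (θ * (0 - p H) - lam)) • (fun _ => (1 : ℝ)) +
            (Ψ q H * (Real.exp (θ * (1 - p H) - lam) - Real.exp (θ * (0 - p H) - lam))) • χ := by
          funext x
          simp only [u, Pi.add_apply, Pi.smul_apply, smul_eq_mul]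
          rcases hχ x with h | h <;> rw [h] <;> ring
        rw [e, map_add, map_smul, map_smul, S.Fw_one]
        simp only [Pi.add_apply, Pi.smul_apply, smul_eq_mul, mul_one]
        have h1 := S.Fw_unit ((z0 + q) * B) H B χ (fun x => by rcases hχ x with h | h <;> simp [h]) S0
        have h2 := hb q (by omega) H hGH
        set p' := Fw Op ((z0 + q) * B) H B χ S0
        have h3 := hp H
        have b : ∀ y : ℝ, |y| ≤ 1 → Real.exp (θ * y) ≤ 1 + θ * y + θ ^ 2 := by
          intro y hy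
          have h4 : |θ * y| ≤ 1 := by rw [abs_mul, hθa]; nlinarith [abs_nonneg y]
          have := (abs_le.1 (Real.abs_exp_sub_one_sub_id_le h4)).2
          have h5 : y ^ 2 ≤ 1 := by rw [← sq_abs]; nlinarith [abs_nonneg y]
          nlinarith [sq_nonneg θ]
        have b0 := b (0 - p H) (by rw [abs_le]; constructor <;> linarith)
        have b1 := b (1 - p H) (by rw [abs_le]; constructor <;> linarith)
        have b2 : θ * (p' - p H) ≤ ζ ^ 2 / 8 := by
          refine (le_abs_self _).trans ?_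
          rw [abs_mul, hθa]; nlinarith
        have b3 : (1 - p') * Real.exp (θ * (0 - p H)) + p' * Real.exp (θ * (1 - p H)) ≤ Real.exp lam := by
          have := Real.add_one_le_exp lam
          nlinarith [mul_le_mul_of_nonneg_left b0 (sub_nonneg.2 h1.2), mul_le_mul_of_nonneg_left b1 h1.1]
        rw [mul_assoc (Ψ q H), ← mul_add]
        refine mul_le_of_le_one_right (hΨ0 q H) ?_
        rw [Real.exp_sub, Real.exp_sub, ← sub_div, div_mul_eq_mul_div _ (Real.exp lam), ← add_div,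
          div_le_one (Real.exp_pos _)]
        linarith
  have h1 := main Q le_rfl
  rw [← Et_late cs H0 st (hΨ Q) hg] at h1
  refine (Et_mono cs H0 st g (Ψ := fun H => Real.exp (-(Q * ζ ^ 2 / 16)) * Ψ Q H) fun H => ?_).trans ?_
  · split_ifs with h
    · simp only [Ψ, u, if_pos h.1, one_mul, ← Real.exp_sum, ← Real.exp_add]
      refine Real.one_le_exp ?_
      simp only [sum_sub_distrib, ← mul_sum, sum_const, card_range, nsmul_eq_mul]
      have := mul_le_mul_of_nonneg_left h.2.le hζ0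
      rw [hθ, hlam]
      nlinarith
    · exact mul_nonneg (Real.exp_pos _).le (hΨ0 _ _)
  · rw [Et, Ex_mul]
    exact mul_le_of_le_one_right (Real.exp_pos _).le h1

end Smp

end Vale.Agent.P317
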