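import Vale.Agent.P317.Sem
import Vale.Agent.P317.Prob

/-! The annealing process keeps good weights. -/

namespace Vale.Agent.P317

open Finset

noncomputable def Rp (p : Par) : ℝ := (p.m : ℝ) ^ 2 + 8

noncomputable def Gp (p : Par) : ℝ := 8 + (p.m : ℝ) ^ 2 * Rp p

structure Cond (p : Par) (ζ η η0 θ : ℝ) : Prop where
  T0 : 0 < p.T
  Q0 : 0 < p.Q
  A0 : 0 < p.A
  hκ : 2 * p.m ≤ 2 ^ p.κ
  hcs : 2 * p.κ + 2 + (p.m * (2 * p.A) + (p.L + p.m * (p.m * (p.A + 2 * p.L)))) ≤ p.cs
  hT : (60 * Gp p * Rp p * (p.m + 1) ^ 3) ^ 2 ≤ η ^ 2 * cP p * p.T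
  hA : 2 ^ p.m ≤ η0 * 2 ^ p.A
  e0 : 0 ≤ η
  e1 : η0 ≤ 1
  e2 : η0 + (p.L + 1) * η ≤ ζ / 2
  z0 : 0 ≤ ζ
  z1 : ζ * Gp p ≤ θ
  t1 : θ ≤ 1 / 4

variable {p : Par} (X Y : Fx (Cp p))

noncomputable def st (g : ℕ) (H : ℕ → List Bool) (c : List Bool) : List Bool :=
  move p H (stg p g) (cur p H g) c (orc X Y (cur p H g) c)

noncomputable def Pt (H : ℕ → List Bool) (t : ℕ) : Module.End ℝ (Finset (Fin p.m × Bool) → ℝ) :=
  Pop (cP p) (accp X Y H t)

noncomputable def Op (g : ℕ) (H : ℕ → List Bool) : Module.End ℝ (Finset (Fin p.m × Bool) → ℝ) :=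
  Pt X Y H (stg p g)

noncomputable def Wt (H : ℕ → List Bool) (t : ℕ) : Finset (Fin p.m × Bool) → ℝ :=
  Wk X Y (kf p t) (hf p H t)

theorem toSt_init : toSt p (init p) = mkS (Cp p) (Cp p) := by
  ext ⟨g, b⟩
  have := g.2
  rw [mem_toSt, init, bit_mapR _ (by cases b <;> simp only [b2n, cond_true, cond_false] <;> omega)]
  cases b
  · simp [b2n, mem_Cp]
  · have e1 : (2 * g.val + 1) % 2 = 1 := by omega
    have e2 : (2 * g.val + 1) / 2 = g.val := by omega
    simp only [b2n, cond_true, e1, e2, mem_mkS_true, mem_Cp]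
    rw [← Nat.ble_eq]
    cases Nat.ble p.n g <;> simp [Nat.beq]

theorem toSt_cur (H : ℕ → List Bool) (g : ℕ) :
    toSt p (cur p H g) = if g % p.B = 0 then mkS (Cp p) (Cp p) else toSt p (H (g - 1)) := by
  rw [cur, cond_ite (P := g % p.B = 0) (by simp), apply_ite (toSt p), toSt_init]

theorem b2n_le (b : Bool) : b2n b ≤ 1 := by cases b <;> simp [b2n]

theorem ex_le (H : ℕ → List Bool) {t : ℕ} (ht : t ≤ p.L) (I : Finset (Fin p.m × Bool)) :
    ex p H t I ≤ p.m * (2 * p.A) + (p.L + p.m * (p.m * (p.A + 2 * p.L))) := by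
  refine add_le_add ?_ (add_le_add (by split_ifs <;> omega) ?_)
  · refine (sum_le_card_nsmul _ _ (2 * p.A) fun g _ => ?_).trans ?_
    · simp only [kf, fld]
      cases Nat.ble p.n g <;> simp only [cond_true, cond_false] <;> omega
    · rw [smul_eq_mul]
      exact Nat.mul_le_mul_right _ (by simpa using card_le_univ (sl false I))
  · refine (sum_le_card_nsmul _ _ _ fun i _ => sum_le_card_nsmul _ _ (p.A + 2 * p.L) fun j _ => ?_).trans
      (by simp)
    split_ifs
    · have h1 : sumR t (fun s => b2n (!Nat.ble (cntT p H s) (cntN p H s i j))) ≤ t := by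
        simpa [sumR] using sum_le_card_nsmul (range t) _ 1 fun s _ => b2n_le _
      have h2 : cond (Nat.ble p.n i && !Nat.ble p.n j) 0 p.A ≤ p.A := by
        cases (Nat.ble p.n i && !Nat.ble p.n j) <;> simp
      unfold aexp; omega
    · omega

theorem smp_dep (hB : 0 < p.B) {H H' : ℕ → List Bool} {t s q : ℕ} (h : Agree (t * p.Q * p.B) H H')
    (hs : s < t) (hq : q < p.Q) : smp p H s q = smp p H' s q := by
  refine h _ ?_
  have h1 : (s + 1) * p.Q ≤ t * p.Q := Nat.mul_le_mul_right _ hs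
  have h2 : (s * p.Q + q + 1) * p.B ≤ t * p.Q * p.B := Nat.mul_le_mul_right _ (by rw [Nat.succ_mul] at h1; omega)
  rw [Nat.succ_mul] at h2
  omega

theorem cnt_dep (hB : 0 < p.B) {H H' : ℕ → List Bool} {t s : ℕ} (h : Agree (t * p.Q * p.B) H H')
    (hs : s < t) : cntT p H s = cntT p H' s ∧ cntA p H s = cntA p H' s ∧ cntN p H s = cntN p H' s := by
  refine ⟨?_, ?_, ?_⟩
  · unfold cntT sumR
    exact sum_congr rfl fun q hq => by simp only [smp_dep hB h hs (mem_range.1 hq)]
  · unfold cntA sumR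
    exact sum_congr rfl fun q hq => by simp only [smp_dep hB h hs (mem_range.1 hq)]
  · funext i j
    unfold cntN sumR
    exact sum_congr rfl fun q hq => by simp only [smp_dep hB h hs (mem_range.1 hq)]

theorem aexp_dep (hB : 0 < p.B) {H H' : ℕ → List Bool} {t : ℕ} (h : Agree (t * p.Q * p.B) H H') :
    aexp p H t = aexp p H' t := by
  funext i j
  unfold aexp
  congr 2
  refine sum_congr rfl fun s hs => ?_
  obtain ⟨h1, -, h2⟩ := cnt_dep hB h (mem_range.1 hs)
  simp only [h1, h2]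

variable {X Y} {ζ η η0 θ : ℝ}

theorem Cond.B0 (C : Cond p ζ η η0 θ) : 0 < p.B := Nat.mul_pos (by omega) C.T0

theorem Cond.stg_le (C : Cond p ζ η η0 θ) (g : ℕ) : stg p g ≤ p.L := by
  have : g % p.B / p.T < p.L + 1 := (Nat.div_lt_iff_lt_mul C.T0).2 (Nat.mod_lt _ C.B0)
  unfold stg; omega

theorem Cond.smp (C : Cond p ζ η η0 θ) :
    Smp p.cs p.B (st X Y) (toSt p) (mkS (Cp p) (Cp p)) (Op X Y) := by
  refine ⟨C.B0, fun g H f => ?_, fun g H H' h => ?_, fun g H => ?_, fun g H f hf => ?_⟩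
  · rw [← toSt_cur]
    exact Ex_move X Y C.hκ H _ _ (le_trans (Nat.add_le_add_left (ex_le H (C.stg_le g) _) _) C.hcs) f
  · have h1 : stg p g * p.Q ≤ g / p.B :=
      (Nat.mul_le_mul_right _ (min_le_right _ _)).trans (Nat.div_mul_le_self _ _)
    have := aexp_dep C.B0 (h.mono (Nat.mul_le_mul_right _ h1))
    have e : accp X Y H (stg p g) = accp X Y H' (stg p g) := by
      funext I J; simp only [accp, ex, this]
    simp only [Op, Pt, e]
  · simpa [Op, Pt] using Metro.one (c := cP p) (acc := accp X Y H (stg p g)) 1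
  · simpa [Op, Pt] using (metro X Y C.hκ H (stg p g)).unit hf 1

abbrev Idx (p : Par) : Type := Option (Option (Fin p.m × Fin p.m))

def evA (p : Par) (t : ℕ) (I : Finset (Fin p.m × Bool)) : Prop :=
  if p.L ≤ t then Disjoint (sl false I) (Cp p) else ∃ g : Fin p.m, g.val = t / (2 * p.A) ∧ (g, false) ∈ I

open Classical in
noncomputable def chi (p : Par) (t : ℕ) : Idx p → Finset (Fin p.m × Bool) → ℝ
  | none, I => if I ∈ trans univ then 1 else 0
  | some none, I => if I ∈ trans univ ∧ evA p t I then 1 else 0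
  | some (some x), I => if I ∈ Nset x.1 x.2 then 1 else 0

def cnt (p : Par) (H : ℕ → List Bool) (t : ℕ) : Idx p → ℕ
  | none => cntT p H t
  | some none => cntA p H t
  | some (some x) => cntN p H t x.1 x.2

theorem chi01 (t : ℕ) (x : Idx p) (I : Finset (Fin p.m × Bool)) : chi p t x I = 0 ∨ chi p t x I = 1 := by
  rcases x with _ | _ | x <;> simp only [chi] <;> split_ifs <;> simp

theorem chi_unit (t : ℕ) (x : Idx p) (I : Finset (Fin p.m × Bool)) :
    0 ≤ chi p t x I ∧ chi p t x I ≤ 1 := by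
  rcases chi01 t x I with h | h <;> simp [h]

theorem e_lt (hA : 0 < p.A) {t : ℕ} (ht : t < p.L) : t / (2 * p.A) < p.n :=
  (Nat.div_lt_iff_lt_mul (by omega)).2 (by rw [mul_comm]; exact ht)

theorem isA_iff (hA : 0 < p.A) {t : ℕ} {l : List Bool} :
    isA p t l = true ↔ toSt p l ∈ trans univ ∧ evA p t (toSt p l) := by
  rw [isA, Bool.and_eq_true, isT_iff, cond_ite (P := p.L ≤ t) (by simp), evA]
  refine and_congr_right fun _ => ?_
  split_ifs with h
  · rw [allR_iff, disjoint_right]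
    simp only [mem_Cp, mem_sl, mem_toSt0, Bool.not_eq_true', Bool.not_eq_true]
    constructor
    · intro h g hg
      have := h (g - p.n) (by have := g.2; unfold Par.m at this; omega)
      rwa [Nat.add_sub_cancel' hg] at this
    · intro h c hc
      exact @h ⟨p.n + c, by unfold Par.m; omega⟩ (by simp)
  · have := e_lt hA (not_le.1 h)
    constructor
    · intro h
      exact ⟨⟨_, by unfold Par.m; omega⟩, rfl, mem_toSt0.2 h⟩
    · rintro ⟨g, h1, h2⟩
      rw [← h1]; exact mem_toSt0.1 h2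

theorem cast_b2n {b : Bool} {P : Prop} [Decidable P] (h : b = true ↔ P) :
    (b2n b : ℝ) = if P then 1 else 0 := by
  rw [b2n, cond_ite h]; split_ifs <;> simp

theorem cnt_eq (hA : 0 < p.A) (H : ℕ → List Bool) (t : ℕ) (x : Idx p) :
    (cnt p H t x : ℝ) = ∑ q ∈ range p.Q, chi p t x (toSt p (smp p H t q)) := by
  classical
  rcases x with _ | _ | x
  · simp only [cnt, cntT, sumR, chi, Nat.cast_sum, cast_b2n isT_iff]
  · simp only [cnt, cntA, sumR, chi, Nat.cast_sum, cast_b2n (isA_iff hA)]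
  · simp only [cnt, cntN, sumR, chi, Nat.cast_sum, cast_b2n isN_iff]

variable (X Y) in
noncomputable def pr (H : ℕ → List Bool) (t : ℕ) (x : Idx p) : ℝ := Ep (Wt X Y H t) (chi p t x)

variable (X Y) in
def Dev (ζ : ℝ) (H : ℕ → List Bool) (t : ℕ) : Prop :=
  ∀ x, |(cnt p H t x : ℝ) - p.Q * pr X Y H t x| ≤ p.Q * ζ

variable (X Y) in
def Gd (ζ : ℝ) (H : ℕ → List Bool) (t : ℕ) : Prop := ∀ s < t, Dev X Y ζ H s

theorem pr_T (H : ℕ → List Bool) (t : ℕ) :
    pr X Y H t none = Zk X Y (kf p t) / ∑ I, Wt X Y H t I := by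
  rw [pr, Ep, Wt, sum_Wk, sum_eq_zero (s := univ), add_zero]
  · congr 1
    exact sum_congr rfl fun I hI => by simp [chi, hI]
  · refine fun i _ => sum_eq_zero fun j _ => ?_
    rw [sum_eq_zero, mul_zero]
    intro I hI; simp [chi, not_T_of_N hI]

open Classical in
theorem pr_A (H : ℕ → List Bool) (t : ℕ) : pr X Y H t (some none) =
    (∑ I ∈ trans univ, wt X Y (kf p t) I * if evA p t I then 1 else 0) / ∑ I, Wt X Y H t I := by
  rw [pr, Ep, Wt, sum_Wk, sum_eq_zero (s := univ), add_zero]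
  · congr 1
    exact sum_congr rfl fun I hI => by simp [chi, hI]
  · refine fun i _ => sum_eq_zero fun j _ => ?_
    rw [sum_eq_zero, mul_zero]
    intro I hI; simp [chi, not_T_of_N hI]

theorem pr_N (H : ℕ → List Bool) (t : ℕ) (i j : Fin p.m) : pr X Y H t (some (some (i, j))) =
    hf p H t i j * Nk X Y (kf p t) i j / ∑ I, Wt X Y H t I := by
  rw [pr, Ep]
  congr 1
  simp only [chi, mul_ite, mul_one, mul_zero, ← sum_filter, filter_mem_eq_inter, univ_inter, Nk, mul_sum]
  exact sum_congr rfl fun I hI => by rw [Wt, Wk, tau_N _ hI, mul_comm]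

theorem kf_zero : kf p 0 = k0 (Cp p) p.A := by
  funext g
  simp only [kf, fld, k0, mem_Cp, cond_ite (P := p.n ≤ g.val) (b := Nat.ble p.n g) (by simp)]
  simp

theorem kf_L : kf p p.L = kL (Cp p) p.A := by
  funext g
  simp only [kf, fld, kL, mem_Cp, cond_ite (P := p.n ≤ g.val) (b := Nat.ble p.n g) (by simp)]
  split_ifs with h
  · rfl
  · have : 2 * p.A * (g.val + 1) ≤ 2 * p.A * p.n := Nat.mul_le_mul_left _ (by omega)
    rw [mul_add, mul_one] at this
    unfold Par.L; omega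

theorem hf_zero (H : ℕ → List Bool) : hf p H 0 = h0 (Cp p) p.A := by
  funext i j
  simp only [hf, aexp, h0, mem_Cp, cond_ite (P := p.n ≤ i.val ∧ ¬ p.n ≤ j.val)
    (b := Nat.ble p.n i && !Nat.ble p.n j) (by simp [← Bool.not_eq_true]), sumR]
  split_ifs <;> simp [pow_add]

def eF (hA : 0 < p.A) {t : ℕ} (ht : t < p.L) : Fin p.m :=
  ⟨t / (2 * p.A), by have := e_lt hA ht; unfold Par.m; omega⟩

theorem kf_succ (hA : 0 < p.A) {t : ℕ} (ht : t < p.L) : kf p (t + 1) = bump (kf p t) (eF hA ht) := by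
  funext g
  have h1 := e_lt hA ht
  simp only [kf, fld, bump, eF, Fin.ext_iff, cond_ite (P := p.n ≤ g.val) (b := Nat.ble p.n g) (by simp)]
  have h2 : g.val = t / (2 * p.A) ↔ 2 * p.A * g.val ≤ t ∧ t < 2 * p.A * g.val + 2 * p.A := by
    rw [eq_comm, Nat.div_eq_iff (by omega), mul_comm]; omega
  split_ifs with h3 h4 h4
  · omega
  · rfl
  · rw [h2] at h4; omega
  · rw [h2] at h4; omega

theorem hf_succ (H : ℕ → List Bool) {t : ℕ} (ht : t < p.L) (i j : Fin p.m) :
    hf p H (t + 1) i j = if cntT p H t ≤ cntN p H t i j then hf p H t i j / 2 else 2 * hf p H t i j := by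
  have e : aexp p H (t + 1) i j + 1 = aexp p H t i j +
      2 * b2n (!Nat.ble (cntT p H t) (cntN p H t i j)) := by
    simp only [aexp, sumR, sum_range_succ]; omega
  simp only [hf]
  split_ifs with h
  · rw [Nat.ble_eq_true_of_le h] at e
    simp only [b2n, Bool.not_true, cond_false, mul_zero, add_zero] at e
    rw [← e, pow_succ]; ring
  · rw [Bool.eq_false_iff.2 fun h' => h (Nat.le_of_ble_eq_true h')] at e
    simp only [b2n, Bool.not_false, cond_true] at e
    rw [show aexp p H (t + 1) i j = aexp p H t i j + 1 by omega, pow_succ]; ring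

theorem GoodK.prT {H : ℕ → List Bool} {t : ℕ} (C : Cond p ζ η η0 θ)
    (G : GoodK X Y (kf p t) (hf p H t) (Rp p)) : ζ ≤ θ * pr X Y H t none := by
  rw [pr_T]
  have h1 := G.tot
  have hZ := G.hZ
  rw [Fintype.card_fin] at h1
  have hp : 0 < ∑ I, Wt X Y H t I := hZ.trans_le h1.1
  rw [← mul_div_assoc, le_div_iff₀ hp]
  refine (mul_le_mul_of_nonneg_left h1.2 C.z0).trans ?_
  have h2 := C.z1
  unfold Gp at h2
  nlinarith [C.z0]

theorem Cond.good (C : Cond p ζ η η0 θ) {H : ℕ → List Bool} {t : ℕ} (ht : t ≤ p.L)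
    (h : Gd X Y ζ H t) : GoodK X Y (kf p t) (hf p H t) (Rp p) := by
  induction t with
  | zero =>
    rw [kf_zero, hf_zero]
    exact init_good p.A (by simpa using C.hA) C.e1 (by simp [Rp])
  | succ t ih =>
    have G := ih (by omega) fun s hs => h s (by omega)
    rw [kf_succ C.A0 ht]
    refine G.step _ fun i j => ?_
    have d1 := abs_le.1 (h t (by omega) none)
    have d2 := abs_le.1 (h t (by omega) (some (some (i, j))))
    have h1 := G.prT C
    have hp : 0 < ∑ I, Wt X Y H t I := G.hZ.trans_le G.tot.1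
    have hQ : (0 : ℝ) < p.Q := by exact_mod_cast C.Q0
    have h2 := C.t1
    have h3 : 0 ≤ pr X Y H t none := by rw [pr_T]; exact div_nonneg G.hZ.le hp.le
    have h4 : 4 * ζ ≤ pr X Y H t none := by nlinarith
    simp only [cnt] at d1 d2
    rw [hf_succ H ht]
    split_ifs with hc
    · refine Or.inl ⟨rfl, ?_⟩
      have hc' : (cntT p H t : ℝ) ≤ cntN p H t i j := by exact_mod_cast hc
      have : pr X Y H t none ≤ 2 * pr X Y H t (some (some (i, j))) :=
        le_of_mul_le_mul_left (by nlinarith) hQ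
      rwa [pr_T, pr_N, ← mul_div_assoc, div_le_div_iff_of_pos_right hp] at this
    · refine Or.inr ⟨rfl, ?_⟩
      have hc' : (cntN p H t i j : ℝ) ≤ cntT p H t := by exact_mod_cast (not_le.1 hc).le
      have : pr X Y H t (some (some (i, j))) ≤ 2 * pr X Y H t none :=
        le_of_mul_le_mul_left (by nlinarith) hQ
      rwa [pr_T, pr_N, ← mul_div_assoc, div_le_div_iff_of_pos_right hp] at this

theorem Cond.Fw_block (C : Cond p ζ η η0 θ) (H : ℕ → List Bool) {t q s : ℕ} (hq : q < p.Q)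
    (hs : s ≤ p.L) (u : ℕ) (hu : u ≤ p.T) :
    Fw (Op X Y) ((t * p.Q + q) * p.B) H (s * p.T + u) =
      Fw (Op X Y) ((t * p.Q + q) * p.B) H (s * p.T) * Pt X Y H (min s t) ^ u := by
  induction u with
  | zero => simp
  | succ u ih =>
    rw [← add_assoc, Fw, ih (by omega), pow_succ, mul_assoc]
    congr 2
    have h1 : s * p.T + u < p.B := by
      have : (s + 1) * p.T ≤ (p.L + 1) * p.T := Nat.mul_le_mul_right _ (by omega)
      rw [Nat.succ_mul] at this
      unfold Par.B; omega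
    have e1 : ((t * p.Q + q) * p.B + (s * p.T + u)) / p.B = t * p.Q + q := by
      rw [mul_comm, Nat.mul_add_div C.B0, Nat.div_eq_of_lt h1, add_zero]
    have e2 : ((t * p.Q + q) * p.B + (s * p.T + u)) % p.B = s * p.T + u := by
      rw [mul_comm, Nat.mul_add_mod, Nat.mod_eq_of_lt h1]
    have e3 : (s * p.T + u) / p.T = s := by
      rw [mul_comm, Nat.mul_add_div C.T0, Nat.div_eq_of_lt (by omega), add_zero]
    have e4 : (t * p.Q + q) / p.Q = t := by
      rw [mul_comm, Nat.mul_add_div C.Q0, Nat.div_eq_of_lt hq, add_zero]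
    rw [Op, stg, e1, e2, e3, e4]

theorem Cond.bias (C : Cond p ζ η η0 θ) {H : ℕ → List Bool} {t q : ℕ} (ht : t ≤ p.L) (hq : q < p.Q)
    (h : Gd X Y ζ H t) {f : Finset (Fin p.m × Bool) → ℝ} (hf : ∀ I, 0 ≤ f I ∧ f I ≤ 1) :
    |Fw (Op X Y) ((t * p.Q + q) * p.B) H p.B f (mkS (Cp p) (Cp p)) - Ep (Wt X Y H t) f| ≤ ζ / 2 := by
  have hG : ∀ s ≤ t, GoodK X Y (kf p s) (P317.hf p H s) (Rp p) := fun s hs =>
    C.good (by omega) fun s' hs' => h s' (by omega)
  have hT : (60 * Gp p * Rp p * ((Fintype.card (Fin p.m) : ℝ) + 1) ^ 3) ^ 2 ≤ η ^ 2 * cP p * p.T := by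
    simpa using C.hT
  have hΓ : 8 ≤ Gp p := by unfold Gp Rp; nlinarith [sq_nonneg (p.m : ℝ)]
  have main : ∀ s ≤ p.L, ∀ f : Finset (Fin p.m × Bool) → ℝ, (∀ I, 0 ≤ f I ∧ f I ≤ 1) →
      |Fw (Op X Y) ((t * p.Q + q) * p.B) H ((s + 1) * p.T) f (mkS (Cp p) (Cp p)) -
        Ep (Wt X Y H (min s t)) f| ≤ η0 + (s + 1) * η := by
    intro s hs
    induction s with
    | zero =>
      intro f hf
      have := C.Fw_block (X := X) (Y := Y) H (t := t) hq hs p.T le_rfl
      rw [Nat.succ_mul, this]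
      simp only [zero_mul, Fw, one_mul, Nat.zero_min, Nat.cast_zero, zero_add]
      refine (hG 0 (by omega)).init_warm (metro X Y C.hκ H 0) (by simp [Gp]) (mkS_T _) ?_ C.e0 C.T0 hT hf
      rw [kf_zero, wt_S0]
      exact (Z0_bounds p.A (by simpa using C.hA)).2
    | succ s ih =>
      intro f hf
      have := C.Fw_block (X := X) (Y := Y) H (t := t) hq hs p.T le_rfl
      rw [Nat.succ_mul, this, Module.End.mul_apply]
      have h1 := ih (by omega) _ ((metro X Y C.hκ H (min (s + 1) t)).unit hf p.T)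
      refine (abs_sub_le _ _ _).trans ((add_le_add h1 (d := η) ?_).trans (by push_cast; linarith))
      by_cases hst : s < t
      · rw [min_eq_left hst.le, min_eq_left hst]
        have G := hG (s + 1) hst
        have M := metro X Y C.hκ H (s + 1)
        simp only [Wt]
        rw [kf_succ C.A0 (show s < p.L by omega)] at G M ⊢
        refine (hG s hst.le).step_warm G (fun i j => ?_) M hΓ C.e0 C.T0 hT hf
        rw [hf_succ H (by omega)]
        split_ifs <;> simp
      · rw [min_eq_right (not_lt.1 hst), min_eq_right (by omega)]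
        exact (hG t le_rfl).same_warm (metro X Y C.hκ H t) hΓ C.e0 C.T0 hT hf
  have := main p.L le_rfl f hf
  rw [min_eq_right ht] at this
  exact this.trans C.e2

end Vale.Agent.P317
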