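import Vale.Agent.P317.Main1

/-! Failure probability and accuracy. -/

namespace Vale.Agent.P317

open Finset

variable {p : Par} {X Y : Fx (Cp p)} {ζ η η0 θ : ℝ}

theorem pr_dep (hB : 0 < p.B) {H H' : ℕ → List Bool} {t : ℕ} (h : Agree (t * p.Q * p.B) H H') :
    pr X Y H t = pr X Y H' t := by
  have : hf p H t = hf p H' t := by
    funext i j; simp only [hf, aexp_dep hB h]
  funext x; simp only [pr, Wt, this]

theorem Gd_dep (hB : 0 < p.B) {H H' : ℕ → List Bool} {t : ℕ} (h : Agree (t * p.Q * p.B) H H') :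
    Gd X Y ζ H t ↔ Gd X Y ζ H' t := by
  refine forall_congr' fun s => forall_congr' fun hs => ?_
  obtain ⟨h1, h2, h3⟩ := cnt_dep hB h hs
  have h4 := pr_dep (X := X) (Y := Y) hB (t := s)
    (h.mono (Nat.mul_le_mul_right _ (Nat.mul_le_mul_right _ hs.le)))
  have : cnt p H s = cnt p H' s := by
    funext x; rcases x with _ | _ | x <;> simp only [cnt, h1, h2, h3]
  simp only [Dev, this, h4]

theorem pr_unit (H : ℕ → List Bool) (t : ℕ) (x : Idx p) : 0 ≤ pr X Y H t x ∧ pr X Y H t x ≤ 1 := by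
  have hW : ∀ I, 0 ≤ Wt X Y H t I := fun I => Wk_nonneg (fun i j => by unfold hf; positivity) I
  have h0 : 0 ≤ ∑ I, Wt X Y H t I := sum_nonneg fun I _ => hW I
  refine ⟨div_nonneg (sum_nonneg fun I _ => mul_nonneg (hW I) (chi_unit t x I).1) h0, ?_⟩
  exact div_le_one_of_le₀ (sum_le_sum fun I _ => mul_le_of_le_one_right (hW I) (chi_unit t x I).2) h0

open Classical in
theorem Cond.fail (C : Cond p ζ η η0 θ) (H0 : ℕ → List Bool) {g : ℕ} (hg : tot p ≤ g) :
    Et p.cs H0 (st X Y) g (fun H => if Gd X Y ζ H (p.L + 1) then 0 else 1) ≤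
      (p.L + 1) * ((p.m ^ 2 + 2) * 2) * Real.exp (-(p.Q * ζ ^ 2 / 16)) := by
  let F : ℕ → Idx p → ℝ → (ℕ → List Bool) → ℝ := fun t x s H =>
    if Gd X Y ζ H t ∧ p.Q * ζ < s * (∑ q ∈ range p.Q,
      chi p t x (toSt p (H ((t * p.Q + q) * p.B + p.B - 1))) - p.Q * pr X Y H t x) then 1 else 0
  have hF0 : ∀ t x s H, 0 ≤ F t x s H := fun t x s H => by
    simp only [F]; split_ifs <;> norm_num
  have hζ : ζ ≤ 1 := by
    have h1 := C.z1
    have h2 := C.t1
    have h3 := C.z0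
    have hΓ : 8 ≤ Gp p := by unfold Gp Rp; nlinarith [sq_nonneg (p.m : ℝ)]
    nlinarith
  have h1 : ∀ t ∈ range (p.L + 1), ∀ x, ∀ s, s = 1 ∨ s = -1 →
      Et p.cs H0 (st X Y) g (F t x s) ≤ Real.exp (-(p.Q * ζ ^ 2 / 16)) := by
    intro t ht x s hs
    have ht' := mem_range.1 ht
    refine (C.smp (X := X) (Y := Y)).chernoff H0 (t * p.Q) p.Q (fun H => Gd X Y ζ H t)
      (fun H => pr X Y H t x) (fun H H' h => ⟨Gd_dep C.B0 h, by rw [pr_dep C.B0 h]⟩)
      (fun H => pr_unit H t x) (chi p t x) (chi01 t x) C.z0 hζ hs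
      (fun q hq H hG => C.bias (by omega) hq hG (chi_unit t x)) (le_trans ?_ hg)
    rw [← Nat.succ_mul]
    exact Nat.mul_le_mul_right _ (Nat.mul_le_mul_right _ ht')
  refine (Et_mono _ _ _ _ (Ψ := fun H => ∑ t ∈ range (p.L + 1), ∑ x, (F t x 1 H + F t x (-1) H))
    fun H => ?_).trans ?_
  · split_ifs with h
    · exact sum_nonneg fun _ _ => sum_nonneg fun _ _ => add_nonneg (hF0 _ _ _ _) (hF0 _ _ _ _)
    have hex : ∃ t, t < p.L + 1 ∧ ¬ Dev X Y ζ H t := by
      by_contra hc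
      push Not at hc
      exact h hc
    obtain ⟨h2, h3⟩ := Nat.find_spec hex
    have h4 : Gd X Y ζ H (Nat.find hex) := fun s hs => by
      by_contra hc
      exact Nat.find_min hex hs ⟨by omega, hc⟩
    set t := Nat.find hex
    simp only [Dev, not_forall, not_le, cnt_eq C.A0, P317.smp] at h3
    obtain ⟨x, hx⟩ := h3
    refine le_trans ?_ (single_le_sum (f := fun t => ∑ x, (F t x 1 H + F t x (-1) H))
      (fun _ _ => sum_nonneg fun _ _ => add_nonneg (hF0 _ _ _ _) (hF0 _ _ _ _)) (mem_range.2 h2))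
    refine le_trans ?_ (single_le_sum (f := fun x => F t x 1 H + F t x (-1) H)
      (fun _ _ => add_nonneg (hF0 _ _ _ _) (hF0 _ _ _ _)) (mem_univ x))
    rcases lt_abs.1 hx with h5 | h5
    · have : F t x 1 H = 1 := if_pos ⟨h4, by rwa [one_mul]⟩
      linarith [hF0 t x (-1) H]
    · have : F t x (-1) H = 1 := if_pos ⟨h4, by rwa [neg_one_mul]⟩
      linarith [hF0 t x 1 H]
  · rw [Et, Ex_sum]
    refine (sum_le_card_nsmul _ _ (((p.m ^ 2 + 2) * 2) * Real.exp (-(p.Q * ζ ^ 2 / 16))) fun t ht => ?_).trans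
      (le_of_eq (by simp; ring))
    rw [Ex_sum]
    refine (sum_le_card_nsmul _ _ (2 * Real.exp (-(p.Q * ζ ^ 2 / 16))) fun x _ => ?_).trans
      (le_of_eq (by simp; ring))
    rw [Ex_add, two_mul]
    exact add_le_add (h1 t ht x 1 (Or.inl rfl)) (h1 t ht x (-1) (Or.inr rfl))

theorem val_proc (H0 : ℕ → List Bool) (ρ : List Bool) (g : ℕ) :
    ∀ i < g, Val X Y (toSt p (proc p.cs H0 (st X Y) ρ g i)) := by
  induction g with
  | zero => simp
  | succ g ih =>
    intro i hi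
    rw [proc]
    by_cases h : i = g
    swap
    · rw [Function.update_of_ne h]; exact ih i (by omega)
    subst h
    have hc : Val X Y (toSt p (cur p (proc p.cs H0 (st X Y) ρ i) i)) := by
      rw [toSt_cur]
      split_ifs with h
      · exact ⟨by simpa using X.all (Subset.refl _), by simp, by simpa using Y.all (Subset.refl _), by simp⟩
      · refine ih _ ?_
        rcases Nat.eq_zero_or_pos i with rfl | h0
        · simp at h
        · omega
    rw [Function.update_self, st, toSt_move, mv]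
    split_ifs with h1 h2
    · exact h2.2.1.1
    · exact hc
    · exact hc

theorem ratio_bound {x y a b θ : ℝ} (ha : 0 < a) (hb : 0 ≤ b) (h0 : 0 ≤ θ) (h1 : θ ≤ 1 / 4)
    (hx : |x - a| ≤ θ * a) (hy : |y - b| ≤ 2 * θ * b) :
    0 < x ∧ (1 - 3 * θ) * (b / a) ≤ y / x ∧ y / x ≤ (1 + 4 * θ) * (b / a) := by
  rw [abs_le] at hx hy
  have hx0 : 0 < x := by nlinarith
  refine ⟨hx0, ?_, ?_⟩
  · rw [← mul_div_assoc, div_le_div_iff₀ ha hx0]
    have e1 : (1 - 3 * θ) * b * x ≤ (1 - 3 * θ) * b * ((1 + θ) * a) :=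
      mul_le_mul_of_nonneg_left (by linarith) (mul_nonneg (by linarith) hb)
    have e2 : (1 - 2 * θ) * b * a ≤ y * a := mul_le_mul_of_nonneg_right (by linarith) ha.le
    nlinarith [mul_nonneg (mul_nonneg hb ha.le) (sq_nonneg θ)]
  · rw [← mul_div_assoc, div_le_div_iff₀ hx0 ha]
    have e1 : (1 + 4 * θ) * b * ((1 - θ) * a) ≤ (1 + 4 * θ) * b * x :=
      mul_le_mul_of_nonneg_left (by linarith) (mul_nonneg (by linarith) hb)
    have e2 : y * a ≤ (1 + 2 * θ) * b * a := mul_le_mul_of_nonneg_right (by linarith) ha.le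
    nlinarith [mul_nonneg (mul_nonneg hb ha.le) (mul_nonneg h0 (sub_nonneg.2 h1))]

theorem Cond.t0 (C : Cond p ζ η η0 θ) : 0 ≤ θ := by
  have hΓ : 8 ≤ Gp p := by unfold Gp Rp; nlinarith [sq_nonneg (p.m : ℝ)]
  nlinarith [C.z0, C.z1]

open Classical in
/-- the true ratio at stage `t` -/
noncomputable def num (X Y : Fx (Cp p)) (t : ℕ) : ℝ :=
  (if p.L ≤ t then 0 else Zk X Y (kf p t)) +
    ∑ I ∈ trans univ, wt X Y (kf p t) I * if evA p t I then 1 else 0

open Classical in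
theorem num_lt (hA : 0 < p.A) {t : ℕ} (ht : t < p.L) : num X Y t = Zk X Y (kf p (t + 1)) := by
  rw [num, if_neg (not_le.2 ht), kf_succ hA ht, Zk_bump]
  congr 1
  refine sum_congr rfl fun I _ => ?_
  congr 1
  refine if_congr ?_ rfl rfl
  rw [evA, if_neg (not_le.2 ht)]
  exact ⟨fun ⟨g, h1, h2⟩ => (show g = eF hA ht from Fin.ext h1) ▸ h2, fun h => ⟨_, rfl, h⟩⟩

open Classical in
theorem num_L : num X Y p.L = (pureB X Y).card * 2 ^ (2 * p.A * p.r) := by
  rw [num, if_pos le_rfl, zero_add, ← card_Cp, ← ZL_pure, kf_L]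
  refine sum_congr rfl fun I _ => ?_
  congr 1
  refine if_congr ?_ rfl rfl
  rw [evA, if_pos le_rfl]

theorem Cond.ratio (C : Cond p ζ η η0 θ) {H : ℕ → List Bool} (hG : Gd X Y ζ H (p.L + 1)) {t : ℕ}
    (ht : t ≤ p.L) : 0 < (cntT p H t : ℝ) ∧ (Zk X Y (kf p t) ≤ 2 * num X Y t →
      (1 - 3 * θ) * (num X Y t / Zk X Y (kf p t)) ≤ numf p H t / cntT p H t ∧
      (numf p H t : ℝ) / cntT p H t ≤ (1 + 4 * θ) * (num X Y t / Zk X Y (kf p t))) := by
  have G := C.good (X := X) (Y := Y) ht fun s hs => hG s (by omega)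
  have hp : 0 < ∑ I, Wt X Y H t I := G.hZ.trans_le G.tot.1
  have hQ : (0 : ℝ) < p.Q := by exact_mod_cast C.Q0
  have d1 := hG t (by omega) none
  have d2 := hG t (by omega) (some none)
  have h1 := G.prT C
  have hZ := G.hZ
  have ha : 0 < p.Q * pr X Y H t none := by rw [pr_T]; positivity
  have hx : |(cntT p H t : ℝ) - p.Q * pr X Y H t none| ≤ θ * (p.Q * pr X Y H t none) :=
    d1.trans (by nlinarith)
  refine ⟨(ratio_bound (y := 0) (b := 0) ha le_rfl C.t0 C.t1 hx (by simp)).1, fun h2 => ?_⟩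
  have e : p.Q * (num X Y t / ∑ I, Wt X Y H t I) / (p.Q * pr X Y H t none) =
      num X Y t / Zk X Y (kf p t) := by rw [pr_T]; field_simp
  have h3 : pr X Y H t none ≤ 2 * (num X Y t / ∑ I, Wt X Y H t I) := by
    rw [pr_T, ← mul_div_assoc]; gcongr
  have := (ratio_bound (y := numf p H t) (b := p.Q * (num X Y t / ∑ I, Wt X Y H t I)) ha
    (by have := (pr_unit (X := X) (Y := Y) H t none).1; nlinarith) C.t0 C.t1 hx ?_).2
  · rwa [e] at this
  have h4 := C.t0
  have h5 : ζ ≤ 2 * θ * (num X Y t / ∑ I, Wt X Y H t I) := by nlinarith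
  simp only [cnt] at d1 d2
  rw [numf, cond_ite (P := p.L ≤ t) (by simp)]
  by_cases hL : p.L ≤ t
  · have e2 : num X Y t / ∑ I, Wt X Y H t I = pr X Y H t (some none) := by
      rw [pr_A, num, if_pos hL, zero_add]
    rw [if_pos hL, zero_add]
    rw [e2] at h5 ⊢
    exact d2.trans (by nlinarith)
  · have e2 : num X Y t / ∑ I, Wt X Y H t I = pr X Y H t none + pr X Y H t (some none) := by
      rw [pr_A, pr_T, num, if_neg hL, add_div]
    rw [if_neg hL, e2]
    push_cast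
    have h6 := (pr_unit (X := X) (Y := Y) H t (some none)).1
    rw [abs_le] at d1 d2 ⊢
    constructor <;> nlinarith [mul_nonneg hQ.le (mul_nonneg h4 h6)]

open Classical in
theorem Cond.acc (C : Cond p ζ η η0 θ) {H : ℕ → List Bool} (hG : Gd X Y ζ H (p.L + 1))
    (hV : ∀ q < p.Q, Val X Y (toSt p (P317.smp p H p.L q))) {ε : ℝ} (hε : ε ≤ 1)
    (c1 : (1 + 4 * θ) ^ (p.L + 1) ≤ 1 + ε) (c2 : (1 - ε) * (1 + η0) ≤ (1 - 3 * θ) ^ (p.L + 1)) :
    0 < ∏ t ∈ range (p.L + 1), cntT p H t ∧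
    (1 - ε) * (pureB X Y).card ≤ ((∏ t ∈ range (p.L + 1), numf p H t : ℕ) : ℝ) /
      ((2 ^ (p.A * p.r) * ∏ t ∈ range (p.L + 1), cntT p H t : ℕ) : ℝ) ∧
    ((∏ t ∈ range (p.L + 1), numf p H t : ℕ) : ℝ) /
      ((2 ^ (p.A * p.r) * ∏ t ∈ range (p.L + 1), cntT p H t : ℕ) : ℝ) ≤ (1 + ε) * (pureB X Y).card := by
  refine ⟨prod_pos fun t ht => by
    exact_mod_cast (C.ratio hG (Nat.lt_succ_iff.1 (mem_range.1 ht))).1, ?_⟩
  by_cases hN : (pureB X Y).card = 0
  · have : numf p H p.L = 0 := by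
      rw [numf, cond_ite (P := p.L ≤ p.L) (by simp), if_pos le_rfl, zero_add, cntA, sumR]
      refine sum_eq_zero fun q hq => ?_
      rw [b2n, cond_ite (isA_iff C.A0), if_neg]
      rintro ⟨h1, h2⟩
      rw [evA, if_pos le_rfl] at h2
      exact card_ne_zero_of_mem (mem_pureB h1 (hV q (mem_range.1 hq)) h2) hN
    simp [hN, prod_range_succ, this]
  have hZ : ∀ t ≤ p.L, 0 < Zk X Y (kf p t) := fun t ht =>
    (C.good (X := X) (Y := Y) ht fun s hs => hG s (by omega)).hZ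
  have h0 := C.t0
  have h1 := C.t1
  have a1 : 0 ≤ 1 - 3 * θ := by linarith
  let y : ℕ → ℝ := fun t => numf p H t / cntT p H t
  have hy : ∀ t, 0 ≤ y t := fun t => by positivity
  have main : ∀ s ≤ p.L, (1 - 3 * θ) ^ s * Zk X Y (kf p s) ≤ (∏ t ∈ range s, y t) * Zk X Y (kf p 0) ∧
      (∏ t ∈ range s, y t) * Zk X Y (kf p 0) ≤ (1 + 4 * θ) ^ s * Zk X Y (kf p s) := by
    intro s hs
    induction s with
    | zero => simp
    | succ s ih =>
      obtain ⟨i1, i2⟩ := ih (by omega)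
      have z1 := hZ s (by omega)
      have z2 := hZ (s + 1) hs
      have hb := (sum_bump (X := X) (Y := Y) (kf p s) (eF C.A0 hs) (trans univ)).1
      rw [← kf_succ] at hb
      change Zk X Y (kf p s) ≤ Zk X Y (kf p (s + 1)) at hb
      obtain ⟨r1, r2⟩ := (C.ratio hG (t := s) (by omega)).2 (by rw [num_lt C.A0 hs]; linarith)
      rw [num_lt C.A0 hs] at r1 r2
      rw [prod_range_succ, mul_right_comm]
      constructor
      · refine le_trans (le_of_eq ?_) (mul_le_mul i1 r1 (by positivity) (le_trans (by positivity) i1))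
        field_simp; ring
      · refine le_trans (mul_le_mul i2 r2 (hy s) (by positivity)) (le_of_eq ?_)
        field_simp; ring
  obtain ⟨i1, i2⟩ := main p.L le_rfl
  have hA : (2 : ℝ) ^ Fintype.card (Fin p.m) ≤ η0 * 2 ^ p.A := by simpa using C.hA
  have zL := ZL_le (X := X) (Y := Y) p.A hA
  obtain ⟨z01, z02⟩ := Z0_bounds (X := X) (Y := Y) p.A hA
  rw [← kf_L, card_Cp] at zL
  rw [← kf_zero, card_Cp] at z01 z02
  have hN1 : (1 : ℝ) ≤ (pureB X Y).card := by exact_mod_cast Nat.one_le_iff_ne_zero.2 hN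
  have hp : (0 : ℝ) < 2 ^ (p.A * p.r) := by positivity
  have e2 : (2 : ℝ) ^ (2 * p.A * p.r) = 2 ^ (p.A * p.r) * 2 ^ (p.A * p.r) := by
    rw [← pow_add]; congr 1; ring
  obtain ⟨r1, r2⟩ := (C.ratio hG (t := p.L) le_rfl).2 (by
    rw [num_L]
    have := C.e1
    nlinarith [show (0 : ℝ) < 2 ^ (2 * p.A * p.r) by positivity])
  rw [num_L, e2] at r1 r2
  have e : ((∏ t ∈ range (p.L + 1), numf p H t : ℕ) : ℝ) /
      ((2 ^ (p.A * p.r) * ∏ t ∈ range (p.L + 1), cntT p H t : ℕ) : ℝ) =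
      (∏ t ∈ range p.L, y t) * y p.L / 2 ^ (p.A * p.r) := by
    rw [← prod_range_succ, prod_div_distrib]
    push_cast
    rw [div_div, mul_comm]
  have z1 := hZ p.L le_rfl
  have z0 := hZ 0 (by omega)
  have j1 := mul_le_mul i1 r1 (by positivity) (le_trans (by positivity) i1)
  have j2 := mul_le_mul i2 r2 (hy _) (by positivity)
  have k1 : (1 - 3 * θ) ^ p.L * Zk X Y (kf p p.L) * ((1 - 3 * θ) *
      ((pureB X Y).card * (2 ^ (p.A * p.r) * 2 ^ (p.A * p.r)) / Zk X Y (kf p p.L))) =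
      (1 - 3 * θ) ^ (p.L + 1) * ((pureB X Y).card * 2 ^ (p.A * p.r)) * 2 ^ (p.A * p.r) := by
    field_simp; ring
  have k2 : (1 + 4 * θ) ^ p.L * Zk X Y (kf p p.L) * ((1 + 4 * θ) *
      ((pureB X Y).card * (2 ^ (p.A * p.r) * 2 ^ (p.A * p.r)) / Zk X Y (kf p p.L))) =
      (1 + 4 * θ) ^ (p.L + 1) * ((pureB X Y).card * 2 ^ (p.A * p.r)) * 2 ^ (p.A * p.r) := by
    field_simp; ring
  rw [k1, mul_right_comm _ (Zk X Y _)] at j1
  rw [k2, mul_right_comm _ (Zk X Y _)] at j2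
  change _ ≤ (∏ t ∈ range p.L, y t) * y p.L * _ at j1
  change (∏ t ∈ range p.L, y t) * y p.L * _ ≤ _ at j2
  rw [e]
  have hP : 0 ≤ (∏ t ∈ range p.L, y t) * y p.L := mul_nonneg (prod_nonneg fun t _ => hy t) (hy _)
  set P := (∏ t ∈ range p.L, y t) * y p.L
  set N : ℝ := ((pureB X Y).card : ℝ)
  set u : ℝ := 2 ^ (p.A * p.r)
  have hη0 : 0 ≤ η0 := by
    by_contra hc
    nlinarith
  have hNu : 0 ≤ N * u := by positivity
  constructor
  · rw [le_div_iff₀ hp]
    have l1 : (1 - ε) * (1 + η0) * (N * u) * u ≤ P * ((1 + η0) * u) :=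
      (mul_le_mul_of_nonneg_right (mul_le_mul_of_nonneg_right c2 hNu) hp.le).trans
        (j1.trans (mul_le_mul_of_nonneg_left z02 hP))
    refine le_of_mul_le_mul_right (a := (1 + η0) * u) ?_ (by positivity)
    linarith
  · rw [div_le_iff₀ hp]
    have l1 : P * u ≤ (1 + ε) * (N * u) * u :=
      (mul_le_mul_of_nonneg_left z01 hP).trans
        (j2.trans (mul_le_mul_of_nonneg_right (mul_le_mul_of_nonneg_right c1 hNu) hp.le))
    refine le_of_mul_le_mul_right (a := u) ?_ hp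
    linarith

end Vale.Agent.P317
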