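import Vale.Agent.P317.Alg
import Vale.Agent.P317.Boch

/-! The basis indicator of a matroid complex is Lorentzian. -/

namespace Vale.Agent.P317

open Finset Matrix

variable {V : Type} [Fintype V] [DecidableEq V] {A : Type} [CommRing A] [Algebra ℝ A]

structure Cx (V : Type) [DecidableEq V] where
  Ind : Finset V → Prop
  down : ∀ I J, J ⊆ I → Ind I → Ind J
  aug : ∀ I J, Ind I → Ind J → I.card < J.card → ∃ s ∈ J, s ∉ I ∧ Ind (insert s I)

def Cx.Ext (C : Cx V) (r : ℕ) (F : Finset V) : Prop := ∃ B, F ⊆ B ∧ C.Ind B ∧ B.card = r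

omit [Fintype V] in
theorem Cx.ext_of_ind (C : Cx V) {r : ℕ} {B : Finset V} (hB : C.Ind B) (hr : B.card = r) :
    ∀ (k : ℕ) (I : Finset V), C.Ind I → I.card + k = r → C.Ext r I := by
  intro k
  induction k with
  | zero => exact fun I hI h => ⟨I, Subset.refl _, hI, h⟩
  | succ k ih =>
    intro I hI h
    obtain ⟨s, _, hs, hi⟩ := C.aug I B hI hB (by omega)
    obtain ⟨B', h1, h2⟩ := ih (insert s I) hi (by rw [card_insert_of_notMem hs]; omega)
    exact ⟨B', (subset_insert s I).trans h1, h2⟩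

namespace Sys

variable (S : Sys V A)

def Mx (m : A) : Matrix V V ℝ := fun s t => S.l (m * S.x s * S.x t)

def prodl (vs : List (V → ℝ)) : A := (vs.map S.lin).prod

omit [DecidableEq V] in
theorem l_quad (m : A) (c c' : V → ℝ) : S.l (m * S.lin c * S.lin c') = c ⬝ᵥ S.Mx m *ᵥ c' := by
  simp only [Sys.lin, mul_sum, sum_mul, map_sum, dotProduct, mulVec, Mx]
  rw [sum_comm]
  refine sum_congr rfl fun s _ => sum_congr rfl fun t _ => ?_
  simp only [mul_smul_comm, smul_mul_assoc, map_smul, smul_eq_mul]; ring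

omit [DecidableEq V] in
theorem Mx_mulVec (m : A) (c : V → ℝ) (i : V) : (S.Mx m *ᵥ c) i = S.l (m * S.x i * S.lin c) := by
  rw [l_mul_lin]
  exact sum_congr rfl fun _ _ => mul_comm _ _

omit [Fintype V] [DecidableEq V] in
theorem Mx_symm (m : A) (i j : V) : S.Mx m i j = S.Mx m j i := by
  simp only [Mx]; congr 1; ring

variable {S}

omit [DecidableEq V] in
theorem cone_prodl {vs : List (V → ℝ)} (h : ∀ c ∈ vs, ∀ s, 0 ≤ c s) : S.Cone (S.prodl vs) := by
  induction vs with
  | nil => simpa [prodl] using Cone.one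
  | cons c vs ih =>
    simp only [prodl, List.map_cons, List.prod_cons]
    exact Cone.mul ⟨c, h c (by simp), rfl⟩ (ih fun c hc => h c (by simp [hc]))

omit [DecidableEq V] in
theorem prodl_cons (c : V → ℝ) (vs : List (V → ℝ)) : S.prodl (c :: vs) = S.lin c * S.prodl vs := by
  simp [prodl]

end Sys

omit [DecidableEq V] in
theorem quad_zero (N : Matrix V V ℝ) (hn : ∀ i j, 0 ≤ N i j) (v : V → ℝ) (hv : ∀ i, 0 < v i)
    (h : v ⬝ᵥ N *ᵥ v = 0) (c : V → ℝ) : c ⬝ᵥ N *ᵥ c = 0 := by
  have : ∀ i j, N i j = 0 := by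
    intro i j
    simp only [dotProduct, mulVec, mul_sum] at h
    have ht : ∀ i j, 0 ≤ v i * (N i j * v j) := fun i j =>
      mul_nonneg (hv i).le (mul_nonneg (hn i j) (hv j).le)
    have h1 := (sum_eq_zero_iff_of_nonneg fun i _ => sum_nonneg fun j _ => ht i j).1 h i (mem_univ i)
    have h2 := (sum_eq_zero_iff_of_nonneg fun j _ => ht i j).1 h1 j (mem_univ j)
    simpa [(hv i).ne', (hv j).ne'] using h2
  simp [dotProduct, mulVec, this]

section
open Classical
variable (C : Cx V) (r : ℕ) (S : Sys V A)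
  (hS : ∀ I, S.l (S.mon I) = if C.Ind I ∧ I.card = r then 1 else 0)
include hS

theorem nn_one : S.NN 1 := fun I => by rw [mul_one, hS]; split_ifs <;> norm_num

theorem pos_iff (vs : List (V → ℝ)) (hv : ∀ c ∈ vs, ∀ s, 0 < c s) (F : Finset V) :
    0 < S.l (S.mon F * S.prodl vs) ↔ C.Ext r F ∧ F.card + vs.length = r := by
  induction vs generalizing F with
  | nil =>
    simp only [Sys.prodl, List.map_nil, List.prod_nil, mul_one, hS, List.length_nil, add_zero]
    constructor
    · intro h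
      split_ifs at h with h1
      · exact ⟨⟨F, Subset.refl _, h1⟩, h1.2⟩
      · exact absurd h (lt_irrefl _)
    · rintro ⟨⟨B, h1, h2, h3⟩, h4⟩
      rw [if_pos ⟨C.down _ _ h1 h2, h4⟩]; norm_num
  | cons c vs ih =>
    have hv' : ∀ c ∈ vs, ∀ s, 0 < c s := fun c hc => hv c (by simp [hc])
    have hc := hv c (by simp)
    have e : S.l (S.mon F * S.prodl (c :: vs)) = ∑ s, c s * S.l (S.x s * S.mon F * S.prodl vs) := by
      rw [Sys.prodl_cons, show S.mon F * (S.lin c * S.prodl vs) = S.mon F * S.prodl vs * S.lin c by ring,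
        Sys.l_mul_lin]
      exact sum_congr rfl fun s _ => by congr 2; ring
    have hnn : ∀ s, 0 ≤ c s * S.l (S.x s * S.mon F * S.prodl vs) := fun s =>
      mul_nonneg (hc s).le ((((Sys.pos_x s).cone.mul_cone (Sys.cone_mon F)).mul_cone
        (Sys.cone_prodl fun c hc s => (hv' c hc s).le)).nonneg (nn_one C r S hS))
    rw [e, sum_pos_iff_of_nonneg fun s _ => hnn s]
    constructor
    · rintro ⟨s, _, h⟩
      have h' := (mul_pos_iff_of_pos_left (hc s)).1 h
      have hs : s ∉ F := fun hs => by rw [S.x_mul_mon hs] at h'; simp at h'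
      rw [← S.mon_insert hs, ih hv', card_insert_of_notMem hs] at h'
      obtain ⟨⟨B, h1, h2⟩, h3⟩ := h'
      exact ⟨⟨B, (subset_insert s F).trans h1, h2⟩, by simp; omega⟩
    · rintro ⟨⟨B, h1, h2, h3⟩, h4⟩
      simp only [List.length_cons] at h4
      obtain ⟨s, hsB, hs⟩ := exists_mem_notMem_of_card_lt_card (s := F) (t := B) (by omega)
      refine ⟨s, mem_univ _, mul_pos (hc s) ?_⟩
      rw [← S.mon_insert hs, ih hv', card_insert_of_notMem hs]
      exact ⟨⟨B, insert_subset hsB h1, h2, h3⟩, by omega⟩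

theorem Mx_pos_iff (vs : List (V → ℝ)) (hv : ∀ c ∈ vs, ∀ s, 0 < c s) (F : Finset V) (s t : V) :
    0 < S.Mx (S.mon F * S.prodl vs) s t ↔
      s ∉ F ∧ t ∉ F ∧ s ≠ t ∧ C.Ext r (insert s (insert t F)) ∧ F.card + 2 + vs.length = r := by
  have e : S.Mx (S.mon F * S.prodl vs) s t = S.l (S.x s * (S.x t * S.mon F) * S.prodl vs) := by
    simp only [Sys.Mx]; congr 1; ring
  rw [e]
  by_cases ht : t ∈ F
  · simp [S.x_mul_mon ht, ht]
  rw [← S.mon_insert ht]
  by_cases hs : s ∈ insert t F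
  · rw [S.x_mul_mon hs]
    rcases mem_insert.1 hs with h | h <;> simp [h]
  rw [← S.mon_insert hs, pos_iff C r S hS vs hv, card_insert_of_notMem hs, card_insert_of_notMem ht]
  simp only [mem_insert, not_or] at hs
  simp [hs.1, hs.2, ht]

theorem lor_base (F : Finset V) (c c' : V → ℝ) (h' : ∀ s, 0 ≤ c' s) :
    (c ⬝ᵥ S.Mx (S.mon F) *ᵥ c) * (c' ⬝ᵥ S.Mx (S.mon F) *ᵥ c') ≤ (c ⬝ᵥ S.Mx (S.mon F) *ᵥ c') ^ 2 := by
  set M := S.Mx (S.mon F) with hM
  have hpos : ∀ s t, 0 < M s t ↔
      s ∉ F ∧ t ∉ F ∧ s ≠ t ∧ C.Ext r (insert s (insert t F)) ∧ F.card + 2 = r := by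
    intro s t
    simpa [Sys.prodl] using Mx_pos_iff C r S hS [] (by simp) F s t
  have h01 : ∀ s t, M s t = 0 ∨ M s t = 1 := by
    intro s t
    have e : M s t = S.l (S.x s * (S.x t * S.mon F)) := by
      simp only [hM, Sys.Mx]; congr 1; ring
    rw [e]
    by_cases ht : t ∈ F
    · simp [S.x_mul_mon ht]
    rw [← S.mon_insert ht]
    by_cases hs : s ∈ insert t F
    · simp [S.x_mul_mon hs]
    rw [← S.mon_insert hs, hS]
    split_ifs <;> simp
  let P : V → Prop := fun s => s ∉ F ∧ C.Ind (insert s F)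
  have hP : ∀ s t, 0 < M s t → P s := by
    intro s t h
    obtain ⟨h1, h2, h3, ⟨B, h4, h5, _⟩, _⟩ := (hpos s t).1 h
    exact ⟨h1, C.down _ _ ((insert_subset_insert s (subset_insert t F)).trans h4) h5⟩
  have hsym : ∀ s t, M s t = M t s := S.Mx_symm _
  refine lor_of_hyper M hsym (fun s => if P s then 1 else 0) (fun c hc => ?_) c c' ?_
  · have := equiv_psd P (fun s t => ¬ 0 < M s t) (fun s _ h => ((hpos s s).1 h).2.2.1 rfl)
      (fun s t h => by rwa [hsym]) (fun s t u ht h1 h2 h3 => ?_) c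
    · have e : (∑ s, ∑ t, if P s ∧ P t ∧ ¬ 0 < M s t then c s * c t else 0) =
          ((fun s => if P s then (1 : ℝ) else 0) ⬝ᵥ c) ^ 2 - c ⬝ᵥ M *ᵥ c := by
        simp only [pow_two, dotProduct, mulVec]
        rw [sum_mul_sum]
        simp only [mul_sum, ← sum_sub_distrib]
        refine sum_congr rfl fun s _ => sum_congr rfl fun t _ => ?_
        rcases h01 s t with h | h
        · by_cases hs : P s <;> by_cases ht : P t <;> simp [hs, ht, h]
        · have hs := hP s t (by rw [h]; norm_num)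
          have ht := hP t s (by rw [hsym, h]; norm_num)
          simp [hs, ht, h]
      rw [e, hc] at this
      linarith
    · obtain ⟨a1, a2, a3, ⟨B, a4, a5, a6⟩, a7⟩ := (hpos s u).1 h3
      have hI := C.down _ _ a4 a5
      have hc1 : (insert s (insert u F)).card = r := by
        rw [card_insert_of_notMem (by simp [a1, a3]), card_insert_of_notMem a2]; omega
      obtain ⟨e, he1, he2, he3⟩ := C.aug _ _ ht.2 hI (by rw [hc1, card_insert_of_notMem ht.1]; omega)
      have hc2 : (insert e (insert t F)).card = r := by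
        rw [card_insert_of_notMem he2, card_insert_of_notMem ht.1]; omega
      simp only [mem_insert, not_or] at he1 he2
      rcases he1 with rfl | rfl | h
      · exact h1 ((hpos _ _).2 ⟨a1, ht.1, he2.1, ⟨_, Subset.refl _, he3, hc2⟩, a7⟩)
      · refine h2 ?_
        rw [hsym]
        exact (hpos _ _).2 ⟨a2, ht.1, he2.1, ⟨_, Subset.refl _, he3, hc2⟩, a7⟩
      · exact he2.2 h
  · refine sum_nonneg fun s _ => mul_nonneg (h' s) (sum_nonneg fun t _ => mul_nonneg ?_ (h' t))
    rcases h01 s t with h | h <;> simp [h]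

theorem lor_pos (vs : List (V → ℝ)) (hv : ∀ c ∈ vs, ∀ s, 0 < c s) (F : Finset V)
    (c c' : V → ℝ) (h' : ∀ s, 0 ≤ c' s) :
    (c ⬝ᵥ S.Mx (S.mon F * S.prodl vs) *ᵥ c) * (c' ⬝ᵥ S.Mx (S.mon F * S.prodl vs) *ᵥ c') ≤
      (c ⬝ᵥ S.Mx (S.mon F * S.prodl vs) *ᵥ c') ^ 2 := by
  have hw := nn_one C r S hS
  induction vs generalizing F c c' with
  | nil => simpa [Sys.prodl] using lor_base C r S hS F c c' h'
  | cons v vs ih =>
    have hv' : ∀ c ∈ vs, ∀ s, 0 < c s := fun c hc => hv c (by simp [hc])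
    have hv0 := hv v (by simp)
    set M := S.Mx (S.mon F * S.prodl (v :: vs)) with hM
    have hcone : S.Cone (S.mon F * S.prodl (v :: vs)) :=
      (Sys.cone_mon F).mul_cone (Sys.cone_prodl fun c hc s => (hv c hc s).le)
    have hn : ∀ i j, 0 ≤ M i j := fun i j =>
      ((hcone.mul_pos (Sys.pos_x i)).mul_pos (Sys.pos_x j)).nonneg hw
    refine lor_of_hyper M (S.Mx_symm _) (M *ᵥ v) (bochner M (S.Mx_symm _) hn v hv0 ?_ ?_) c c'
      (sum_nonneg fun s _ => mul_nonneg (h' s) (sum_nonneg fun t _ => mul_nonneg (hn s t) (h' t)))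
    · have hd : ∀ i, 0 < (M *ᵥ v) i → i ∉ F ∧ C.Ext r (insert i F) ∧ F.card + 3 + vs.length = r := by
        intro i hi
        rw [hM, S.Mx_mulVec, show S.mon F * S.prodl (v :: vs) * S.x i * S.lin v =
          S.x i * S.mon F * S.prodl (v :: v :: vs) by simp only [Sys.prodl_cons]; ring] at hi
        have hs : i ∉ F := fun hs => by rw [S.x_mul_mon hs] at hi; simp at hi
        rw [← S.mon_insert hs, pos_iff C r S hS _ (by
          intro c hc; rcases List.mem_cons.1 hc with rfl | hc; exacts [hv0, hv c hc]),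
          card_insert_of_notMem hs] at hi
        exact ⟨hs, hi.1, by have := hi.2; simp at this; omega⟩
      have hMp := Mx_pos_iff C r S hS (v :: vs) hv F
      simp only [← hM, List.length_cons] at hMp
      intro i j hi hj
      obtain ⟨hi1, ⟨B, b1, b2, b3⟩, hr⟩ := hd i hi
      obtain ⟨hj1, ⟨B', b1', b2', b3'⟩, -⟩ := hd j hj
      by_cases hij : i = j
      · exact Or.inl hij
      right
      obtain ⟨k, hkB, hk⟩ := exists_mem_notMem_of_card_lt_card (s := insert i F) (t := B)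
        (by rw [card_insert_of_notMem hi1]; omega)
      have hI : C.Ind (insert k (insert i F)) := C.down _ _ (insert_subset hkB b1) b2
      have hJ : C.Ind (insert j F) := C.down _ _ b1' b2'
      obtain ⟨e, he1, he2, he3⟩ := C.aug _ _ hJ hI (by
        rw [card_insert_of_notMem hk, card_insert_of_notMem hi1, card_insert_of_notMem hj1]; omega)
      have hE : C.Ext r (insert e (insert j F)) := C.ext_of_ind b2 b3 (vs.length + 1) _ he3 (by
        rw [card_insert_of_notMem he2, card_insert_of_notMem hj1]; omega)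
      simp only [mem_insert, not_or] at he1 he2 hk
      rcases he1 with rfl | rfl | h
      · right
        refine ⟨e, ?_, (hMp _ _).2 ⟨he2.2, hj1, he2.1, hE, by omega⟩⟩
        rw [hM, S.Mx_symm, ← hM]
        exact (hMp _ _).2 ⟨hk.2, hi1, hk.1, ⟨B, insert_subset hkB b1, b2, b3⟩, by omega⟩
      · exact Or.inl ((hMp _ _).2 ⟨he2.2, hj1, he2.1, hE, by omega⟩)
      · exact absurd h he2.2
    · intro c
      let N : V → Matrix V V ℝ := fun i => S.Mx (S.x i * S.mon F * S.prodl vs)
      have e1 : ∀ (a : V → ℝ) i, (M *ᵥ a) i = a ⬝ᵥ N i *ᵥ v := by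
        intro a i
        rw [hM, S.Mx_mulVec, ← S.l_quad, Sys.prodl_cons]; congr 1; ring
      have e2 : c ⬝ᵥ M *ᵥ c = ∑ i, v i * (c ⬝ᵥ N i *ᵥ c) := by
        rw [hM, ← S.l_quad, Sys.prodl_cons, show S.mon F * (S.lin v * S.prodl vs) * S.lin c * S.lin c =
          S.mon F * S.prodl vs * S.lin c * S.lin c * S.lin v by ring, Sys.l_mul_lin]
        refine sum_congr rfl fun i _ => ?_
        rw [← S.l_quad]; congr 2; ring
      rw [e2]
      refine sum_le_sum fun i _ => ?_
      rw [e1, e1, mul_div_assoc]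
      refine mul_le_mul_of_nonneg_left ?_ (hv0 i).le
      have hcn : S.Cone (S.x i * S.mon F * S.prodl vs) :=
        ((Sys.pos_x i).cone.mul_cone (Sys.cone_mon F)).mul_cone
          (Sys.cone_prodl fun c hc s => (hv' c hc s).le)
      have hNn : ∀ s t, 0 ≤ N i s t := fun s t =>
        ((hcn.mul_pos (Sys.pos_x s)).mul_pos (Sys.pos_x t)).nonneg hw
      have hd0 : 0 ≤ v ⬝ᵥ N i *ᵥ v := sum_nonneg fun s _ => mul_nonneg (hv0 s).le
        (sum_nonneg fun t _ => mul_nonneg (hNn s t) (hv0 t).le)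
      rcases hd0.eq_or_lt with h | h
      · rw [quad_zero (N i) hNn v hv0 h.symm c, ← h]; simp
      · rw [le_div_iff₀ h]
        by_cases hi : i ∈ F
        · have : N i = 0 := by ext s t; simp [N, Sys.Mx, S.x_mul_mon hi]
          simp [this]
        · simp only [N, ← S.mon_insert hi]
          exact ih hv' _ _ _ fun s => (hv0 s).le

omit hS in
theorem cont_eps (vs : List (V → ℝ)) (p : A) :
    Continuous fun ε : ℝ => S.l (S.prodl (vs.map fun c s => c s + ε) * p) := by
  induction vs generalizing p with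
  | nil => simpa [Sys.prodl] using continuous_const
  | cons c vs ih =>
    have : (fun ε : ℝ => S.l (S.prodl ((c :: vs).map fun c s => c s + ε) * p)) = fun ε =>
        S.l (S.prodl (vs.map fun c s => c s + ε) * (S.lin c * p)) +
          ε * S.l (S.prodl (vs.map fun c s => c s + ε) * (S.lin (fun _ => 1) * p)) := by
      funext ε
      have : S.lin (fun s => c s + ε) = S.lin c + ε • S.lin (fun _ => 1) := by
        simp [Sys.lin, add_smul, sum_add_distrib, smul_sum]
      rw [List.map_cons, Sys.prodl_cons, this, ← smul_eq_mul ε, ← map_smul, ← map_add]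
      congr 1
      simp only [Algebra.smul_def]; ring
    rw [this]
    exact (ih _).add (continuous_id.mul (ih _))

theorem lor_cx : S.Lor := by
  intro m hm a b ⟨c, ha⟩ ⟨c', h', hb⟩
  obtain ⟨vs, hvs, rfl⟩ : ∃ vs : List (V → ℝ), (∀ c ∈ vs, ∀ s, 0 ≤ c s) ∧ m = S.prodl vs := by
    induction hm with
    | one => exact ⟨[], by simp, by simp [Sys.prodl]⟩
    | mul hy _ ih =>
      obtain ⟨vs, h1, rfl⟩ := ih
      obtain ⟨c, hc, rfl⟩ := hy
      exact ⟨c :: vs, by simpa using ⟨hc, h1⟩, (Sys.prodl_cons _ _).symm⟩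
  subst ha hb
  let P : ℝ → A := fun ε => S.prodl (vs.map fun c s => c s + ε)
  have key : ∀ ε, 0 < ε → S.l (P ε * (S.lin c * S.lin c)) * S.l (P ε * (S.lin c' * S.lin c')) ≤
      S.l (P ε * (S.lin c * S.lin c')) ^ 2 := by
    intro ε hε
    have := lor_pos C r S hS (vs.map fun c s => c s + ε) (by
      intro c hc s
      obtain ⟨c0, h0, rfl⟩ := List.mem_map.1 hc
      have := hvs c0 h0 s
      positivity) ∅ c c' h'
    simpa only [← S.l_quad, Sys.mon_empty, one_mul, mul_assoc] using this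
  have hcl : IsClosed {ε : ℝ | S.l (P ε * (S.lin c * S.lin c)) * S.l (P ε * (S.lin c' * S.lin c')) ≤
      S.l (P ε * (S.lin c * S.lin c')) ^ 2} :=
    isClosed_le ((cont_eps S vs _).mul (cont_eps S vs _)) ((cont_eps S vs _).pow 2)
  have h0 := hcl.closure_subset (closure_mono (s := Set.Ioi 0) key (by simp : (0 : ℝ) ∈ closure (Set.Ioi 0)))
  simpa [P, mul_assoc] using h0

end

/-- rescaling the variables -/
def Sys.scale (S : Sys V A) (a : V → ℝ) : Sys V A :=
  ⟨fun s => a s • S.x s, S.l, fun s => by rw [smul_mul_smul_comm, S.sq, smul_zero]⟩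

theorem Sys.scale_lor (S : Sys V A) (a : V → ℝ) (ha : ∀ s, 0 ≤ a s) (h : S.Lor) : (S.scale a).Lor := by
  have e : ∀ c, (S.scale a).lin c = S.lin fun s => c s * a s := fun c => by
    simp [Sys.lin, Sys.scale, mul_smul]
  have hp : ∀ y, (S.scale a).Pos y → S.Pos y := fun y ⟨c, hc, hy⟩ =>
    ⟨_, fun s => mul_nonneg (hc s) (ha s), hy.trans (e c)⟩
  intro m hm p q ⟨c, hc⟩ hq
  refine h m ?_ p q ⟨_, hc.trans (e c)⟩ (hp q hq)
  induction hm with
  | one => exact Sys.Cone.one
  | mul hy _ ih => exact Sys.Cone.mul (hp _ hy) ih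

open Classical in
theorem exists_lor (C : Cx V) (r : ℕ) (a : V → ℝ) (ha : ∀ s, 0 ≤ a s) :
    ∃ S : Sys V (Alg V), S.Lor ∧
      ∀ I, S.l (S.mon I) = if C.Ind I ∧ I.card = r then ∏ s ∈ I, a s else 0 := by
  obtain ⟨S, hS⟩ := exists_sys (V := V) fun I => if C.Ind I ∧ I.card = r then 1 else 0
  refine ⟨S.scale a, S.scale_lor a ha (lor_cx C r S hS), fun I => ?_⟩
  have : (S.scale a).mon I = (∏ s ∈ I, a s) • S.mon I := by
    simp [Sys.mon, Sys.scale, prod_smul]
  rw [this]
  change S.l _ = _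
  rw [map_smul, hS]
  split_ifs <;> simp

end Vale.Agent.P317
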