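import Vale.Agent.P317.Defs
import Vale.Agent.P317.Main2

/-! From matroids to the extended instance. -/

namespace Vale.Agent.P317

open Finset

variable {p : Par} {n : ℕ}

def ePart (n : ℕ) (B : Finset (Fin p.m)) : Set (Fin n) := {i | ∃ g ∈ B, g.val = i.val}

def emb (hn : p.n = n) (i : Fin n) : Fin p.m := ⟨i, by have := i.2; unfold Par.m; omega⟩

theorem emb_inj (hn : p.n = n) : Function.Injective (emb hn) := fun i j h =>
  Fin.ext (by simpa [emb] using h)

theorem mem_ePart (hn : p.n = n) {B : Finset (Fin p.m)} {i : Fin n} : i ∈ ePart n B ↔ emb hn i ∈ B :=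
  ⟨fun ⟨g, h1, h2⟩ => (show g = emb hn i from Fin.ext h2) ▸ h1, fun h => ⟨_, h, rfl⟩⟩

theorem image_ePart (hn : p.n = n) (B : Finset (Fin p.m)) :
    emb hn '' ePart n B = ((B \ Cp p : Finset (Fin p.m)) : Set (Fin p.m)) := by
  ext g
  simp only [Set.mem_image, mem_ePart hn, coe_sdiff, Set.mem_diff, mem_coe, mem_Cp]
  constructor
  · rintro ⟨i, h, rfl⟩
    exact ⟨h, by have := i.2; simp [emb]; omega⟩
  · rintro ⟨h1, h2⟩
    exact ⟨⟨g, by omega⟩, h1, rfl⟩

theorem encard_ePart (hn : p.n = n) (B : Finset (Fin p.m)) :
    (ePart n B).encard = (B \ Cp p).card := by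
  rw [← (emb_inj hn).encard_image, image_ePart, Set.encard_coe_eq_coe_finsetCard]

def fxOf (hn : p.n = n) (M : Matroid (Fin n)) : Fx (Cp p) where
  J B := M.Indep (ePart n B)
  empty := by
    have : ePart n (∅ : Finset (Fin p.m)) = ∅ := by ext i; simp [ePart]
    rw [this]; exact M.empty_indep
  down I I' h hI := hI.subset fun i ⟨g, h1, h2⟩ => ⟨g, h h1, h2⟩
  free c hc I hI := by
    have : ePart n (insert c I) = ePart n I := by
      ext i
      simp only [mem_ePart hn, mem_insert, or_iff_right_iff_imp]
      rintro rfl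
      have := i.2
      simp [mem_Cp, emb] at hc
      omega
    rwa [this]
  aug I I' hI hI' h := by
    obtain ⟨e, he1, he2⟩ := hI.exists_insert_of_encard_lt hI' (by
      rw [encard_ePart hn, encard_ePart hn]; exact_mod_cast h)
    refine ⟨emb hn e, (mem_ePart hn).1 he1.1, fun h => he1.2 ((mem_ePart hn).2 h), ?_⟩
    convert he2 using 1
    ext i
    simp [mem_ePart hn, (emb_inj hn).eq_iff]

theorem isBase_iff {M : Matroid (Fin n)} {r : ℕ} (hr : M.eRank = r) {S : Set (Fin n)} :
    M.IsBase S ↔ M.Indep S ∧ S.encard = r := by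
  refine ⟨fun h => ⟨h.indep, h.encard_eq_eRank.trans hr⟩, fun ⟨h1, h2⟩ => ?_⟩
  obtain ⟨B, hB, hS⟩ := h1.exists_isBase_superset
  rwa [(Set.toFinite S).eq_of_subset_of_encard_le hS (by rw [hB.encard_eq_eRank, hr, h2])]

theorem card_pureB (hn : p.n = n) (M₁ M₂ : Matroid (Fin n)) (h1 : M₁.eRank = p.r) (h2 : M₂.eRank = p.r) :
    (pureB (fxOf hn M₁) (fxOf hn M₂)).card = commonBases M₁ M₂ := by
  classical
  rw [commonBases, ← Set.ncard_coe_finset]
  refine Set.ncard_congr (fun B _ => ePart n B) ?_ ?_ ?_
  · intro B hB
    simp only [pureB, coe_filter, mem_univ, true_and, Set.mem_setOf_eq, card_Cp] at hB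
    have : (ePart n B).encard = p.r := by
      rw [encard_ePart hn, sdiff_eq_self_of_disjoint hB.1, hB.2.2.2]
    exact ⟨(isBase_iff h1).2 ⟨hB.2.1, this⟩, (isBase_iff h2).2 ⟨hB.2.2.1, this⟩⟩
  · intro B B' hB hB' h
    simp only [pureB, coe_filter, mem_univ, true_and, Set.mem_setOf_eq] at hB hB'
    have := congrArg (Set.image (emb hn)) h
    rw [image_ePart, image_ePart, sdiff_eq_self_of_disjoint hB.1, sdiff_eq_self_of_disjoint hB'.1] at this
    exact_mod_cast this
  · rintro S ⟨b1, b2⟩
    have e : ePart n (univ.filter fun g => g ∈ emb hn '' S) = S := by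
      ext i; simp [mem_ePart hn, (emb_inj hn).eq_iff]
    have d : Disjoint (univ.filter fun g => g ∈ emb hn '' S) (Cp p) := by
      rw [disjoint_left]
      intro g hg
      obtain ⟨i, -, rfl⟩ := (mem_filter.1 hg).2
      have := i.2
      simp [mem_Cp, emb]; omega
    refine ⟨univ.filter fun g => g ∈ emb hn '' S, ?_, e⟩
    simp only [pureB, coe_filter, mem_univ, true_and, Set.mem_setOf_eq, card_Cp]
    refine ⟨d, show M₁.Indep _ by rw [e]; exact b1.indep, show M₂.Indep _ by rw [e]; exact b2.indep, ?_⟩
    have := encard_ePart hn (univ.filter fun g => g ∈ emb hn '' S)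
    rw [e, sdiff_eq_self_of_disjoint d, ((isBase_iff h1).1 b1).2] at this
    exact_mod_cast this.symm

theorem bit_append_left {l : List Bool} (l' : List Bool) {i : ℕ} (h : i < l.length) :
    bit (l ++ l') i = bit l i := by
  simp [bit, List.getElem?_append_left h]

theorem sub_qry1 (hn : p.n = n) (l c : List Bool) :
    subsetOf n (qry p l c) = ePart n (sl false (toSt p (prop p l c))) := by
  ext i
  have := i.2
  rw [mem_ePart hn, mem_sl, mem_toSt0]
  change bit _ _ = true ↔ _
  rw [qry, bit_append_left _ (by simp; omega), bit_mapR _ (by omega)]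
  rfl

theorem sub_qry2 (hn : p.n = n) (l c : List Bool) :
    subsetOf n ((qry p l c).drop n) = ePart n (sl true (toSt p (prop p l c)))ᶜ := by
  ext i
  have := i.2
  rw [mem_ePart hn, mem_compl, mem_sl, mem_toSt1]
  change bit _ _ = true ↔ _
  rw [qry, List.drop_left' (by simp [hn]), bit_mapR _ (by omega)]
  simp [emb]

theorem blk_append (tr x : List Bool) (g : ℕ) (h1 : tr.length = g * (2 * p.m)) (h2 : x.length = 2 * p.m) :
    blk p (tr ++ x) = Function.update (blk p tr) g x := by
  funext i
  rcases lt_trichotomy i g with h | rfl | h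
  · have : (i + 1) * (2 * p.m) ≤ g * (2 * p.m) := Nat.mul_le_mul_right _ h
    rw [Nat.succ_mul] at this
    rw [Function.update_of_ne h.ne, blk, blk, List.drop_append_of_le_length (by omega),
      List.take_append_of_le_length (by simp; omega)]
  · rw [Function.update_self, blk, List.drop_left' h1, List.take_of_length_le h2.le]
  · have : (g + 1) * (2 * p.m) ≤ i * (2 * p.m) := Nat.mul_le_mul_right _ h
    rw [Nat.succ_mul] at this
    rw [Function.update_of_ne h.ne', blk, blk, List.drop_of_length_le (by simp; omega),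
      List.drop_of_length_le (by omega)]

theorem binVal_cons (b : Bool) (l : List Bool) : binVal (b :: l) = b2n b + 2 * binVal l := by
  cases b <;> simp [binVal, b2n, Nat.bit, add_comm]

theorem binVal_eq (l : List Bool) {k : ℕ} (h : l.length ≤ k) :
    binVal l = ∑ i ∈ range k, b2n (bit l i) * 2 ^ i := by
  induction l generalizing k with
  | nil => simp [binVal, bit, b2n]
  | cons b l ih =>
    obtain ⟨k, rfl⟩ := Nat.exists_eq_succ_of_ne_zero (show k ≠ 0 by simp at h; omega)
    rw [binVal_cons, ih (k := k) (by simpa using h), sum_range_succ', mul_sum, add_comm]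
    simp only [bit, List.getD_cons_succ, List.getD_cons_zero, pow_zero, mul_one]
    congr 1
    exact sum_congr rfl fun i _ => by ring

theorem binVal_mulB (l : List Bool) (c : ℕ) : binVal (mulB l c) = binVal l * c := by
  have h1 : ∀ k, ∑ i ∈ range k, (c * b2n (bit l i) + carry l c i) % 2 * 2 ^ i + carry l c k * 2 ^ k =
      (∑ i ∈ range k, b2n (bit l i) * 2 ^ i) * c := by
    intro k
    induction k with
    | zero => simp [carry]
    | succ k ih =>
      rw [sum_range_succ, sum_range_succ, add_mul, ← ih, carry, pow_succ]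
      have := Nat.mod_add_div (c * b2n (bit l k) + carry l c k) 2
      set u := (c * b2n (bit l k) + carry l c k) % 2
      set v := (c * b2n (bit l k) + carry l c k) / 2
      have e : (u + 2 * v) * 2 ^ k = (c * b2n (bit l k) + carry l c k) * 2 ^ k := by rw [this]
      linarith
  have h2 : ∀ j, carry l c (l.length + j) ≤ c - j := by
    intro j
    induction j with
    | zero =>
      have : ∀ i, carry l c i ≤ c := fun i => by
        induction i with
        | zero => simp [carry]
        | succ i ih =>
          have : c * b2n (bit l i) ≤ c := by cases bit l i <;> simp [b2n]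
          simp only [carry]; omega
      exact this _
    | succ j ih =>
      rw [← add_assoc, carry, bit_of_le (by omega)]
      simp only [b2n, cond_false, mul_zero, zero_add]
      omega
  have h3 := h2 c
  rw [binVal_eq (mulB l c) (k := l.length + c) (by simp [mulB]), binVal_eq l (k := l.length + c) (by omega),
    ← h1, show carry l c (l.length + c) = 0 by omega, zero_mul, add_zero]
  refine sum_congr rfl fun i hi => ?_
  rw [mulB, bit_mapR _ (mem_range.1 hi)]
  congr 1
  rcases Nat.mod_two_eq_zero_or_one (c * b2n (bit l i) + carry l c i) with h | h <;> rw [h] <;> rfl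

theorem binVal_prodB (l : List Bool) (f : ℕ → ℕ) (t : ℕ) :
    binVal (prodB l f t) = binVal l * ∏ i ∈ range t, f i := by
  induction t with
  | zero => simp [prodB]
  | succ t ih => rw [prodB, binVal_mulB, ih, prod_range_succ, mul_assoc]

theorem binVal_pow (k : ℕ) : binVal (List.replicate k false ++ [true]) = 2 ^ k := by
  induction k with
  | zero => rfl
  | succ k ih => rw [List.replicate_succ, List.cons_append, binVal_cons, ih, pow_succ]; simp [b2n, mul_comm]

theorem lead_unary (k : ℕ) (z : List Bool) : lead (unary k ++ z) = k := by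
  induction k with
  | zero => simp [lead, unary]
  | succ k ih =>
    simp only [lead, unary, List.replicate_succ, List.cons_append, List.foldr_cons, cond_true] at ih ⊢
    rw [ih]

theorem rest_unary (k : ℕ) (z : List Bool) : rest (unary k ++ z) = z := by
  rw [rest, lead_unary]
  exact List.drop_left' (by simp [unary])

end Vale.Agent.P317
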