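import Vale.Agent.P317.Main2
import Vale.Agent.P317.Time

/-! The choice of parameters. -/

namespace Vale.Agent.P317

open Finset Vale.Agent.PT

def Rn (n : ℕ) : ℕ := (2 * n) ^ 2 + 8
def Gn (n : ℕ) : ℕ := 8 + (2 * n) ^ 2 * Rn n
def un (n k : ℕ) : ℕ := 32 * k * Gn n
def An (n k : ℕ) : ℕ := 2 * (un n k + 4 * n)
def Ln (n k : ℕ) : ℕ := 2 * An n k * n
def Yn (n k : ℕ) : ℕ := 8 * k * (Ln n k + 1) * Gn n
def Tn (n k : ℕ) : ℕ :=
  (60 * Gn n * Rn n * (2 * n + 1) ^ 3 * (4 * (Ln n k + 1) * Yn n k) * (2 * (8 * n + 1))) ^ 2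
def Jn (n k : ℕ) : ℕ := (Ln n k + 1) * (((2 * n) ^ 2 + 2) * 2)
def Qn (n k l : ℕ) : ℕ := 16 * Yn n k ^ 2 * (l + Jn n k)
def csn (n k : ℕ) : ℕ := 2 * Nat.size (4 * n) + 2 +
  (2 * n * (2 * An n k) + (Ln n k + 2 * n * (2 * n * (An n k + 2 * Ln n k))))

def mkPar (n k l r : ℕ) : Par := (n, r, An n k, Tn n k, Qn n k l, Nat.size (4 * n), csn n k)

@[fun_prop] theorem pt_mkPar {α : Type} [Ctx Bool α] {n k l r : α → ℕ} (hn : PT Bool n) (hk : PT Bool k)
    (hl : PT Bool l) (hr : PT Bool r) : PT Bool fun a => mkPar (n a) (k a) (l a) (r a) := by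
  have h1 : PT Bool fun a => Rn (n a) := by unfold Rn; fun_prop
  have h2 : PT Bool fun a => Gn (n a) := by unfold Gn; fun_prop
  have h3 : PT Bool fun a => un (n a) (k a) := by unfold un; fun_prop
  have h4 : PT Bool fun a => An (n a) (k a) := by unfold An; fun_prop
  have h5 : PT Bool fun a => Ln (n a) (k a) := by unfold Ln; fun_prop
  have h6 : PT Bool fun a => Yn (n a) (k a) := by unfold Yn; fun_prop
  have h7 : PT Bool fun a => Tn (n a) (k a) := by unfold Tn; fun_prop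
  have h8 : PT Bool fun a => Jn (n a) (k a) := by unfold Jn; fun_prop
  have h9 : PT Bool fun a => Qn (n a) (k a) (l a) := by unfold Qn; fun_prop
  have h10 : PT Bool fun a => csn (n a) (k a) := by unfold csn; fun_prop
  have h11 : PT Bool fun a => Nat.size (4 * n a) := by fun_prop
  exact hn.pair (hr.pair (h4.pair (h7.pair (h9.pair (h11.pair h10)))))

variable {n k l r : ℕ}

theorem two_mul_le_pow (s : ℕ) : 2 * s ≤ 2 ^ s := by
  cases s with
  | zero => simp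
  | succ s => have := Nat.lt_two_pow_self (n := s); rw [pow_succ]; omega

theorem pow_size_le (x : ℕ) : 2 ^ Nat.size x ≤ 2 * x + 1 := by
  rcases h : Nat.size x with _ | j
  · simp
  · have : 2 ^ j ≤ x := Nat.lt_size.1 (by omega)
    rw [pow_succ]; omega

theorem cond_mkPar (hk : 1 ≤ k) (hr : r ≤ n) :
    Cond (mkPar n k l r) (1 / Yn n k) (1 / (4 * (Ln n k + 1) * Yn n k)) (1 / (4 * Yn n k))
      (1 / (8 * k * (Ln n k + 1))) := by
  have hG : 0 < Gn n := by unfold Gn; omega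
  have hR : 0 < Rn n := by unfold Rn; omega
  have hY : 0 < Yn n k := by unfold Yn; positivity
  have hu : 0 < un n k := by unfold un; positivity
  have hm : (mkPar n k l r).m = n + r := rfl
  have hL : (mkPar n k l r).L = Ln n k := rfl
  have hA : (mkPar n k l r).A = An n k := rfl
  have hκ : (mkPar n k l r).κ = Nat.size (4 * n) := rfl
  have hY' : (1 : ℝ) ≤ Yn n k := by exact_mod_cast hY
  have hk' : (1 : ℝ) ≤ k := by exact_mod_cast hk
  have hm' : ((mkPar n k l r).m : ℝ) ≤ 2 * n := by rw [hm]; exact_mod_cast (by omega : n + r ≤ 2 * n)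
  have hm0 : (0 : ℝ) ≤ (mkPar n k l r).m := Nat.cast_nonneg _
  have hRp : Rp (mkPar n k l r) ≤ Rn n := by
    unfold Rp Rn; push_cast; gcongr
  have hRp0 : 0 ≤ Rp (mkPar n k l r) := by unfold Rp; positivity
  have hGp : Gp (mkPar n k l r) ≤ Gn n := by
    unfold Gp Gn; push_cast; gcongr
  have hGp0 : 0 ≤ Gp (mkPar n k l r) := by unfold Gp; positivity
  have hL0 : (0 : ℝ) ≤ Ln n k := Nat.cast_nonneg _
  refine ⟨show 0 < Tn n k by unfold Tn; positivity, show 0 < Qn n k l by unfold Qn Jn; positivity,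
    show 0 < An n k by unfold An; omega, ?_, ?_, ?_, ?_, by positivity, ?_, ?_, by positivity, ?_, ?_⟩
  · have := Nat.lt_size_self (4 * n)
    rw [hm, hκ]; omega
  · rw [hm, hL, hA, hκ]
    change _ ≤ csn n k
    unfold csn
    gcongr <;> omega
  · have h1 : (2 : ℝ) ^ Nat.size (4 * n) ≤ 8 * n + 1 := by
      have := pow_size_le (4 * n)
      exact_mod_cast (by omega : 2 ^ Nat.size (4 * n) ≤ 8 * n + 1)
    have e : ((mkPar n k l r).T : ℝ) = (60 * Gn n * Rn n * (2 * n + 1) ^ 3 *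
        (4 * (Ln n k + 1) * Yn n k) * (2 * (8 * n + 1))) ^ 2 := by
      change (Tn n k : ℝ) = _
      unfold Tn; push_cast; ring
    rw [e, cP, hκ]
    calc _ ≤ (60 * Gn n * Rn n * (2 * n + 1) ^ 3 : ℝ) ^ 2 := by gcongr
      _ = (1 / (4 * (Ln n k + 1) * Yn n k)) ^ 2 * (1 / (2 * (8 * n + 1)) ^ 2) * (60 * Gn n * Rn n *
        (2 * n + 1) ^ 3 * (4 * (Ln n k + 1) * Yn n k) * (2 * (8 * n + 1))) ^ 2 := by field_simp
      _ ≤ _ := by gcongr
  · rw [hm, hA, div_mul_eq_mul_div, le_div_iff₀ (by positivity), one_mul]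
    have h1 := two_mul_le_pow (un n k + 4 * n)
    have h2 : un n k ≤ 2 ^ un n k := Nat.lt_two_pow_self.le
    have h3 : 2 * n + 1 ≤ 2 ^ (2 * n) := Nat.lt_two_pow_self
    have h4 : 2 ^ (n + r) ≤ 2 ^ (2 * n) := Nat.pow_le_pow_right (by norm_num) (by omega)
    have h5 : Ln n k + 1 ≤ An n k * (2 * n + 1) := by
      have : 0 < An n k := by unfold An; omega
      unfold Ln; nlinarith
    have h6 : 2 ^ (n + r) * (4 * Yn n k) ≤ 2 ^ An n k := by
      calc 2 ^ (n + r) * (4 * Yn n k) = 2 ^ (n + r) * (un n k * (Ln n k + 1)) := by unfold Yn un; ring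
        _ ≤ 2 ^ (2 * n) * (2 ^ un n k * (2 ^ (un n k + 4 * n) * 2 ^ (2 * n))) := by
          gcongr
          exact h5.trans (Nat.mul_le_mul h1 h3)
        _ = _ := by simp only [← pow_add]; congr 1; unfold An; ring
    exact_mod_cast h6
  · rw [div_le_one (by positivity)]; linarith
  · rw [hL]; refine le_of_eq ?_; field_simp; ring
  · refine (mul_le_mul_of_nonneg_left hGp (by positivity)).trans (le_of_eq ?_)
    have : (0 : ℝ) < Gn n := by exact_mod_cast hG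
    unfold Yn; push_cast; field_simp
  · rw [div_le_div_iff₀ (by positivity) (by norm_num)]; nlinarith

theorem fail_le (hk : 1 ≤ k) (hr : r ≤ n) :
    (((mkPar n k l r).L : ℝ) + 1) * ((((mkPar n k l r).m : ℝ) ^ 2 + 2) * 2) *
      Real.exp (-((mkPar n k l r).Q * (1 / Yn n k) ^ 2 / 16)) ≤ 1 / 2 ^ l := by
  have hG : 0 < Gn n := by unfold Gn; omega
  have hY : (0 : ℝ) < Yn n k := by unfold Yn; positivity
  have hm' : ((mkPar n k l r).m : ℝ) ≤ 2 * n := by
    change ((n + r : ℕ) : ℝ) ≤ _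
    exact_mod_cast (by omega : n + r ≤ 2 * n)
  have e : ((mkPar n k l r).Q : ℝ) * (1 / Yn n k) ^ 2 / 16 = l + Jn n k := by
    change (Qn n k l : ℝ) * _ / 16 = _
    unfold Qn; push_cast; field_simp
  have h1 : (((mkPar n k l r).L : ℝ) + 1) * ((((mkPar n k l r).m : ℝ) ^ 2 + 2) * 2) ≤ Jn n k := by
    change ((Ln n k : ℝ) + 1) * _ ≤ _
    unfold Jn; push_cast; gcongr
  have h2 : (Jn n k : ℝ) ≤ Real.exp (Jn n k) := by linarith [Real.add_one_le_exp (Jn n k : ℝ)]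
  have h3 : (2 : ℝ) ^ l ≤ Real.exp l := by
    rw [← mul_one (l : ℝ), Real.exp_nat_mul]
    gcongr
    linarith [Real.add_one_le_exp 1]
  rw [e, Real.exp_neg, Real.exp_add, ← div_eq_mul_inv, div_le_div_iff₀ (by positivity) (by positivity)]
  nlinarith [mul_le_mul (h1.trans h2) h3 (by positivity) (by positivity)]

theorem c1_le (hk : 1 ≤ k) (L : ℕ) : (1 + 4 * (1 / (8 * k * (L + 1))) : ℝ) ^ (L + 1) ≤ 1 + 1 / k := by
  have hk' : (1 : ℝ) ≤ k := by exact_mod_cast hk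
  have h1 : (1 + 4 * (1 / (8 * k * (L + 1))) : ℝ) ^ (L + 1) ≤ Real.exp (4 * (1 / (8 * k * (L + 1)))) ^ (L + 1) := by
    gcongr
    linarith [Real.add_one_le_exp (4 * (1 / (8 * k * (L + 1))) : ℝ)]
  rw [← Real.exp_nat_mul] at h1
  have e : ((L + 1 : ℕ) : ℝ) * (4 * (1 / (8 * k * (L + 1)))) = 1 / k / 2 := by push_cast; field_simp; ring
  rw [e] at h1
  have h2 : (0 : ℝ) < 1 / k := by positivity
  have h3 : (1 : ℝ) / k ≤ 1 := by rw [div_le_one (by positivity)]; exact hk'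
  have := (abs_le.1 (Real.abs_exp_sub_one_sub_id_le (x := 1 / k / 2) (by rw [abs_le]; constructor <;> linarith))).2
  nlinarith

theorem c2_le (hk : 1 ≤ k) : (1 - 1 / k : ℝ) * (1 + 1 / (4 * Yn n k)) ≤
    (1 - 3 * (1 / (8 * k * (Ln n k + 1)))) ^ (Ln n k + 1) := by
  have hk' : (1 : ℝ) ≤ k := by exact_mod_cast hk
  have hL0 : (0 : ℝ) ≤ Ln n k := Nat.cast_nonneg _
  have h0 : (1 : ℝ) / (8 * k * (Ln n k + 1)) ≤ 1 / 8 := by
    rw [div_le_div_iff₀ (by positivity) (by norm_num)]; nlinarith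
  have := one_add_mul_le_pow (a := -(3 * (1 / (8 * k * (Ln n k + 1)))) ) (R := ℝ) (by linarith) (Ln n k + 1)
  have e : ((Ln n k + 1 : ℕ) : ℝ) * -(3 * (1 / (8 * k * (Ln n k + 1)))) = -(3 / 8 * (1 / k)) := by
    push_cast; field_simp
  rw [e, ← sub_eq_add_neg, ← sub_eq_add_neg] at this
  refine le_trans ?_ this
  have hG : 1 ≤ Gn n := by unfold Gn; omega
  have h1 : k ≤ Yn n k := by
    unfold Yn
    calc k = k * 1 * 1 := by ring
      _ ≤ 8 * k * (Ln n k + 1) * Gn n := by gcongr <;> omega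
  have h2 : (1 : ℝ) / (4 * Yn n k) ≤ 1 / 4 * (1 / k) := by
    have : (k : ℝ) ≤ Yn n k := by exact_mod_cast h1
    rw [one_div_mul_one_div]
    gcongr
  have h3 : (0 : ℝ) < 1 / k := by positivity
  have h4 : (0 : ℝ) ≤ 1 / (4 * Yn n k) := by positivity
  nlinarith

end Vale.Agent.P317
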