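import Vale.Agent.P317.Mtr
import Vale.Agent.P317.Params

/-! The oracle machine and its runs. -/

namespace Vale.Agent.P317

open Finset Vale.Agent.PT

def rk (n : ℕ) (ans : List Bool) : ℕ := sumR n fun i => b2n (bit ans (2 * i))

def zR (z : List Bool) : List Bool := (rest (rest (rest (rest z)))).take (lead (rest (rest (rest z))))

def zA (z : List Bool) : List Bool := (rest (rest (rest (rest z)))).drop (lead (rest (rest (rest z))))

def zP (z : List Bool) : Par := mkPar (lead z) (lead (rest z)) (lead (rest (rest z))) (rk (lead z) (zA z))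

def askF (z : List Bool) : List Bool := askP (zP z) (zR z) (zA z)

def numF (z : List Bool) : List Bool := numH (zP z) (blk (zP z) (trj (zP z) (zR z) (zA z) (tot (zP z))))

def denF (z : List Bool) : List Bool := denH (zP z) (blk (zP z) (trj (zP z) (zR z) (zA z) (tot (zP z))))

theorem pt_zR : PT Bool zR := by unfold zR; fun_prop

theorem pt_zA : PT Bool zA := by unfold zA; fun_prop

theorem pt_zP : PT Bool zP := by
  have := pt_zA
  unfold zP rk; fun_prop

theorem poly_ask : PolyTime askF :=
  PT.toTM2 id id askF (pt_askP pt_zP pt_zR pt_zA) fun _ => rfl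

theorem poly_num : PolyTime numF := by
  have h1 := pt_zP
  have h2 := pt_zR
  have h3 := pt_zA
  exact PT.toTM2 id id numF (Φ := numF) (by unfold numF; fun_prop) fun _ => rfl

theorem poly_den : PolyTime denF := by
  have h1 := pt_zP
  have h2 := pt_zR
  have h3 := pt_zA
  exact PT.toTM2 id id denF (Φ := denF) (by unfold denF; fun_prop) fun _ => rfl

theorem mkPar_n (n k l r : ℕ) : (mkPar n k l r).n = n := rfl

variable {n k l : ℕ} {ρ : List Bool}

theorem zR_eq (ans : List Bool) : zR (input n k l ρ ++ ans) = ρ := by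
  simp [zR, input, List.append_assoc, rest_unary, lead_unary]

theorem zA_eq (ans : List Bool) : zA (input n k l ρ ++ ans) = ans := by
  simp [zA, input, List.append_assoc, rest_unary, lead_unary]

theorem zP_eq (ans : List Bool) : zP (input n k l ρ ++ ans) = mkPar n k l (rk n ans) := by
  rw [zP, zA_eq]
  simp [input, List.append_assoc, rest_unary, lead_unary]

section ans

variable (M₁ M₂ : Matroid (Fin n)) (ask : List Bool → List Bool) (x : List Bool)

theorem length_answers (t : ℕ) : (answers M₁ M₂ ask x t).length = 2 * t := by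
  induction t with
  | zero => rfl
  | succ t ih => simp [answers, ih]; ring

theorem bit_answers {t t' i : ℕ} (h : t ≤ t') (hi : i < 2 * t) :
    bit (answers M₁ M₂ ask x t') i = bit (answers M₁ M₂ ask x t) i := by
  induction t', h using Nat.le_induction with
  | base => rfl
  | succ t' h ih => rw [answers, bit_append_left _ (by rw [length_answers]; omega), ih]

theorem bit_answers0 {t t' : ℕ} (h : t < t') : bit (answers M₁ M₂ ask x t') (2 * t) = true ↔
    M₁.Indep (subsetOf n (ask (x ++ answers M₁ M₂ ask x t))) := by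
  rw [bit_answers M₁ M₂ ask x (t := t + 1) h (by omega), answers]
  simp [bit, List.getElem?_append_right, length_answers]

theorem bit_answers1 {t t' : ℕ} (h : t < t') : bit (answers M₁ M₂ ask x t') (2 * t + 1) = true ↔
    M₂.Indep (subsetOf n ((ask (x ++ answers M₁ M₂ ask x t)).drop n)) := by
  rw [bit_answers M₁ M₂ ask x (t := t + 1) h (by omega), answers]
  simp [bit, List.getElem?_append_right, length_answers]

end ans

variable (M₁ M₂ : Matroid (Fin n))

theorem ask_eq (ans : List Bool) : askF (input n k l ρ ++ ans) = askP (mkPar n k l (rk n ans)) ρ ans := by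
  rw [askF, zP_eq, zR_eq, zA_eq]

theorem rk_eq (hE : M₁.E = Set.univ) {t : ℕ} (ht : n ≤ t) :
    M₁.eRank = rk n (answers M₁ M₂ askF (input n k l ρ) t) := by
  set a := answers M₁ M₂ askF (input n k l ρ) with ha
  let S : ℕ → Set (Fin n) := fun j => {i | i.val < j ∧ bit (a t) (2 * i) = true}
  have main : ∀ j ≤ n, M₁.Indep (S j) ∧ ∀ i : Fin n, i.val < j → i ∉ S j → ¬ M₁.Indep (insert i (S j)) := by
    intro j hj
    induction j with
    | zero =>
      have : S 0 = ∅ := by ext i; simp [S]
      exact ⟨this ▸ M₁.empty_indep, fun i h => absurd h (by omega)⟩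
    | succ j ih =>
      obtain ⟨i1, i2⟩ := ih (by omega)
      have hb := bit_answers0 M₁ M₂ askF (input n k l ρ) (t := j) (t' := t) (by omega)
      have e : subsetOf n (askF (input n k l ρ ++ a j)) = insert ⟨j, hj⟩ (S j) := by
        rw [ask_eq, askP, ha, length_answers, Nat.mul_div_cancel_left _ (by norm_num),
          cond_ite (P := n ≤ j) (by simp; rfl), if_neg (by omega)]
        ext i
        change bit (greedy n _ _) _ = true ↔ _
        rw [greedy, bit_mapR _ i.2]
        simp only [Bool.or_eq_true, Nat.beq_eq, Bool.and_eq_true, Nat.ble_eq, Set.mem_insert_iff,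
          Fin.ext_iff, S, Set.mem_setOf_eq]
        refine or_congr_right (and_congr_right fun h => ?_)
        rw [ha, bit_answers M₁ M₂ askF _ (t := j) (t' := t) (by omega) (by omega)]
      rw [← ha, e] at hb
      by_cases h : bit (a t) (2 * j) = true
      · have e2 : S (j + 1) = insert ⟨j, hj⟩ (S j) := by
          ext i
          simp only [S, Set.mem_setOf_eq, Set.mem_insert_iff, Fin.ext_iff]
          constructor
          · rintro ⟨h1, h2⟩
            by_cases h3 : i.val = j
            · exact Or.inl h3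
            · exact Or.inr ⟨by omega, h2⟩
          · rintro (h1 | ⟨h1, h2⟩)
            · exact ⟨by omega, h1 ▸ h⟩
            · exact ⟨by omega, h2⟩
        rw [e2]
        refine ⟨hb.1 h, fun i h1 h2 h3 => ?_⟩
        simp only [Set.mem_insert_iff, Fin.ext_iff, not_or] at h2
        exact i2 i (by omega) h2.2 (h3.subset (Set.insert_subset_insert (Set.subset_insert _ _)))
      · have e2 : S (j + 1) = S j := by
          ext i
          simp only [S, Set.mem_setOf_eq]
          constructor
          · rintro ⟨h1, h2⟩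
            refine ⟨lt_of_le_of_ne (by omega) fun h3 => h (h3 ▸ h2), h2⟩
          · rintro ⟨h1, h2⟩
            exact ⟨by omega, h2⟩
        rw [e2]
        refine ⟨i1, fun i h1 h2 h3 => ?_⟩
        by_cases h4 : i.val = j
        · exact h (hb.2 ((show i = ⟨j, hj⟩ from Fin.ext h4) ▸ h3))
        · exact i2 i (by omega) h2 h3
  obtain ⟨h1, h2⟩ := main n le_rfl
  have hB := h1.isBase_of_forall_insert fun e he => h2 e e.2 he.2
  rw [← hB.encard_eq_eRank]
  have : S n = ((univ.filter fun i : Fin n => bit (a t) (2 * i) = true : Finset (Fin n)) : Set (Fin n)) := by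
    ext i; simp [S]
  rw [this, Set.encard_coe_eq_coe_finsetCard, rk, sumR_fin, card_filter]
  congr 1
  exact sum_congr rfl fun i _ => (cond_ite Iff.rfl _ _).symm

theorem blk_trj (hE : M₁.E = Set.univ) {r : ℕ} (hr : M₁.eRank = r) (g : ℕ) : ∀ t, n + g ≤ t →
    blk (mkPar n k l r) (trj (mkPar n k l r) ρ (answers M₁ M₂ askF (input n k l ρ) t) g) =
      proc (mkPar n k l r).cs (fun _ => []) (st (fxOf (mkPar_n n k l r) M₁) (fxOf (mkPar_n n k l r) M₂)) ρ g := by
  induction g with
  | zero => intro t _; funext i; simp [trj, blk, proc]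
  | succ g ih =>
    intro t ht
    rw [trj, blk_append _ _ g (length_trj _ _ _ _) (by simp [move]), ih t (by omega), proc, st]
    congr 2
    have e : rk n (answers M₁ M₂ askF (input n k l ρ) (n + g)) = r := by
      have := rk_eq (k := k) (l := l) (ρ := ρ) M₁ M₂ hE (t := n + g) (by omega)
      rw [hr] at this
      exact_mod_cast this.symm
    have h0 := bit_answers0 M₁ M₂ askF (input n k l ρ) (t := n + g) (t' := t) (by omega)
    have h1 := bit_answers1 M₁ M₂ askF (input n k l ρ) (t := n + g) (t' := t) (by omega)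
    rw [ask_eq, e, askP, length_answers, Nat.mul_div_cancel_left _ (by norm_num),
      cond_ite (P := n ≤ n + g) (by simp; exact Nat.le_add_right _ _), if_pos (by omega),
      show n + g - (mkPar n k l r).n = g from Nat.add_sub_cancel_left .., ih _ le_rfl] at h0 h1
    rw [sub_qry1 (mkPar_n n k l r)] at h0
    rw [sub_qry2 (mkPar_n n k l r)] at h1
    rw [Bool.eq_iff_iff, Bool.and_eq_true, orc]
    simp only [decide_eq_true_eq]
    exact and_congr h0 h1

theorem exists_poly : ∃ P : Polynomial ℕ, ∀ n k l r : ℕ,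
    n + tot (mkPar n k l r) ≤ P.eval (n + k + l) ∧
      tot (mkPar n k l r) * (mkPar n k l r).cs ≤ P.eval (n + k + l) := by
  have : PT Bool fun a : ℕ × ℕ × ℕ => a.1 + tot (mkPar a.1 a.2.1 a.2.2 0) +
      tot (mkPar a.1 a.2.1 a.2.2 0) * (mkPar a.1 a.2.1 a.2.2 0).cs := by fun_prop
  obtain ⟨c, d, h⟩ := this.pb
  refine ⟨Polynomial.C c * (Polynomial.X + 1) ^ d, fun n k l r => ?_⟩
  have h1 := h (n, k, l)
  simp only [size_prod, size_nat] at h1
  simp only [Polynomial.eval_mul, Polynomial.eval_C, Polynomial.eval_pow, Polynomial.eval_add,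
    Polynomial.eval_X, Polynomial.eval_one, add_assoc n k l]
  change n + tot (mkPar n k l 0) ≤ _ ∧ tot (mkPar n k l 0) * (mkPar n k l 0).cs ≤ _
  omega

theorem approx_of_Gd (hE : M₁.E = Set.univ) (hM : M₁.eRank = M₂.eRank) {r : ℕ} (hr : M₁.eRank = r)
    (hrn : r ≤ n) (hk : 1 ≤ k) {t : ℕ} (ht : n + tot (mkPar n k l r) ≤ t) {ε : ℚ} (hε : 1 / (k : ℚ) ≤ ε)
    (hG : Gd (fxOf (mkPar_n n k l r) M₁) (fxOf (mkPar_n n k l r) M₂) (1 / Yn n k)
      (proc (mkPar n k l r).cs (fun _ => []) (st (fxOf (mkPar_n n k l r) M₁) (fxOf (mkPar_n n k l r) M₂)) ρ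
        (tot (mkPar n k l r))) ((mkPar n k l r).L + 1)) :
    Approx ε (commonBases M₁ M₂) (numF (input n k l ρ ++ answers M₁ M₂ askF (input n k l ρ) t))
      (denF (input n k l ρ ++ answers M₁ M₂ askF (input n k l ρ) t)) := by
  have C := cond_mkPar (l := l) hk hrn
  have e : rk n (answers M₁ M₂ askF (input n k l ρ) t) = r := by
    have := rk_eq (k := k) (l := l) (ρ := ρ) M₁ M₂ hE (t := t) (by omega)
    rw [hr] at this
    exact_mod_cast this.symm
  have hk' : (1 : ℝ) ≤ k := by exact_mod_cast hk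
  obtain ⟨a1, a2, a3⟩ := C.acc hG (fun q hq => val_proc _ _ _ _ (by
    have hB := C.B0
    have : ((mkPar n k l r).L * (mkPar n k l r).Q + q + 1) * (mkPar n k l r).B ≤ tot (mkPar n k l r) :=
      Nat.mul_le_mul_right _ (by rw [Nat.succ_mul]; omega)
    rw [Nat.succ_mul] at this
    omega)) (ε := 1 / k) (by rw [div_le_one (by positivity)]; exact hk') (c1_le hk _) (c2_le hk)
  rw [card_pureB (mkPar_n n k l r) M₁ M₂ hr (hM ▸ hr)] at a2 a3
  rw [numF, denF, zP_eq, zR_eq, zA_eq, e, blk_trj M₁ M₂ hE hr _ t ht, numH, denH, Approx,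
    binVal_prodB, binVal_prodB, binVal_pow, show binVal [true] = 1 from rfl, one_mul]
  have hε' : (1 : ℝ) / k ≤ ε := by simpa using (Rat.cast_le (K := ℝ)).2 hε
  generalize ∏ t ∈ range ((mkPar n k l r).L + 1), numf _ _ t = a at a2 a3 ⊢
  generalize ∏ t ∈ range ((mkPar n k l r).L + 1), cntT _ _ t = b at a1 a2 a3 ⊢
  have hN : (0 : ℝ) ≤ commonBases M₁ M₂ := Nat.cast_nonneg _
  refine ⟨by positivity, ?_, ?_⟩
  · have := (mul_le_mul_of_nonneg_right (show (1 - ε : ℝ) ≤ 1 - 1 / k by linarith) hN).trans a2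
    exact (Rat.cast_le (K := ℝ)).1 (by simpa using this)
  · have := a3.trans (mul_le_mul_of_nonneg_right (show (1 + 1 / k : ℝ) ≤ 1 + ε by linarith) hN)
    exact (Rat.cast_le (K := ℝ)).1 (by simpa using this)

theorem fpras : ∃ P : Polynomial ℕ, ∀ (n : ℕ) (M₁ M₂ : Matroid (Fin n)), M₁.E = Set.univ →
    M₁.eRank = M₂.eRank → ∀ (k l : ℕ) (ε : ℚ), 1 ≤ k → 1 / (k : ℚ) ≤ ε →
    (1 - 1 / 2 ^ l : ℝ) * 2 ^ P.eval (n + k + l) ≤
      {ρ : Fin (P.eval (n + k + l)) → Bool | Approx ε (commonBases M₁ M₂)
        (numF (input n k l (List.ofFn ρ) ++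
          answers M₁ M₂ askF (input n k l (List.ofFn ρ)) (P.eval (n + k + l))))
        (denF (input n k l (List.ofFn ρ) ++
          answers M₁ M₂ askF (input n k l (List.ofFn ρ)) (P.eval (n + k + l))))}.ncard := by
  classical
  obtain ⟨P, hP⟩ := exists_poly
  refine ⟨P, fun n M₁ M₂ hE hM k l ε hk hε => ?_⟩
  have hr := rk_eq (k := 0) (l := 0) (ρ := []) M₁ M₂ hE (t := n) le_rfl
  have hrn : rk n (answers M₁ M₂ askF (input n 0 0 []) n) ≤ n := by
    simpa [rk, sumR] using sum_le_card_nsmul (range n) _ 1 fun s _ => b2n_le _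
  generalize rk n (answers M₁ M₂ askF (input n 0 0 []) n) = r at hr hrn
  obtain ⟨h1, h2⟩ := hP n k l r
  set m := P.eval (n + k + l)
  have C := cond_mkPar (l := l) hk hrn
  have f := (C.fail (X := fxOf (mkPar_n n k l r) M₁) (Y := fxOf (mkPar_n n k l r) M₂) (fun _ => []) le_rfl).trans
    (fail_le hk hrn)
  rw [← Ex_Et _ _ _ _ m h2] at f
  have f2 := mul_le_mul_of_nonneg_right f (show (0 : ℝ) ≤ 2 ^ m by positivity)
  rw [Ex_eq_sum] at f2
  rw [Set.ncard_eq_toFinset_card', Set.toFinset_setOf, card_filter]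
  push_cast
  have : (2 : ℝ) ^ m = ∑ ρ : Fin m → Bool, 1 := by simp
  rw [sub_mul, one_mul, sub_le_iff_le_add]
  refine le_trans ?_ (add_le_add_right f2 _)
  rw [← sum_add_distrib, this]
  refine sum_le_sum fun ρ _ => ?_
  split_ifs with a1 a2 a2
  · simp
  · simp
  · exact absurd (approx_of_Gd M₁ M₂ hE hM hr hrn hk h1 hε a2) a1
  · simp

end Vale.Agent.P317
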