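import Vale.Agent.P317.Algo
import Vale.Agent.P317.Init

/-! Semantics of one move of the algorithm. -/

namespace Vale.Agent.P317

open Finset

variable (p : Par)

def toSt (l : List Bool) : Finset (Fin p.m × Bool) :=
  univ.filter fun v => bit l (2 * v.1.val + b2n v.2) = true

def Cp : Finset (Fin p.m) := univ.filter fun g => p.n ≤ g.val

variable {p}

theorem mem_toSt {l : List Bool} {v : Fin p.m × Bool} :
    v ∈ toSt p l ↔ bit l (2 * v.1.val + b2n v.2) = true := by simp [toSt]

theorem mem_toSt0 {l : List Bool} {g : Fin p.m} : (g, false) ∈ toSt p l ↔ bit l (2 * g.val) = true :=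
  mem_toSt

theorem mem_toSt1 {l : List Bool} {g : Fin p.m} : (g, true) ∈ toSt p l ↔ bit l (2 * g.val + 1) = true :=
  mem_toSt

theorem mem_Cp {g : Fin p.m} : g ∈ Cp p ↔ p.n ≤ g.val := by simp [Cp]

theorem card_Cp : (Cp p).card = p.r := by
  have : (Cp p).card = (Ico p.n p.m).card := by
    refine card_bij (fun g _ => g.val) ?_ ?_ ?_
    · intro g hg; exact mem_Ico.2 ⟨mem_Cp.1 hg, g.2⟩
    · intro g _ g' _ h; exact Fin.ext h
    · intro x hx; exact ⟨⟨x, (mem_Ico.1 hx).2⟩, mem_Cp.2 (mem_Ico.1 hx).1, rfl⟩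
  rw [this, Nat.card_Ico, Par.m]; omega

theorem xor_iff (a b : Bool) : xor a b = true ↔ (a = true ↔ ¬ b = true) := by
  cases a <;> cases b <;> simp

theorem isT_iff {l : List Bool} : isT p l = true ↔ toSt p l ∈ trans univ := by
  simp only [isT, allR_iff, mem_trans, mem_univ, true_imp_iff, not_true, false_imp_iff, and_true,
    mem_toSt0, mem_toSt1, xor_iff, Fin.forall_iff]

theorem isN_iff {l : List Bool} {i j : Fin p.m} : isN p l i j = true ↔ toSt p l ∈ Nset i j := by
  simp only [isN, allR_iff, mem_Nset, mem_toSt0, mem_toSt1, Bool.and_eq_true, Bool.not_eq_true',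
    Bool.or_eq_true, Nat.beq_eq, xor_iff, Fin.forall_iff, Bool.not_eq_true, ne_eq, Fin.ext_iff]
  refine and_congr_right fun _ => and_congr_right fun _ => and_congr_right fun _ =>
    and_congr_right fun _ => forall_congr' fun g => forall_congr' fun _ => ?_
  tauto

theorem sumR_fin (m : ℕ) (f : ℕ → ℕ) : sumR m f = ∑ g : Fin m, f g := sum_range f

theorem cond_ite {β : Type} {b : Bool} {P : Prop} [Decidable P] (h : b = true ↔ P) (x y : β) :
    cond b x y = if P then x else y := by
  cases b <;> simp_all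

variable (p)

def kf (t : ℕ) : Fin p.m → ℕ := fun g => fld p t g

noncomputable def hf (H : ℕ → List Bool) (t : ℕ) : Fin p.m → Fin p.m → ℝ :=
  fun i j => 2 ^ aexp p H t i j / 2 ^ p.L

def ex (H : ℕ → List Bool) (t : ℕ) (I : Finset (Fin p.m × Bool)) : ℕ :=
  fe (kf p t) I + ((if I ∈ trans univ then p.L else 0) +
    ∑ i, ∑ j, if I ∈ Nset i j then aexp p H t i j else 0)

theorem expo_eq (H : ℕ → List Bool) (t : ℕ) (l : List Bool) : expo p H t l = ex p H t (toSt p l) := by
  simp only [expo, ex, sumR_fin, cond_ite isT_iff, cond_ite isN_iff, cond_ite mem_toSt0.symm, fe, sl,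
    sum_filter, kf]

variable {p} (X Y : Fx (Cp p))

def Vld (I : Finset (Fin p.m × Bool)) : Prop := Val X Y I ∧ (I ∈ trans univ ∨ ∃ i j, I ∈ Nset i j)

open Classical in
noncomputable def accp (H : ℕ → List Bool) (t : ℕ) (I J : Finset (Fin p.m × Bool)) : ℝ :=
  if Vld X Y J then 1 / 2 ^ (ex p H t I - ex p H t J) else 0

open Classical in
theorem Wk_eq (H : ℕ → List Bool) (t : ℕ) (I : Finset (Fin p.m × Bool)) :
    Wk X Y (kf p t) (hf p H t) I = if Vld X Y I then 2 ^ ex p H t I / 2 ^ p.L else 0 := by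
  simp only [Wk, wt, ex]
  by_cases hv : Val X Y I
  swap
  · simp [hv, Vld]
  rcases type_cases I with h1 | ⟨i, j, h1⟩ | ⟨h1, h2⟩
  · have : ∀ i j, I ∉ Nset i j := fun i j h => not_T_of_N h h1
    simp [tau_T _ h1, hv, h1, this, pow_add, Vld]
  · rw [tau_N _ h1, if_pos hv, if_pos (show Vld X Y I from ⟨hv, Or.inr ⟨i, j, h1⟩⟩),
      if_neg (not_T_of_N h1),
      sum_ite_N (fun i j : Fin p.m => aexp p H t i j) h1, hf, zero_add, pow_add, mul_div_assoc]
  · rw [tau_O _ h1 h2]; simp [h1, h2, Vld]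

noncomputable def cP (p : Par) : ℝ := 1 / (2 * 2 ^ p.κ) ^ 2

theorem metro (hκ : 2 * p.m ≤ 2 ^ p.κ) (H : ℕ → List Bool) (t : ℕ) :
    Metro (Wk X Y (kf p t) (hf p H t)) (cP p) (accp X Y H t) := by
  refine ⟨fun I => Wk_nonneg (fun i j => by unfold hf; positivity) I, by unfold cP; positivity, ?_,
    fun I J => by unfold accp; split_ifs <;> positivity, fun I J => ?_, fun I J => ?_⟩
  · have h : (2 * p.m : ℝ) ≤ 2 ^ p.κ := by exact_mod_cast hκ
    simp only [cP, Fintype.card_prod, Fintype.card_fin, Fintype.card_bool, Nat.cast_mul, Nat.cast_ofNat]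
    rw [div_mul_eq_mul_div, div_le_iff₀ (by positivity)]
    have : (0 : ℝ) ≤ p.m := Nat.cast_nonneg _
    nlinarith
  · unfold accp
    split_ifs
    · rw [div_le_one (by positivity)]; exact one_le_pow₀ (by norm_num)
    · norm_num
  · simp only [Wk_eq, accp]
    split_ifs with h1 h2 h2
    · rcases le_total (ex p H t I) (ex p H t J) with h | h
      · rw [Nat.sub_eq_zero_of_le h, min_eq_left (by gcongr; norm_num)]; simp
      · obtain ⟨d, hd⟩ := Nat.exists_eq_add_of_le h
        rw [min_eq_right (by gcongr; norm_num), hd, Nat.add_sub_cancel_left, pow_add]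
        field_simp
    · rw [min_eq_right (by positivity), mul_zero]
    · rw [min_eq_left (by positivity), zero_mul]
    · simp

open Classical in
/-- the oracle answer for a proposed move -/
noncomputable def orc (l c : List Bool) : Bool :=
  decide (X.J (sl false (toSt p (prop p l c))) ∧ Y.J (sl true (toSt p (prop p l c)))ᶜ)

theorem toSt_mapR (l : List Bool) : toSt p (mapR (2 * p.m) fun v => bit l v) = toSt p l := by
  ext ⟨g, b⟩
  rw [mem_toSt, mem_toSt, bit_mapR]
  have := g.2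
  cases b <;> simp only [b2n, cond_true, cond_false] <;> omega

theorem toSt_prop (l c : List Bool) {u v : Fin p.m} (hu : gp p c = u) (hv : gs p c = v) :
    toSt p (prop p l c) = swp (toSt p l) (u, bit c p.κ) (v, bit c (2 * p.κ + 1)) := by
  ext ⟨g, b⟩
  have := g.2
  rw [mem_toSt, prop, bit_mapR _ (by cases b <;> simp only [b2n, cond_true, cond_false] <;> omega)]
  simp only [ixs, ixp, hu, hv, swp, mem_insert, mem_erase, mem_toSt, Bool.or_eq_true, Nat.beq_eq,
    Bool.and_eq_true, Bool.not_eq_true', Prod.mk.injEq, Fin.ext_iff, ne_eq]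
  have e : ∀ (x y : ℕ) (b b' : Bool), 2 * x + b2n b = 2 * y + b2n b' ↔ x = y ∧ b = b' := by
    intro x y b b'
    cases b <;> cases b' <;> simp [b2n] <;> omega
  rw [e, ← Bool.not_eq_true, Nat.beq_eq, e]

theorem vld_iff (l c : List Bool) : (orc X Y l c && (szs p (prop p l c) && typ p (prop p l c))) = true ↔
    Vld X Y (toSt p (prop p l c)) := by
  have e1 : (sl false (toSt p (prop p l c))).card = sumR p.m fun g => b2n (bit (prop p l c) (2 * g)) := by
    rw [sumR_fin, sl, card_filter]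
    exact sum_congr rfl fun g _ => (cond_ite mem_toSt0.symm _ _).symm
  have e2 : ((sl true (toSt p (prop p l c)))ᶜ).card =
      sumR p.m fun g => b2n (!bit (prop p l c) (2 * g + 1)) := by
    rw [sumR_fin, sl, compl_filter, card_filter]
    exact sum_congr rfl fun g _ => (cond_ite (by simp [mem_toSt1]) _ _).symm
  have e3 : typ p (prop p l c) = true ↔
      toSt p (prop p l c) ∈ trans univ ∨ ∃ i j, toSt p (prop p l c) ∈ Nset i j := by
    simp only [typ, Bool.or_eq_true, isT_iff, Bool.not_eq_true', ← Bool.not_eq_true, allR_iff, ← isN_iff]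
    refine or_congr_right ?_
    push Not
    simp only [Fin.exists_iff, Bool.not_eq_true', ne_eq, Bool.not_eq_false, exists_prop]
  simp only [orc, szs, Vld, Val, Bool.and_eq_true, decide_eq_true_eq, Nat.beq_eq, e1, e2, e3, card_Cp]
  exact ⟨fun ⟨⟨a, b⟩, ⟨c, d⟩, e⟩ => ⟨⟨a, c, b, d⟩, e⟩, fun ⟨⟨a, c, b, d⟩, e⟩ => ⟨⟨a, b⟩, ⟨c, d⟩, e⟩⟩

open Classical in
noncomputable def mv (H : ℕ → List Bool) (t : ℕ) (I : Finset (Fin p.m × Bool)) (u : ℕ) (b : Bool)
    (v : ℕ) (b' : Bool) (z : List Bool) : Finset (Fin p.m × Bool) :=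
  if h : u < p.m ∧ v < p.m then
    if ((⟨u, h.1⟩, b) ∈ I ∧ (⟨v, h.2⟩, b') ∉ I) ∧ Vld X Y (swp I (⟨u, h.1⟩, b) (⟨v, h.2⟩, b')) ∧
      ∀ i < ex p H t I - ex p H t (swp I (⟨u, h.1⟩, b) (⟨v, h.2⟩, b')), bit z i = true
    then swp I (⟨u, h.1⟩, b) (⟨v, h.2⟩, b') else I
  else I

theorem toSt_move (H : ℕ → List Bool) (t : ℕ) (l c : List Bool) :
    toSt p (move p H t l c (orc X Y l c)) = mv X Y H t (toSt p l) (valU (c.take p.κ)) (bit c p.κ)
      (valU ((c.drop (p.κ + 1)).take p.κ)) (bit (c.drop (p.κ + 1)) p.κ)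
      ((c.drop (p.κ + 1)).drop (p.κ + 1)) := by
  have e1 : bit (c.drop (p.κ + 1)) p.κ = bit c (2 * p.κ + 1) := by
    simp only [bit, List.getD_eq_getElem?_getD, List.getElem?_drop]; congr 2; ring
  have e2 : (c.drop (p.κ + 1)).drop (p.κ + 1) = c.drop (2 * p.κ + 2) := by
    rw [List.drop_drop]; congr 1; ring
  rw [move, toSt_mapR, e1, e2, mv]
  have g1 : gp p c = min (valU (c.take p.κ)) p.m := valB_eq _ _
  have g2 : gs p c = min (valU ((c.drop (p.κ + 1)).take p.κ)) p.m := valB_eq _ _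
  split_ifs with h h2
  · have hu : gp p c = (⟨_, h.1⟩ : Fin p.m) := by rw [g1]; exact min_eq_left h.1.le
    have hv : gs p c = (⟨_, h.2⟩ : Fin p.m) := by rw [g2]; exact min_eq_left h.2.le
    have hp := toSt_prop l c hu hv
    rw [← hp] at h2 ⊢
    have : okm p H t l c (orc X Y l c) = true := by
      simp only [okm, Bool.and_eq_true (_ && _), vld_iff, allR_iff, expo_eq]
      refine ⟨?_, h2.2⟩
      simp only [mem_toSt] at h2
      simp only [ixp, ixs, hu, hv, Bool.and_eq_true, Nat.ble_eq, Bool.not_eq_true', ← Bool.not_eq_true]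
      exact ⟨h.1, h.2, h2.1⟩
    rw [this, cond_true]
  · have hu : gp p c = (⟨_, h.1⟩ : Fin p.m) := by rw [g1]; exact min_eq_left h.1.le
    have hv : gs p c = (⟨_, h.2⟩ : Fin p.m) := by rw [g2]; exact min_eq_left h.2.le
    have hp := toSt_prop l c hu hv
    rw [← hp] at h2
    have : okm p H t l c (orc X Y l c) = false := by
      rw [← Bool.not_eq_true]
      intro h3
      simp only [okm, Bool.and_eq_true (_ && _), vld_iff, allR_iff, expo_eq] at h3
      refine h2 ⟨?_, h3.2⟩
      simp only [mem_toSt]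
      simp only [ixp, ixs, hu, hv, Bool.and_eq_true, Nat.ble_eq, Bool.not_eq_true', ← Bool.not_eq_true] at h3
      exact h3.1.2.2
    rw [this, cond_false]
  · have : okm p H t l c (orc X Y l c) = false := by
      rw [← Bool.not_eq_true]
      intro h3
      simp only [okm, Bool.and_eq_true, Nat.ble_eq] at h3
      omega
    rw [this, cond_false]

theorem Ex_pick (κ k : ℕ) (F : ℕ → Bool → List Bool → ℝ) :
    Ex (κ + (1 + k)) (fun c => F (valU (c.take κ)) (bit c κ) (c.drop (κ + 1))) =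
      (∑ u ∈ range (2 ^ κ), ∑ b, Ex k (F u b)) / (2 * 2 ^ κ) := by
  rw [Ex_append, Ex_congr (g := fun x => (∑ b, Ex k (F (valU x) b)) / 2),
    Ex_val κ fun u => (∑ b, Ex k (F u b)) / 2, ← sum_div, div_div]
  intro x hx
  rw [add_comm 1 k, Ex, Fintype.sum_bool, add_comm]
  subst hx
  simp [bit]

theorem sum_range_dite {m M : ℕ} (h : m ≤ M) (F : Fin m → ℝ) :
    ∑ u ∈ range M, (if hu : u < m then F ⟨u, hu⟩ else 0) = ∑ g, F g := by
  rw [← sum_subset (range_mono h) fun x _ hx => dif_neg (by simpa using hx), sum_range]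
  simp

theorem Ex_move (hκ : 2 * p.m ≤ 2 ^ p.κ) (H : ℕ → List Bool) (t : ℕ) (l : List Bool)
    (hcs : 2 * p.κ + 2 + ex p H t (toSt p l) ≤ p.cs) (f : Finset (Fin p.m × Bool) → ℝ) :
    Ex p.cs (fun c => f (toSt p (move p H t l c (orc X Y l c)))) =
      Pop (cP p) (accp X Y H t) f (toSt p l) := by
  classical
  obtain ⟨d, hd⟩ : ∃ d, p.cs = p.κ + (1 + (p.κ + (1 + d))) := ⟨p.cs - (2 * p.κ + 2), by omega⟩
  set I := toSt p l
  simp only [toSt_move]
  rw [hd, Ex_pick p.κ _ fun u b c => f (mv X Y H t I u b (valU (c.take p.κ)) (bit c p.κ) (c.drop (p.κ + 1)))]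
  simp only [fun u b => Ex_pick p.κ d fun v b' z => f (mv X Y H t I u b v b' z)]
  let D : Fin p.m × Bool → Fin p.m × Bool → ℝ := fun P S =>
    if P ∈ I ∧ S ∉ I then accp X Y H t I (swp I P S) * (f (swp I P S) - f I) else 0
  have e : ∀ u b v b', Ex d (fun z => f (mv X Y H t I u b v b' z)) = f I +
      if hu : u < p.m then (if hv : v < p.m then D (⟨u, hu⟩, b) (⟨v, hv⟩, b') else 0) else 0 := by
    intro u b v b'
    by_cases hu : u < p.m
    swap
    · simp [mv, hu, Ex_const]
    by_cases hv : v < p.m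
    swap
    · simp [mv, hv, Ex_const]
    simp only [mv, hu, hv, and_self, dif_pos, D, accp]
    by_cases h1 : (⟨u, hu⟩, b) ∈ I ∧ (⟨v, hv⟩, b') ∉ I
    swap
    · simp only [h1, false_and, if_false, Ex_const, add_zero]
    by_cases h2 : Vld X Y (swp I (⟨u, hu⟩, b) (⟨v, hv⟩, b'))
    swap
    · simp [h2, Ex_const]
    simp only [h1, h2, true_and, apply_ite f, not_false_eq_true, if_true]
    rw [Ex_all (by omega)]; ring
  simp only [e, sum_add_distrib, sum_const, card_range, card_univ, Fintype.card_bool, nsmul_eq_mul]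
  have hm : p.m ≤ 2 ^ p.κ := by omega
  have e2 : ∀ u b, (∑ v ∈ range (2 ^ p.κ), ∑ b', if hu : u < p.m then
      (if hv : v < p.m then D (⟨u, hu⟩, b) (⟨v, hv⟩, b') else 0) else 0) =
      if hu : u < p.m then ∑ S, D (⟨u, hu⟩, b) S else 0 := by
    intro u b
    by_cases hu : u < p.m
    · simp only [hu, dif_pos]
      rw [sum_comm, Fintype.sum_prod_type_right]
      exact sum_congr rfl fun b' _ => sum_range_dite hm fun g => D (⟨u, hu⟩, b) (g, b')
    · simp [hu]
  simp only [e2, ← sum_div, sum_add_distrib, sum_const, card_range, card_univ, Fintype.card_bool,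
    nsmul_eq_mul]
  rw [sum_comm, sum_congr rfl fun b _ => sum_range_dite hm fun g => ∑ S, D (g, b) S,
    ← Fintype.sum_prod_type_right fun P : Fin p.m × Bool => ∑ S, D P S, Pop_apply, cP]
  push_cast
  field_simp
  rfl

end Vale.Agent.P317
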